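import Vale.Agent.P045.Geo

/-! The deterministic construction: configuration of missing lines, hosts and kept points. -/

set_option linter.unusedSectionVars false

open Finset

namespace Vale.Agent.P045

/-- Index set of the missing lines. -/
abbrev MI (F : Type) := Option F ⊕ (Option F × Bool) × Fin 11

/-- A configuration: split lines, hosts and helper directions. -/
structure Cfg (F : Type) where
  l : Option F → F
  A : Option F × Bool → F × F
  e : Option F × Bool → Fin 11 → Option F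

variable {F : Type} [Field F]

/-- The host responsible for a missing line. -/
def hostOf : MI F → Option F × Bool
  | Sum.inl d => (d, false)
  | Sum.inr (h, _) => h

/-- Admissible labels of kept points. -/
def valid : MI F → Fin 11 → Prop
  | Sum.inl _, _ => True
  | Sum.inr (_, i), j => j ≠ i

namespace Cfg
variable (G : Cfg F)

/-- The missing lines. -/
def ln : MI F → Option F × F
  | Sum.inl d => (d, G.l d)
  | Sum.inr (h, j) => (G.e h j, lam (G.e h j) (G.A h))

/-- `P` lies on no missing line of direction other than `d`. -/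
def Clean (d : Option F) (P : F × F) : Prop := ∀ μ, (G.ln μ).1 ≠ d → ¬ On P (G.ln μ)

/-- `P` lies on no missing line. -/
def Free (P : F × F) : Prop := ∀ μ, ¬ On P (G.ln μ)

/-- Moving kept point. -/
def kpf : MI F → Fin 11 → F → F × F
  | Sum.inl d, _, ξ => pos d (G.l d) ξ
  | Sum.inr (h, i), j, ξ => meet (G.e h j) (lam (G.e h j) (pos h.1 (G.l h.1) ξ)) (G.e h i)
      (lam (G.e h i) (G.A h))

/-- Kept point. -/
def kp (c : Option F → Fin 11 → F) (μ : MI F) (j : Fin 11) : F × F :=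
  G.kpf μ j (c (hostOf μ).1 j)

/-- Requirements on a configuration. -/
structure Ok : Prop where
  onl : ∀ h, On (G.A h) (G.ln (Sum.inl h.1))
  e_ne : ∀ h j, G.e h j ≠ h.1
  e_inj : ∀ d b j b' j', G.e (d, b) j = G.e (d, b') j' → b = b' ∧ j = j'
  host : ∀ h μ, On (G.A h) (G.ln μ) → μ = Sum.inl h.1 ∨ ∃ j, μ = Sum.inr (h, j)

/-- Requirements on the kept points. -/
structure Good (c : Option F → Fin 11 → F) : Prop where
  clean : ∀ μ j, valid μ j → G.Clean (G.ln μ).1 (G.kp c μ j)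
  dist : ∀ μ j j', valid μ j → valid μ j' → G.kp c μ j = G.kp c μ j' → j = j'
  tri : ∀ h (j i : Fin 3 → Fin 11), Function.Injective j → (∀ t, j t ≠ i t) →
    ∀ v, ¬ On (G.A h) v → ¬ ∀ t, On (G.kp c (Sum.inr (h, i t)) (j t)) v
  cross : ∀ Q (μ : Fin 5 → MI F) (j : Fin 5 → Fin 11),
    Function.Injective (fun t => (hostOf (μ t)).1) → (∀ t, valid (μ t) (j t)) →
    (∀ t, Via Q (G.ln (μ t))) → ∀ v, ¬ Via Q v → ¬ ∀ t, On (G.kp c (μ t) (j t)) v

variable {G}

lemma Ok.e_inj' (hG : G.Ok) (h : Option F × Bool) : Function.Injective (G.e h) :=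
  fun j j' hh => (hG.e_inj h.1 h.2 j h.2 j' hh).2

lemma onh (h : Option F × Bool) (j : Fin 11) : On (G.A h) (G.ln (Sum.inr (h, j))) := rfl

lemma Ok.on_host (hG : G.Ok) (μ : MI F) : On (G.A (hostOf μ)) (G.ln μ) := by
  rcases μ with d | ⟨h, j⟩
  · exact hG.onl (d, false)
  · exact onh h j

lemma Ok.ln_inj (hG : G.Ok) : Function.Injective G.ln := by
  intro μ μ' h
  have h1 := hG.on_host μ
  rw [h] at h1
  have hd : (G.ln μ).1 = (G.ln μ').1 := by rw [h]
  rcases μ with d | ⟨h', j⟩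
  · rcases hG.host _ _ h1 with h2 | ⟨j, h2⟩
    · exact h2.symm
    · subst h2
      exact absurd hd.symm (hG.e_ne (d, false) j)
  · rcases hG.host _ _ h1 with h2 | ⟨j', h2⟩
    · subst h2
      exact absurd hd (hG.e_ne h' j)
    · subst h2
      have : j = j' := hG.e_inj' h' hd
      rw [this]; rfl

lemma Ok.kpf_on (hG : G.Ok) {μ : MI F} {j : Fin 11} (hv : valid μ j) (ξ : F) :
    On (G.kpf μ j ξ) (G.ln μ) := by
  rcases μ with d | ⟨h, i⟩
  · exact lam_pos _ _ _
  · exact lam_meet_right (fun hh => hv (hG.e_inj' h hh)) _ _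

lemma Ok.kpf_inj (hG : G.Ok) (μ : MI F) (j : Fin 11) : Function.Injective (G.kpf μ j) := by
  rcases μ with d | ⟨h, i⟩
  · exact pos_inj _ _
  · intro ξ ξ' hh
    have := congrArg (lam (G.e h j)) hh
    simp only [kpf, lam_meet_left] at this
    exact lam_pos_inj (hG.e_ne h j) _ this

lemma Ok.kp_on (hG : G.Ok) (c : Option F → Fin 11 → F) {μ : MI F} {j : Fin 11} (hv : valid μ j) :
    On (G.kp c μ j) (G.ln μ) := hG.kpf_on hv _

lemma kp_x (c : Option F → Fin 11 → F) (h : Option F × Bool) (i j : Fin 11) :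
    lam (G.e h j) (G.kp c (Sum.inr (h, i)) j) = lam (G.e h j) (G.kp c (Sum.inl h.1) j) :=
  lam_meet_left _ _ _ _

lemma Ok.not_clean (hG : G.Ok) (h : Option F × Bool) (d : Option F) : ¬ G.Clean d (G.A h) := by
  intro hc
  by_cases hd : h.1 = d
  · exact hc (Sum.inr (h, 0)) (by rw [← hd]; exact hG.e_ne h 0) (onh h 0)
  · exact hc (Sum.inl h.1) hd (hG.onl h)

lemma Ok.A_inj (hG : G.Ok) : Function.Injective G.A := by
  intro h h' hh
  have h1 := onh (G := G) h 0
  rw [hh] at h1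
  rcases hG.host _ _ h1 with h2 | ⟨j, h2⟩
  · cases h2
  · simp only [Sum.inr.injEq, Prod.mk.injEq] at h2
    exact h2.1

variable (G)

/-- The edge of a point. -/
def eP (P : F × F) : Option F → Option F := fun d => some (lam d P)

open Classical in
/-- The edge of a host. -/
noncomputable def aH (c : Option F → Fin 11 → F) (h : Option F × Bool) : Option F → Option F :=
  fun d => if d = h.1 then none else
    if hj : ∃ j, G.e h j = d then some (lam d (G.kp c (Sum.inl h.1) hj.choose))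
    else some (lam d (G.A h))

/-- The edges of the hypergraph, as choice functions. -/
def Edge (c : Option F → Fin 11 → F) (φ : Option F → Option F) : Prop :=
  (∃ P, (G.Free P ∨ ∃ μ j, valid μ j ∧ P = G.kp c μ j) ∧ φ = eP P) ∨ ∃ h, φ = G.aH c h

variable {G} {c : Option F → Fin 11 → F}

lemma aH_self (h : Option F × Bool) : G.aH c h h.1 = none := by simp [aH]

lemma Ok.aH_e (hG : G.Ok) (h : Option F × Bool) (j : Fin 11) :
    G.aH c h (G.e h j) = some (lam (G.e h j) (G.kp c (Sum.inl h.1) j)) := by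
  have hex : ∃ j', G.e h j' = G.e h j := ⟨j, rfl⟩
  have : hex.choose = j := hG.e_inj' h hex.choose_spec
  simp only [aH, if_neg (hG.e_ne h j), dif_pos hex, this]

lemma aH_other {h : Option F × Bool} {d : Option F} (h1 : d ≠ h.1) (h2 : ∀ j, G.e h j ≠ d) :
    G.aH c h d = some (lam d (G.A h)) := by
  have : ¬ ∃ j, G.e h j = d := fun ⟨j, hj⟩ => h2 j hj
  simp only [aH, if_neg h1, dif_neg this]

/-- A point off the missing lines through a host meets the host edge. -/
lemma aH_meet {h : Option F × Bool} {P : F × F} (hG : G.Ok) (h1 : ¬ On P (G.ln (Sum.inl h.1)))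
    (h2 : ∀ j, ¬ On P (G.ln (Sum.inr (h, j)))) :
    ∃ d, d ≠ h.1 ∧ (∀ j, G.e h j ≠ d) ∧ lam d (G.A h) = lam d P := by
  obtain ⟨d, hd⟩ := exists_join (G.A h) P
  refine ⟨d, ?_, ?_, hd⟩
  · rintro rfl
    exact h1 (hd.symm.trans (hG.onl h))
  · rintro j rfl
    exact h2 j hd.symm

lemma inter_aH_eP (hG : G.Ok) (hc : G.Good c) (h : Option F × Bool) {P : F × F}
    (hP : G.Free P ∨ ∃ μ j, valid μ j ∧ P = G.kp c μ j) : ∃ d, G.aH c h d = eP P d := by
  by_cases hon : ∃ μ, (μ = Sum.inl h.1 ∨ ∃ j, μ = Sum.inr (h, j)) ∧ On P (G.ln μ)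
  · obtain ⟨μ, hμ, hon⟩ := hon
    rcases hP with hP | ⟨μ', j, hv, rfl⟩
    · exact absurd hon (hP μ)
    have hdir : (G.ln μ).1 = (G.ln μ').1 := by
      by_contra hne; exact hc.clean μ' j hv μ hne hon
    have : μ = μ' := hG.ln_inj (On.eq_of_dir hon (hG.kp_on c hv) hdir)
    subst this
    refine ⟨G.e h j, ?_⟩
    rw [hG.aH_e]
    rcases hμ with rfl | ⟨i, rfl⟩
    · rfl
    · simp only [eP, kp_x]
  · push Not at hon
    obtain ⟨d, h1, h2, h3⟩ := aH_meet hG (hon _ (Or.inl rfl)) fun j => hon _ (Or.inr ⟨j, rfl⟩)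
    exact ⟨d, by rw [aH_other h1 h2, h3]; rfl⟩

lemma inter_aH_aH (hG : G.Ok) (h h' : Option F × Bool) : ∃ d, G.aH c h d = G.aH c h' d := by
  by_cases hd : h.1 = h'.1
  · exact ⟨h.1, by rw [aH_self, hd, aH_self]⟩
  have key : ∀ h h' : Option F × Bool, h.1 ≠ h'.1 → ∀ d, lam d (G.A h) = lam d (G.A h') →
      d ≠ h.1 ∧ ∀ j, G.e h j ≠ d := by
    intro h h' hd d hl
    constructor
    · rintro rfl
      rcases hG.host h' (Sum.inl h.1) (hl.symm.trans (hG.onl h)) with h2 | ⟨j, h2⟩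
      · exact hd (Sum.inl.inj h2)
      · cases h2
    · rintro j rfl
      rcases hG.host h' (Sum.inr (h, j)) hl.symm with h2 | ⟨j, h2⟩
      · cases h2
      · simp only [Sum.inr.injEq, Prod.mk.injEq] at h2
        exact hd (by rw [h2.1])
  obtain ⟨d, hl⟩ := exists_join (G.A h) (G.A h')
  obtain ⟨h1, h2⟩ := key h h' hd d hl
  obtain ⟨h3, h4⟩ := key h' h (Ne.symm hd) d hl.symm
  exact ⟨d, by rw [aH_other h1 h2, aH_other h3 h4, hl]⟩

theorem intersecting (hG : G.Ok) (hc : G.Good c) {φ ψ : Option F → Option F} (h1 : G.Edge c φ)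
    (h2 : G.Edge c ψ) : ∃ d, φ d = ψ d := by
  rcases h1 with ⟨P, hP, rfl⟩ | ⟨h, rfl⟩ <;> rcases h2 with ⟨P', hP', rfl⟩ | ⟨h', rfl⟩
  · obtain ⟨d, hd⟩ := exists_join P P'
    exact ⟨d, congrArg some hd⟩
  · obtain ⟨d, hd⟩ := inter_aH_eP hG hc h' hP
    exact ⟨d, hd.symm⟩
  · exact inter_aH_eP hG hc h hP'
  · exact inter_aH_aH hG h h'

end Cfg

end Vale.Agent.P045
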