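import Mathlib

/-! Uniform probability on finite types, bounded differences inequality. -/

set_option linter.unusedSectionVars false

open Finset

namespace Vale.Agent.P045

section Basic
variable {Ω : Type*} [Fintype Ω]

open Classical in
/-- Uniform probability. -/
noncomputable def pr (A : Ω → Prop) : ℝ := ((univ.filter A).card : ℝ) / Fintype.card Ω

/-- Uniform average. -/
noncomputable def avg (f : Ω → ℝ) : ℝ := (∑ ω, f ω) / Fintype.card Ω

lemma pr_eq (A : Ω → Prop) [DecidablePred A] :
    pr A = ((univ.filter A).card : ℝ) / Fintype.card Ω := by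
  unfold pr; congr

lemma pr_nonneg (A : Ω → Prop) : 0 ≤ pr A := by unfold pr; positivity

lemma pr_mono {A B : Ω → Prop} (h : ∀ ω, A ω → B ω) : pr A ≤ pr B := by
  classical
  unfold pr
  gcongr
  exact h _

lemma pr_congr {A B : Ω → Prop} (h : ∀ ω, A ω ↔ B ω) : pr A = pr B :=
  le_antisymm (pr_mono fun ω => (h ω).1) (pr_mono fun ω => (h ω).2)

lemma pr_false : pr (fun _ : Ω => False) = 0 := by simp [pr]

lemma pr_or (A B : Ω → Prop) : pr (fun ω => A ω ∨ B ω) ≤ pr A + pr B := by
  classical
  rw [pr_eq, pr_eq, pr_eq, ← add_div, filter_or]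
  gcongr
  exact_mod_cast card_union_le _ _

lemma pr_exists {ι : Type*} (s : Finset ι) (A : ι → Ω → Prop) :
    pr (fun ω => ∃ i ∈ s, A i ω) ≤ ∑ i ∈ s, pr (A i) := by
  classical
  induction s using Finset.induction_on with
  | empty => simp [pr]
  | insert a s ha ih =>
    rw [sum_insert ha]
    refine le_trans (pr_mono (B := fun ω => A a ω ∨ ∃ i ∈ s, A i ω) ?_) ?_
    · rintro ω ⟨i, hi, h⟩
      rcases mem_insert.1 hi with rfl | hi
      · exact Or.inl h
      · exact Or.inr ⟨i, hi, h⟩
    · exact (pr_or _ _).trans (by linarith)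

lemma pr_exists_le {ι : Type*} [Fintype ι] (A : ι → Ω → Prop) (b : ℝ) (h : ∀ i, pr (A i) ≤ b) :
    pr (fun ω => ∃ i, A i ω) ≤ Fintype.card ι * b := by
  refine le_trans (pr_mono (B := fun ω => ∃ i ∈ univ, A i ω) ?_) ((pr_exists _ _).trans ?_)
  · rintro ω ⟨i, h⟩; exact ⟨i, mem_univ _, h⟩
  · calc ∑ i, pr (A i) ≤ ∑ _i : ι, b := sum_le_sum fun i _ => h i
      _ = _ := by simp

lemma pr_exists_disj {ι : Type*} (s : Finset ι) (A : ι → Ω → Prop)
    (h : ∀ i ∈ s, ∀ j ∈ s, ∀ ω, A i ω → A j ω → i = j) :
    ∑ i ∈ s, pr (A i) ≤ pr (fun ω => ∃ i ∈ s, A i ω) := by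
  classical
  simp only [pr_eq, ← sum_div]
  gcongr
  rw [← Nat.cast_sum, ← card_biUnion]
  · norm_cast
    apply card_le_card
    intro ω
    simp only [mem_biUnion, mem_filter, mem_univ, true_and]
    exact id
  · intro i hi j hj hij
    rw [Function.onFun, disjoint_left]
    intro ω h1 h2
    simp only [mem_filter, mem_univ, true_and] at h1 h2
    exact hij (h i hi j hj ω h1 h2)

lemma exists_not_of_pr_lt_one [Nonempty Ω] {A : Ω → Prop} (h : pr A < 1) : ∃ ω, ¬ A ω := by
  classical
  by_contra hc
  push Not at hc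
  rw [pr_eq, filter_true_of_mem fun ω _ => hc ω, card_univ, div_self] at h
  · exact lt_irrefl _ h
  · exact_mod_cast Fintype.card_ne_zero

lemma avg_card {β : Type*} (s : Finset β) (A : β → Ω → Prop) [∀ ω, DecidablePred fun b => A b ω] :
    avg (fun ω => ((s.filter fun b => A b ω).card : ℝ)) = ∑ b ∈ s, pr (A b) := by
  classical
  simp only [avg, pr_eq, ← sum_div]
  congr 1
  simp_rw [card_filter]
  push_cast
  rw [sum_comm]

lemma markov (f : Ω → ℝ) (hf : ∀ ω, 0 ≤ f ω) {t : ℝ} (ht : 0 < t) :
    pr (fun ω => t ≤ f ω) ≤ avg f / t := by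
  classical
  rw [pr_eq, avg, div_right_comm]
  gcongr
  rw [le_div_iff₀ ht]
  calc ((univ.filter fun ω => t ≤ f ω).card : ℝ) * t
      = ∑ ω ∈ univ.filter fun ω => t ≤ f ω, t := by simp
    _ ≤ ∑ ω ∈ univ.filter fun ω => t ≤ f ω, f ω :=
        sum_le_sum fun ω hω => (mem_filter.1 hω).2
    _ ≤ _ := sum_le_sum_of_subset_of_nonneg (filter_subset _ _) fun ω _ _ => hf ω

end Basic

section Pi
variable {ι α : Type*} [Fintype ι] [DecidableEq ι] [Fintype α]

lemma pr_pi (S : ι → Finset α) :
    pr (fun ω : ι → α => ∀ i, ω i ∈ S i) = ∏ i, ((S i).card : ℝ) / Fintype.card α := by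
  classical
  rw [pr_eq, prod_div_distrib, prod_const, card_univ, Fintype.card_fun]
  push_cast
  congr 1
  rw [← Nat.cast_prod, ← Fintype.card_piFinset]
  congr 2
  ext ω; simp

lemma hoeff [Nonempty α] (X : α → ℝ) (c l : ℝ) (hc : 0 < c) (h0 : ∑ a, X a = 0)
    (hX : ∀ a, |X a| ≤ c) :
    ∑ a, Real.exp (l * X a) ≤ Fintype.card α * Real.exp (l ^ 2 * c ^ 2 / 2) := by
  have h1 : ∀ a, Real.exp (l * X a) ≤ Real.cosh (l * c) + X a * (Real.sinh (l * c) / c) := by
    intro a
    have ha := abs_le.1 (hX a)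
    have h2 := convexOn_exp.2 (Set.mem_univ (-(l * c))) (Set.mem_univ (l * c))
      (show 0 ≤ (c - X a) / (2 * c) from div_nonneg (by linarith) (by linarith))
      (show 0 ≤ (c + X a) / (2 * c) from div_nonneg (by linarith) (by linarith))
      (by field_simp; ring)
    simp only [smul_eq_mul] at h2
    have h3 : (c - X a) / (2 * c) * -(l * c) + (c + X a) / (2 * c) * (l * c) = l * X a := by
      field_simp; ring
    rw [h3] at h2
    refine h2.trans (le_of_eq ?_)
    rw [Real.cosh_eq, Real.sinh_eq]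
    field_simp; ring
  calc ∑ a, Real.exp (l * X a) ≤ ∑ a, (Real.cosh (l * c) + X a * (Real.sinh (l * c) / c)) :=
        sum_le_sum fun a _ => h1 a
    _ = Fintype.card α * Real.cosh (l * c) := by
        rw [sum_add_distrib, ← sum_mul, h0]; simp
    _ ≤ _ := by
        gcongr
        have := Real.cosh_le_exp_half_sq (l * c)
        rwa [mul_pow] at this

lemma mgf_fin [Nonempty α] (c l : ℝ) (hc : 0 < c) : ∀ (n : ℕ) (f : (Fin n → α) → ℝ),
    (∀ ω i a, |f (Function.update ω i a) - f ω| ≤ c) →
    ∑ ω, Real.exp (l * (f ω - avg f))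
      ≤ (Fintype.card α * Real.exp (l ^ 2 * c ^ 2 / 2)) ^ n := by
  classical
  have hα : (0:ℝ) < Fintype.card α := by exact_mod_cast Fintype.card_pos
  intro n
  induction n with
  | zero =>
    intro f _
    simp [avg]
  | succ n ih =>
    intro f hf
    set g : (Fin n → α) → ℝ := fun ω => (∑ a, f (Fin.cons a ω)) / Fintype.card α with hg
    have hsum : ∀ G : (Fin (n+1) → α) → ℝ,
        ∑ ω, G ω = ∑ ω : Fin n → α, ∑ a, G (Fin.cons a ω) := by
      intro G
      rw [← (Fin.consEquiv fun _ => α).sum_comp, Fintype.sum_prod_type, sum_comm]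
      rfl
    have hgl : ∀ ω i a, |g (Function.update ω i a) - g ω| ≤ c := by
      intro ω i a
      simp only [hg]
      rw [← sub_div, ← sum_sub_distrib, abs_div, abs_of_pos hα, div_le_iff₀ hα]
      refine (abs_sum_le_sum_abs _ _).trans ?_
      calc ∑ b, |f (Fin.cons b (Function.update ω i a)) - f (Fin.cons b ω)| ≤ ∑ _b : α, c := by
            refine sum_le_sum fun b _ => ?_
            rw [Fin.cons_update]
            exact hf _ _ _
        _ = c * Fintype.card α := by simp [mul_comm]
    have havg : avg g = avg f := by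
      simp only [avg, hg]
      rw [hsum f, ← sum_div, Fintype.card_fun, Fintype.card_fun]
      simp only [Fintype.card_fin]
      push_cast
      field_simp
      ring
    rw [hsum, pow_succ]
    calc ∑ ω : Fin n → α, ∑ a, Real.exp (l * (f (Fin.cons a ω) - avg f))
        = ∑ ω : Fin n → α, Real.exp (l * (g ω - avg g))
            * ∑ a, Real.exp (l * (f (Fin.cons a ω) - g ω)) := by
          refine sum_congr rfl fun ω _ => ?_
          rw [mul_sum]
          refine sum_congr rfl fun a _ => ?_
          rw [← Real.exp_add, havg]; congr 1; ring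
      _ ≤ ∑ ω : Fin n → α, Real.exp (l * (g ω - avg g))
            * (Fintype.card α * Real.exp (l ^ 2 * c ^ 2 / 2)) := by
          refine sum_le_sum fun ω _ => ?_
          gcongr
          apply hoeff _ c l hc
          · rw [sum_sub_distrib, sum_const, card_univ, nsmul_eq_mul]
            simp only [hg]; field_simp; ring
          · intro a
            have : f (Fin.cons a ω) - g ω
                = (∑ b, (f (Fin.cons a ω) - f (Fin.cons b ω))) / Fintype.card α := by
              rw [sum_sub_distrib, sum_const, card_univ, nsmul_eq_mul]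
              simp only [hg]; field_simp
            rw [this, abs_div, abs_of_pos hα, div_le_iff₀ hα]
            refine (abs_sum_le_sum_abs _ _).trans ?_
            calc ∑ b, |f (Fin.cons a ω) - f (Fin.cons b ω)| ≤ ∑ _b : α, c := by
                  refine sum_le_sum fun b _ => ?_
                  have := hf (Fin.cons b ω) 0 a
                  rwa [Fin.update_cons_zero] at this
              _ = c * Fintype.card α := by simp [mul_comm]
      _ ≤ _ := by
          rw [← sum_mul]
          gcongr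
          exact ih g hgl

lemma mgf_pi [Nonempty α] (c l : ℝ) (hc : 0 < c) (f : (ι → α) → ℝ)
    (hf : ∀ ω i a, |f (Function.update ω i a) - f ω| ≤ c) :
    ∑ ω, Real.exp (l * (f ω - avg f))
      ≤ (Fintype.card α * Real.exp (l ^ 2 * c ^ 2 / 2)) ^ Fintype.card ι := by
  classical
  let e := Fintype.equivFin ι
  let E : (Fin (Fintype.card ι) → α) ≃ (ι → α) := (Equiv.arrowCongr e (Equiv.refl α)).symm
  have hE : ∀ ω, E ω = ω ∘ e := fun ω => rfl
  have h := mgf_fin c l hc (Fintype.card ι) (fun ω => f (E ω)) (by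
    intro ω i a
    rw [hE, hE, Function.update_comp_equiv]
    exact hf _ _ _)
  have havg : avg (fun ω => f (E ω)) = avg f := by
    simp only [avg]
    rw [E.sum_comp f, Fintype.card_congr E]
  rw [havg] at h
  rwa [← E.sum_comp]

/-- Bounded differences inequality, upper tail. -/
lemma mcd_upper [Nonempty α] [Nonempty ι] (c t : ℝ) (hc : 0 < c) (ht : 0 ≤ t) (f : (ι → α) → ℝ)
    (hf : ∀ ω i a, |f (Function.update ω i a) - f ω| ≤ c) :
    pr (fun ω => avg f + t ≤ f ω) ≤ Real.exp (-(t ^ 2 / (2 * Fintype.card ι * c ^ 2))) := by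
  classical
  have hα : (0:ℝ) < Fintype.card α := by exact_mod_cast Fintype.card_pos
  have hn : (0:ℝ) < Fintype.card ι := by exact_mod_cast Fintype.card_pos
  set l := t / (Fintype.card ι * c ^ 2) with hl
  have hl0 : 0 ≤ l := by positivity
  have h1 := markov (fun ω => Real.exp (l * (f ω - avg f))) (fun ω => (Real.exp_pos _).le)
    (Real.exp_pos (l * t))
  refine le_trans (pr_mono ?_) (h1.trans ?_)
  · intro ω h
    apply Real.exp_le_exp.2
    exact mul_le_mul_of_nonneg_left (by linarith) hl0
  · have h2 := mgf_pi c l hc f hf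
    rw [avg, div_div, div_le_iff₀ (by positivity)]
    refine h2.trans (le_of_eq ?_)
    rw [mul_pow, ← Real.exp_nat_mul, Fintype.card_fun]
    push_cast
    rw [mul_left_comm, ← Real.exp_add]
    congr 2
    simp only [hl]
    field_simp
    ring

/-- Bounded differences inequality, lower tail. -/
lemma mcd_lower [Nonempty α] [Nonempty ι] (c t : ℝ) (hc : 0 < c) (ht : 0 ≤ t) (f : (ι → α) → ℝ)
    (hf : ∀ ω i a, |f (Function.update ω i a) - f ω| ≤ c) :
    pr (fun ω => f ω ≤ avg f - t) ≤ Real.exp (-(t ^ 2 / (2 * Fintype.card ι * c ^ 2))) := by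
  have h := mcd_upper c t hc ht (fun ω => - f ω) (by
    intro ω i a
    rw [← abs_neg]; convert hf ω i a using 2; ring)
  refine le_trans (pr_mono ?_) h
  intro ω hω
  have : avg (fun ω => - f ω) = - avg f := by simp [avg, neg_div]
  rw [this]; linarith

end Pi

lemma ev_poly_exp (A : ℕ) {a b : ℝ} (ha : 0 < a) (hb : 0 < b) :
    ∀ᶠ q : ℕ in Filter.atTop, (q:ℝ) ^ A * Real.exp (-(a * q)) < b := by
  have h1 := Real.tendsto_pow_mul_exp_neg_atTop_nhds_zero A
  have h2 : Filter.Tendsto (fun q : ℕ => a * (q:ℝ)) Filter.atTop Filter.atTop :=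
    Filter.Tendsto.const_mul_atTop ha tendsto_natCast_atTop_atTop
  have h3 := (h1.comp h2).eventually (gt_mem_nhds (show (0:ℝ) < b * a ^ A by positivity))
  filter_upwards [h3] with q hq
  simp only [Function.comp] at hq
  rw [mul_pow, mul_assoc, mul_comm b] at hq
  exact lt_of_mul_lt_mul_left hq (by positivity)

end Vale.Agent.P045
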