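import Vale.Agent.P045.Cfg

/-! No cover with at most `q` vertices. -/

set_option linter.unusedSectionVars false

open Finset

namespace Vale.Agent.P045

variable {F : Type} [Field F] [Fintype F] [DecidableEq F]

lemma card_via_inr (d : Option F) :
    (univ.filter (Via (Sum.inr d : (F × F) ⊕ Option F))).card = Fintype.card F := by
  have : (univ.filter (Via (Sum.inr d : (F × F) ⊕ Option F))) = univ.image fun b => (d, b) := by
    ext ⟨d', b⟩
    simp [Via, eq_comm]
  rw [this, card_image_of_injective, card_univ]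
  intro b b' h; exact (Prod.ext_iff.1 h).2

lemma card_via_inl (P : F × F) :
    (univ.filter (Via (Sum.inl P : (F × F) ⊕ Option F))).card = Fintype.card F + 1 :=
  card_lines_on P

lemma exists_emb_of_le_card {β : Type*} {s : Finset β} {n : ℕ} (h : n ≤ s.card) :
    ∃ f : Fin n → β, Function.Injective f ∧ ∀ t, f t ∈ s := by
  refine ⟨fun t => (s.equivFin.symm (Fin.castLE h t)).1, ?_, fun t => (s.equivFin.symm _).2⟩
  intro a b hab
  exact Fin.castLE_injective h (s.equivFin.symm.injective (Subtype.ext hab))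

namespace Cfg
variable {G : Cfg F} {c : Option F → Fin 11 → F}

instance (μ : MI F) (j : Fin 11) : Decidable (valid μ j) := by
  rcases μ with d | ⟨h, i⟩ <;> unfold valid <;> infer_instance

lemma card_valid (μ : MI F) : 10 ≤ (univ.filter (valid μ)).card := by
  rcases μ with d | ⟨h, i⟩
  · have : univ.filter (valid (Sum.inl d : MI F)) = univ := by ext j; simp [valid]
    rw [this]; simp
  · have : univ.filter (valid (Sum.inr (h, i) : MI F)) = univ.erase i := by ext j; simp [valid]
    rw [this, card_erase_of_mem (mem_univ _)]; simp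

lemma pencil (hG : G.Ok) (m : ℕ)
    (rich : ∀ L : Option F × F, ∃ S ⊆ pts L, 2 * m < S.card ∧ ∀ P ∈ S, G.Clean L.1 P)
    (C : Finset (Option F × F)) (hC : C.card ≤ Fintype.card F)
    (hcov : ∀ P, G.Free P → ∃ L ∈ C, On P L) (Q : (F × F) ⊕ Option F)
    (hQ : Fintype.card F + 1 ≤ (C.filter (Via Q)).card + 2 * m)
    (L : Option F × F) (hL : Via Q L) (hLm : ∀ μ, G.ln μ ≠ L) : L ∈ C := by
  classical
  by_contra hLC
  obtain ⟨S, hS, hSc, hcl⟩ := rich L
  have hfree : ∀ P ∈ S, G.Free P := by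
    intro P hP μ hon
    by_cases hd : (G.ln μ).1 = L.1
    · exact hLm μ (On.eq_of_dir hon (mem_pts.1 (hS hP)) hd)
    · exact hcl P hP μ hd hon
  choose! f hf1 hf2 using fun P hP => hcov P (hfree P hP)
  have h1 : (S.filter fun P => Q ≠ Sum.inl P).card ≤ (C.filter fun v => ¬ Via Q v).card := by
    apply card_le_card_of_injOn f
    · intro P hP
      simp only [coe_filter, Set.mem_ofPred_eq] at hP ⊢
      refine ⟨hf1 P hP.1, fun hv => hLC ?_⟩
      rw [Via.line_eq hL hv (mem_pts.1 (hS hP.1)) (hf2 P hP.1) hP.2]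
      exact hf1 P hP.1
    · intro P hP P' hP' h
      simp only [coe_filter, Set.mem_ofPred_eq] at hP hP'
      refine On.pt_eq (mem_pts.1 (hS hP.1)) (mem_pts.1 (hS hP'.1)) (hf2 P hP.1)
        (h ▸ hf2 P' hP'.1) ?_
      rintro rfl
      exact hLC (hf1 P hP.1)
  have h2 : (S.filter fun P => ¬ Q ≠ Sum.inl P).card ≤ 1 := by
    rw [card_le_one]
    intro P hP P' hP'
    simp only [mem_filter, not_not] at hP hP'
    exact Sum.inl.inj (hP.2.symm.trans hP'.2)
  have h3 := card_filter_add_card_filter_not (s := S) (fun P => Q ≠ Sum.inl P)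
  have h4 := card_filter_add_card_filter_not (s := C) (Via Q)
  omega

lemma nonhost (hG : G.Ok) (hc : G.Good c) (C : Finset (Option F × F))
    (hcov : ∀ μ j, valid μ j → ∃ L ∈ C, On (G.kp c μ j) L) (Q : (F × F) ⊕ Option F)
    (hQ : ∀ h, Q ≠ Sum.inl (G.A h)) :
    9 * (univ.filter fun μ => Via Q (G.ln μ) ∧ G.ln μ ∉ C).card
      ≤ 8 * (C.filter fun v => ¬ Via Q v).card := by
  classical
  set J := univ.filter fun μ => Via Q (G.ln μ) ∧ G.ln μ ∉ C with hJ
  set T : Finset (MI F × Fin 11) := univ.filter fun x => x.1 ∈ J ∧ valid x.1 x.2 ∧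
    Q ≠ Sum.inl (G.kp c x.1 x.2) with hT
  have h1 : 9 * J.card ≤ T.card := by
    apply mul_card_image_le_card_of_maps_to (f := Prod.fst) (fun x hx => (mem_filter.1 hx).2.1)
    intro μ hμ
    have h2 : ((univ.filter (valid μ)).filter fun j => Q ≠ Sum.inl (G.kp c μ j)).card
        ≤ (T.filter fun x => x.1 = μ).card := by
      apply card_le_card_of_injOn (fun j => (μ, j))
      · intro j hj
        simp only [coe_filter, mem_filter, mem_univ, true_and, Set.mem_ofPred_eq] at hj
        simp only [hT, coe_filter, mem_filter, mem_univ, true_and, Set.mem_ofPred_eq, and_true]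
        exact ⟨hμ, hj⟩
      · intro j _ j' _ h; exact (Prod.ext_iff.1 h).2
    have h3 : ((univ.filter (valid μ)).filter fun j => ¬ Q ≠ Sum.inl (G.kp c μ j)).card ≤ 1 := by
      rw [card_le_one]
      intro j hj j' hj'
      simp only [mem_filter, not_not, mem_univ, true_and] at hj hj'
      exact hc.dist μ j j' hj.1 hj'.1 (Sum.inl.inj (hj.2.symm.trans hj'.2))
    have h4 := card_filter_add_card_filter_not (s := univ.filter (valid μ))
      (fun j => Q ≠ Sum.inl (G.kp c μ j))
    have := card_valid μ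
    omega
  choose! f hf1 hf2 using hcov
  have hfv : ∀ x ∈ T, ¬ Via Q (f x.1 x.2) := by
    intro x hx hv
    obtain ⟨hx1, hx2, hx3⟩ := (mem_filter.1 hx).2
    obtain ⟨hx4, hx5⟩ := (mem_filter.1 hx1).2
    apply hx5
    rw [Via.line_eq hx4 hv (hG.kp_on c hx2) (hf2 _ _ hx2) hx3]
    exact hf1 _ _ hx2
  have h2 : T.card ≤ 8 * (C.filter fun v => ¬ Via Q v).card := by
    apply card_le_mul_card_image_of_maps_to (f := fun x => f x.1 x.2)
    · intro x hx
      exact mem_filter.2 ⟨hf1 _ _ (mem_filter.1 hx).2.2.1, hfv x hx⟩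
    intro v hv
    have hv2 := (mem_filter.1 hv).2
    have hb : ∀ b : Bool,
        ((T.filter fun x => f x.1 x.2 = v).filter fun x => (hostOf x.1).2 = b).card ≤ 4 := by
      intro b
      by_contra hlt
      obtain ⟨g, hg, hg2⟩ := exists_emb_of_le_card (n := 5) (not_le.1 hlt)
      simp only [mem_filter, hT, hJ, mem_univ, true_and] at hg2
      have hon : ∀ t, On (G.kp c (g t).1 (g t).2) v := fun t => by
        rw [← (hg2 t).1.2]; exact hf2 _ _ (hg2 t).1.1.2.1
      refine hc.cross Q (fun t => (g t).1) (fun t => (g t).2) ?_ (fun t => (hg2 t).1.1.2.1)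
        (fun t => (hg2 t).1.1.1.1) v hv2 hon
      intro t t' htt
      apply hg
      have hh : hostOf (g t).1 = hostOf (g t').1 :=
        Prod.ext htt ((hg2 t).2.trans (hg2 t').2.symm)
      have hμ : (g t).1 = (g t').1 := by
        apply hG.ln_inj
        exact Via.line_eq (hg2 t).1.1.1.1 (hg2 t').1.1.1.1 (hG.on_host _) (hh ▸ hG.on_host _) (hQ _)
      refine Prod.ext hμ ?_
      apply hc.dist (g t).1 _ _ (hg2 t).1.1.2.1 (hμ ▸ (hg2 t').1.1.2.1)
      refine On.pt_eq (hG.kp_on c (hg2 t).1.1.2.1) (hG.kp_on c (hμ ▸ (hg2 t').1.1.2.1)) (hon t)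
        (hμ ▸ hon t') ?_
      rintro rfl
      exact hv2 (hg2 t).1.1.1.1
    have h3 := card_filter_add_card_filter_not (s := T.filter fun x => f x.1 x.2 = v)
      (fun x => (hostOf x.1).2 = true)
    have h4 := hb true
    have h5 := hb false
    simp only [Bool.not_eq_true] at h3
    omega
  omega

lemma kp_ne_A (hG : G.Ok) (hc : G.Good c) {μ : MI F} {j : Fin 11} (hv : valid μ j)
    (h : Option F × Bool) : G.kp c μ j ≠ G.A h := by
  intro hh
  exact hG.not_clean h _ (hh ▸ hc.clean μ j hv)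

/-- The pairs whose kept point lies on `v`. -/
def prs (G : Cfg F) (c : Option F → Fin 11 → F) (h : Option F × Bool) (v : Option F × F) :
    Finset (Fin 11 × Fin 11) :=
  univ.filter fun x => x.1 ≠ x.2 ∧ On (G.kp c (Sum.inr (h, x.2)) x.1) v

lemma prs_generic (hG : G.Ok) (hc : G.Good c) (h : Option F × Bool) (v : Option F × F)
    (hA : ¬ On (G.A h) v) (hx : ∀ j, v ≠ (G.e h j, lam (G.e h j) (G.kp c (Sum.inl h.1) j))) :
    (prs G c h v).card ≤ 2 := by
  by_contra hlt
  obtain ⟨g, hg, hg2⟩ := exists_emb_of_le_card (n := 3) (not_le.1 hlt)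
  simp only [prs, mem_filter, mem_univ, true_and] at hg2
  refine hc.tri h (fun t => (g t).1) (fun t => (g t).2) ?_ (fun t => (hg2 t).1) v hA
    (fun t => (hg2 t).2)
  intro t t' htt
  simp only at htt
  apply hg
  refine Prod.ext htt ?_
  by_contra hne
  apply hx (g t).1
  refine On.line_eq (hg2 t).2 (hg2 t').2 (kp_x c h _ _) (by rw [htt]; exact kp_x c h _ _) ?_
  intro heq
  have h1 : On (G.kp c (Sum.inr (h, (g t).2)) (g t).1) (G.ln (Sum.inr (h, (g t).2))) :=
    hG.kp_on c (hg2 t).1
  have h2 : On (G.kp c (Sum.inr (h, (g t).2)) (g t).1) (G.ln (Sum.inr (h, (g t').2))) :=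
    heq ▸ hG.kp_on c (hg2 t').1
  refine kp_ne_A hG hc (μ := Sum.inr (h, (g t).2)) (hg2 t).1 h
    (On.pt_eq h1 (onh h _) h2 (onh h _) fun hl => hne ?_)
  have := hG.ln_inj hl
  simpa using this

lemma prs_le (hG : G.Ok) (hc : G.Good c) (h : Option F × Bool) (v : Option F × F) :
    (prs G c h v).card ≤ 10 := by
  by_cases hA : On (G.A h) v
  · rcases (prs G c h v).eq_empty_or_nonempty with h0 | ⟨x, hx⟩
    · simp [h0]
    have key : ∀ y ∈ prs G c h v, v = G.ln (Sum.inr (h, y.2)) := by
      intro y hy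
      simp only [prs, mem_filter, mem_univ, true_and] at hy
      exact On.line_eq hy.2 hA (hG.kp_on c (μ := Sum.inr (h, y.2)) hy.1) (onh h _)
        (kp_ne_A hG hc (μ := Sum.inr (h, y.2)) hy.1 h)
    have : (prs G c h v).card ≤ (univ.erase x.2).card := by
      apply card_le_card_of_injOn Prod.fst
      · intro y hy
        have h1 := hG.ln_inj ((key x hx).symm.trans (key y hy))
        simp only [Sum.inr.injEq, Prod.mk.injEq, true_and] at h1
        simp only [prs, coe_filter, mem_univ, true_and, Set.mem_ofPred_eq] at hy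
        simp [h1, hy.1]
      · intro y hy y' hy' hh
        have h1 := hG.ln_inj ((key y hy).symm.trans (key y' hy'))
        simp only [Sum.inr.injEq, Prod.mk.injEq, true_and] at h1
        exact Prod.ext hh h1
    simpa using this
  by_cases hx : ∀ j, v ≠ (G.e h j, lam (G.e h j) (G.kp c (Sum.inl h.1) j))
  · exact (prs_generic hG hc h v hA hx).trans (by norm_num)
  push Not at hx
  obtain ⟨j, rfl⟩ := hx
  have : (prs G c h (G.e h j, lam (G.e h j) (G.kp c (Sum.inl h.1) j))).card
      ≤ (univ.erase j).card := by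
    apply card_le_card_of_injOn Prod.snd
    · intro y hy
      simp only [prs, coe_filter, mem_univ, true_and, Set.mem_ofPred_eq] at hy
      simp only [coe_erase, coe_univ, Set.mem_sdiff, Set.mem_univ, Set.mem_singleton_iff, true_and]
      rintro rfl
      apply hA
      rw [On.eq_of_dir hy.2 (hG.kp_on c (μ := Sum.inr (h, y.2)) hy.1) rfl]
      exact onh h _
    · intro y hy y' hy' hh
      simp only [prs, coe_filter, mem_univ, true_and, Set.mem_ofPred_eq] at hy hy'
      refine Prod.ext ?_ hh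
      apply hc.dist (Sum.inr (h, y.2)) _ _ hy.1 (by rw [hh]; exact hy'.1)
      refine On.pt_eq (hG.kp_on c (μ := Sum.inr (h, y.2)) hy.1)
        (hG.kp_on c (μ := Sum.inr (h, y.2)) (by rw [hh]; exact hy'.1)) hy.2
        (by rw [hh]; exact hy'.2) ?_
      intro hl
      exact hA (hl ▸ onh h _)
  simpa using this

lemma host_case (hG : G.Ok) (hc : G.Good c) (C : Finset (Option F × F))
    (hcov : ∀ μ j, valid μ j → ∃ L ∈ C, On (G.kp c μ j) L) (h : Option F × Bool)
    (hpen : ∀ L, On (G.A h) L → (∀ μ, G.ln μ ≠ L) → L ∈ C)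
    (hb : C.card + 1 ≤ Fintype.card F ∨ (C.card ≤ Fintype.card F ∧
      ∃ v ∈ C, G.aH c (h.1, !h.2) v.1 = some v.2)) : False := by
  classical
  set N0 := univ.filter fun L => On (G.A h) L ∧ ∀ μ, G.ln μ ≠ L with hN0
  have hN0C : N0 ⊆ C := fun L hL => hpen L (mem_filter.1 hL).2.1 (mem_filter.1 hL).2.2
  have hN0c : Fintype.card F + 1 ≤ N0.card + 12 := by
    have hsub : (univ.filter fun L => On (G.A h) L) ⊆ N0 ∪ insert (G.ln (Sum.inl h.1))
        (univ.image fun j => G.ln (Sum.inr (h, j))) := by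
      intro L hL
      have hL' := (mem_filter.1 hL).2
      by_cases hm : ∀ μ, G.ln μ ≠ L
      · exact mem_union_left _ (mem_filter.2 ⟨mem_univ _, hL', hm⟩)
      · push Not at hm
        obtain ⟨μ, rfl⟩ := hm
        apply mem_union_right
        rcases hG.host h μ hL' with rfl | ⟨j, rfl⟩
        · exact mem_insert_self _ _
        · exact mem_insert_of_mem (mem_image.2 ⟨j, mem_univ _, rfl⟩)
    have h1 := (card_le_card hsub).trans (card_union_le _ _)
    have h2 := card_insert_le (G.ln (Sum.inl h.1)) (univ.image fun j => G.ln (Sum.inr (h, j)))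
    have h3 := card_image_le (s := univ) (f := fun j => G.ln (Sum.inr (h, j)))
    rw [card_lines_on] at h1
    simp only [card_univ, Fintype.card_fin] at h3
    omega
  have hcard : (C \ N0).card + N0.card = C.card := card_sdiff_add_card_eq_card hN0C
  have hsub : (univ.filter fun x : Fin 11 × Fin 11 => x.1 ≠ x.2) ⊆ (C \ N0).biUnion (prs G c h) := by
    intro x hx
    have hx' : valid (Sum.inr (h, x.2) : MI F) x.1 := (mem_filter.1 hx).2
    obtain ⟨v, hv, hon⟩ := hcov _ _ hx'
    refine mem_biUnion.2 ⟨v, mem_sdiff.2 ⟨hv, fun hn => ?_⟩, mem_filter.2 ⟨mem_univ _, hx', hon⟩⟩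
    obtain ⟨h1, h2⟩ := (mem_filter.1 hn).2
    exact h2 _ (On.line_eq (hG.kp_on c hx') (onh h _) hon h1 (kp_ne_A hG hc hx' h))
  have h110 : (univ.filter fun x : Fin 11 × Fin 11 => x.1 ≠ x.2).card = 110 := by decide
  have h1 := (card_le_card hsub).trans card_biUnion_le
  rw [h110] at h1
  rcases hb with hb | ⟨hb, v, hv, hvb⟩
  · have h2 : ∑ v ∈ C \ N0, (prs G c h v).card ≤ ∑ _v ∈ C \ N0, 10 :=
      sum_le_sum fun v _ => prs_le hG hc h v
    rw [sum_const, smul_eq_mul] at h2
    omega
  · set h' : Option F × Bool := (h.1, !h.2) with hh'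
    have hne : h' ≠ h := fun hh => by
      have := congrArg Prod.snd hh
      simp [hh'] at this
    have hvd : v.1 ≠ h.1 := by
      intro hh
      rw [hh, show h.1 = h'.1 from rfl, aH_self] at hvb
      cases hvb
    have hvl : v ≠ G.ln (Sum.inl h.1) := fun hh => hvd (by rw [hh]; rfl)
    have hC : ∀ j, On (G.kp c (Sum.inl h.1) j) (G.ln (Sum.inl h.1)) :=
      fun j => hG.kp_on c (μ := Sum.inl h.1) trivial
    have hR : (∃ i, v.1 = G.e h' i ∧ On (G.kp c (Sum.inl h.1) i) v) ∨ On (G.A h') v := by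
      by_cases he : ∃ i, G.e h' i = v.1
      · obtain ⟨i, hi⟩ := he
        left
        refine ⟨i, hi.symm, ?_⟩
        rw [← hi, hG.aH_e] at hvb
        rw [On, ← hi]
        exact Option.some.inj hvb
      · right
        push Not at he
        rw [aH_other (h := h') hvd he] at hvb
        exact Option.some.inj hvb
    have hA : ¬ On (G.A h) v := by
      intro hA
      rcases hR with ⟨i, -, hi⟩ | hR
      · exact kp_ne_A hG hc (μ := Sum.inl h.1) trivial h
          (On.pt_eq hi hA (hC i) (hG.onl h) hvl)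
      · exact hne (hG.A_inj (On.pt_eq hR hA (hG.onl h') (hG.onl h) hvl))
    have hx : ∀ j, v ≠ (G.e h j, lam (G.e h j) (G.kp c (Sum.inl h.1) j)) := by
      intro j hj
      have hj2 : On (G.kp c (Sum.inl h.1) j) v := by rw [hj]; rfl
      rcases hR with ⟨i, hi1, -⟩ | hR
      · have : G.e (h.1, h.2) j = G.e (h.1, !h.2) i := by rw [← hi1, hj]
        simpa using (hG.e_inj _ _ _ _ _ this).1
      · exact kp_ne_A hG hc (μ := Sum.inl h.1) trivial h'
          (On.pt_eq hj2 hR (hC j) (hG.onl h') hvl)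
    have hvN : v ∈ C \ N0 := mem_sdiff.2 ⟨hv, fun hn => hA (mem_filter.1 hn).2.1⟩
    rw [← add_sum_erase _ _ hvN] at h1
    have h2 : ∑ v ∈ (C \ N0).erase v, (prs G c h v).card ≤ ∑ _v ∈ (C \ N0).erase v, 10 :=
      sum_le_sum fun v _ => prs_le hG hc h v
    rw [sum_const, smul_eq_mul, card_erase_of_mem hvN] at h2
    have h3 := prs_generic hG hc h v hA hx
    omega

theorem no_cover (hG : G.Ok) (hc : G.Good c) (m : ℕ)
    (rich : ∀ L : Option F × F, ∃ S ⊆ pts L, 2 * m < S.card ∧ ∀ P ∈ S, G.Clean L.1 P)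
    (stab : ∀ C : Finset (Option F × F), C.card ≤ Fintype.card F →
      (∀ P, G.Free P → ∃ L ∈ C, On P L) →
      ∃ Q, Fintype.card F + 1 ≤ (C.filter (Via Q)).card + 2 * m)
    (D : Finset (Option F × Option F)) (hD : D.card ≤ Fintype.card F) :
    ∃ φ, G.Edge c φ ∧ ∀ d, (d, φ d) ∉ D := by
  classical
  by_contra hcon
  push Not at hcon
  set C : Finset (Option F × F) := univ.filter fun L => (L.1, some L.2) ∈ D with hCdef
  have hinj : Function.Injective fun L : Option F × F => (L.1, some L.2) := by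
    intro L L' h
    simp only [Prod.mk.injEq, Option.some.injEq] at h
    exact Prod.ext h.1 h.2
  have hC1 : C.card ≤ D.card :=
    card_le_card_of_injOn _ (fun L hL => (mem_filter.1 hL).2) hinj.injOn
  have hC2 : ∀ d, (d, none) ∈ D → C.card + 1 ≤ D.card := by
    intro d hd
    have : C.card ≤ (D.erase (d, none)).card := by
      refine card_le_card_of_injOn _ (fun L hL => ?_) hinj.injOn
      simp only [coe_erase, Set.mem_sdiff, mem_coe, Set.mem_singleton_iff]
      exact ⟨(mem_filter.1 hL).2, by simp⟩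
    rw [card_erase_of_mem hd] at this
    have := card_pos.2 ⟨_, hd⟩
    omega
  have hpt : ∀ P, (G.Free P ∨ ∃ μ j, valid μ j ∧ P = G.kp c μ j) → ∃ L ∈ C, On P L := by
    intro P hP
    obtain ⟨d, hd⟩ := hcon (eP P) (Or.inl ⟨P, hP, rfl⟩)
    exact ⟨(d, lam d P), mem_filter.2 ⟨mem_univ _, hd⟩, rfl⟩
  have hhost : ∀ h, C.card + 1 ≤ Fintype.card F ∨ (C.card ≤ Fintype.card F ∧
      ∃ v ∈ C, G.aH c h v.1 = some v.2) := by
    intro h
    obtain ⟨d, hd⟩ := hcon (G.aH c h) (Or.inr ⟨h, rfl⟩)
    cases hφ : G.aH c h d with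
    | none => left; rw [hφ] at hd; exact (hC2 d hd).trans hD
    | some b =>
      right; rw [hφ] at hd
      exact ⟨hC1.trans hD, (d, b), mem_filter.2 ⟨mem_univ _, hd⟩, hφ⟩
  have hfree := fun P hP => hpt P (Or.inl hP)
  have hkp : ∀ μ j, valid μ j → ∃ L ∈ C, On (G.kp c μ j) L :=
    fun μ j hv => hpt _ (Or.inr ⟨μ, j, hv, rfl⟩)
  obtain ⟨Q, hQ⟩ := stab C (hC1.trans hD) hfree
  have hpen := pencil hG m rich C (hC1.trans hD) hfree Q hQ
  by_cases hQh : ∃ h, Q = Sum.inl (G.A h)
  · obtain ⟨h, rfl⟩ := hQh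
    exact host_case hG hc C hkp h hpen (hhost _)
  push Not at hQh
  have h1 := nonhost hG hc C hkp Q hQh
  set J := univ.filter fun μ => Via Q (G.ln μ) ∧ G.ln μ ∉ C with hJ
  have h2 : (univ.filter (Via Q)).card ≤ (C.filter (Via Q)).card + J.card := by
    have hsub : univ.filter (Via Q) ⊆ C.filter (Via Q) ∪ J.image G.ln := by
      intro L hL
      have hL' := (mem_filter.1 hL).2
      by_cases hLC : L ∈ C
      · exact mem_union_left _ (mem_filter.2 ⟨hLC, hL'⟩)
      · apply mem_union_right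
        by_contra hn
        apply hLC
        apply hpen L hL'
        rintro μ rfl
        exact hn (mem_image.2 ⟨μ, mem_filter.2 ⟨mem_univ _, hL', hLC⟩, rfl⟩)
    exact (card_le_card hsub).trans ((card_union_le _ _).trans (by
      have := card_image_le (s := J) (f := G.ln); omega))
  have h3 := card_filter_add_card_filter_not (s := C) (Via Q)
  have h4 := hC1.trans hD
  cases Q with
  | inl P => rw [card_via_inl] at h2; omega
  | inr d =>
    rw [card_via_inr] at h2
    rcases hhost (d, false) with h5 | ⟨-, v, hv, h5⟩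
    · omega
    · have : 0 < (C.filter fun v => ¬ Via (Sum.inr d) v).card := by
        refine card_pos.2 ⟨v, mem_filter.2 ⟨hv, fun hv2 => ?_⟩⟩
        have hv3 : v.1 = d := hv2
        rw [hv3, show d = ((d, false) : Option F × Bool).1 from rfl, aH_self] at h5
        cases h5
      omega

end Cfg

end Vale.Agent.P045
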