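import Mathlib

/-! Lacunary polynomial argument over a prime field. -/

set_option linter.unusedSectionVars false

open Finset Polynomial

namespace Vale.Agent.P045

variable {p : ℕ} [Fact p.Prime]

lemma coeff_X_mul_deriv {R : Type*} [CommRing R] (g : R[X]) (j : ℕ) :
    (X * derivative g).coeff j = j * g.coeff j := by
  cases j with
  | zero => simp
  | succ j => rw [coeff_X_mul, coeff_derivative]; push_cast; ring

lemma natDegree_X_mul_deriv {R : Type*} [CommRing R] (g : R[X]) :
    (X * derivative g).natDegree ≤ g.natDegree := by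
  rw [natDegree_le_iff_coeff_eq_zero]
  intro j hj
  rw [coeff_X_mul_deriv, coeff_eq_zero_of_natDegree_lt hj, mul_zero]

lemma wr_deg {f g : (ZMod p)[X]} (hf : f ≠ 0) (hg : g ≠ 0) (hfp : f.natDegree < p)
    (hgp : g.natDegree < p) (h : f * derivative g = derivative f * g) :
    f.natDegree = g.natDegree := by
  have h1 : f * (X * derivative g) = (X * derivative f) * g := by linear_combination X * h
  have h2 := congrArg (fun u => u.coeff (f.natDegree + g.natDegree)) h1
  rw [coeff_mul_add_eq_of_natDegree_le le_rfl (natDegree_X_mul_deriv g),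
    coeff_mul_add_eq_of_natDegree_le (natDegree_X_mul_deriv f) le_rfl,
    coeff_X_mul_deriv, coeff_X_mul_deriv] at h2
  have hf' : f.coeff f.natDegree ≠ 0 := leadingCoeff_ne_zero.2 hf
  have hg' : g.coeff g.natDegree ≠ 0 := leadingCoeff_ne_zero.2 hg
  have h3 : ((f.natDegree : ZMod p) - g.natDegree) * (f.coeff f.natDegree * g.coeff g.natDegree)
      = 0 := by linear_combination -h2
  rcases mul_eq_zero.1 h3 with h4 | h4
  · have h5 := (ZMod.natCast_eq_natCast_iff' _ _ _).1 (sub_eq_zero.1 h4)
    rwa [Nat.mod_eq_of_lt hfp, Nat.mod_eq_of_lt hgp] at h5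
  · exact absurd h4 (mul_ne_zero hf' hg')

lemma wr_const {f g : (ZMod p)[X]} (hf : f ≠ 0) (hfp : f.natDegree < p)
    (hgp : g.natDegree < p) (h : f * derivative g = derivative f * g) :
    ∃ c : ZMod p, g = C c * f := by
  by_cases hg : g = 0
  · exact ⟨0, by simp [hg]⟩
  have hd := wr_deg hf hg hfp hgp h
  set c := g.leadingCoeff / f.leadingCoeff with hc
  refine ⟨c, ?_⟩
  by_contra hne
  have hh : g - C c * f ≠ 0 := sub_ne_zero.2 hne
  have hle : (g - C c * f).natDegree ≤ f.natDegree :=
    (natDegree_sub_le _ _).trans (max_le hd.ge (natDegree_C_mul_le _ _))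
  have hd2 := wr_deg hf hh hfp (hle.trans_lt hfp) (by
    simp only [derivative_sub, derivative_C_mul]
    linear_combination h)
  have : (g - C c * f).coeff (g - C c * f).natDegree = 0 := by
    rw [← hd2, coeff_sub, coeff_C_mul]
    have h1 : g.coeff f.natDegree = g.leadingCoeff := by rw [hd]; rfl
    have h2 : f.coeff f.natDegree = f.leadingCoeff := rfl
    have h3 : f.leadingCoeff ≠ 0 := leadingCoeff_ne_zero.2 hf
    rw [h1, h2, hc]; field_simp; ring
  exact leadingCoeff_ne_zero.2 hh this

lemma lacunary (s : Multiset (ZMod p)) (A f g : (ZMod p)[X]) (e k : ℕ) (hA : A ≠ 0)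
    (hAe : A.natDegree ≤ e) (hf : f.natDegree ≤ k) (hg : g.natDegree ≤ k)
    (hk : 3 * k < Multiset.card s) (hkp : k < p)
    (h : (s.map fun x => X - C x).prod * A = X ^ p * f + g) :
    p ≤ s.toFinset.card + e ∨ ∃ x, p ≤ s.count x + e := by
  classical
  set r := (s.map fun x => X - C x).prod with hr
  have hr0 : r ≠ 0 := (monic_multiset_prod_of_monic _ _ fun x _ => monic_X_sub_C x).ne_zero
  have hroots : r.roots = s := roots_multiset_prod_X_sub_C s
  have hrdeg : r.natDegree = Multiset.card s := natDegree_multiset_prod_X_sub_C_eq_card s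
  have hφ0 : r * A ≠ 0 := mul_ne_zero hr0 hA
  have hder : derivative (r * A) = X ^ p * derivative f + derivative g := by
    rw [h, derivative_add, derivative_mul, derivative_X_pow]
    simp
  set W := (X * f + g) * (f * derivative g - derivative f * g) with hW
  by_cases hW0 : W = 0
  · rcases mul_eq_zero.1 hW0 with h1 | h1
    · left
      have hsub : (univ : Finset (ZMod p)) ⊆ s.toFinset ∪ A.roots.toFinset := by
        intro x _
        have h2 : eval x (r * A) = 0 := by
          have h3 := congrArg (eval x) h1
          rw [h]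
          simp only [eval_add, eval_mul, eval_X, eval_pow, eval_zero, ZMod.pow_card] at h3 ⊢
          exact h3
        rw [eval_mul] at h2
        rw [mem_union, Multiset.mem_toFinset, Multiset.mem_toFinset, ← hroots, mem_roots hr0,
          mem_roots hA]
        exact mul_eq_zero.1 h2
      have h4 := card_le_card hsub
      rw [card_univ, ZMod.card] at h4
      have h5 := card_union_le s.toFinset A.roots.toFinset
      have h6 := Multiset.toFinset_card_le A.roots
      have h7 := card_roots' A
      omega
    · right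
      have hf0 : f ≠ 0 := by
        rintro rfl
        have h2 : (r * A).natDegree ≤ k := by rw [h]; simpa using hg
        rw [natDegree_mul hr0 hA] at h2
        omega
      obtain ⟨c, hc⟩ := wr_const hf0 (hf.trans_lt hkp) (hg.trans_lt hkp) (sub_eq_zero.1 h1)
      refine ⟨-c, ?_⟩
      have hdvd : (X - C (-c)) ^ p ∣ r * A := by
        refine ⟨f, ?_⟩
        rw [h, hc, map_neg, sub_neg_eq_add, add_pow_char, ← C_pow, ZMod.pow_card]
        ring
      have h2 := (le_rootMultiplicity_iff hφ0).2 hdvd
      rw [rootMultiplicity_mul hφ0, ← count_roots, ← count_roots, hroots] at h2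
      have h3 := Multiset.count_le_card (-c) A.roots
      have h7 := card_roots' A
      omega
  · exfalso
    have hle : s ≤ W.roots := by
      rw [Multiset.le_iff_count]
      intro x
      rw [count_roots, le_rootMultiplicity_iff hW0]
      have h1 : (X - C x) ^ (s.count x) ∣ r * A := by
        apply Dvd.dvd.mul_right
        rw [← hroots, count_roots]
        exact pow_rootMultiplicity_dvd r x
      rcases Nat.eq_zero_or_pos (s.count x) with h0 | h0
      · simp [h0]
      have h2 : X - C x ∣ X * f + g := by
        rw [dvd_iff_isRoot]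
        have h3 : X - C x ∣ r * A := (dvd_pow_self _ h0.ne').trans h1
        rw [dvd_iff_isRoot, h] at h3
        simp only [IsRoot, eval_add, eval_mul, eval_X, eval_pow, ZMod.pow_card] at h3 ⊢
        exact h3
      have h3 : (X - C x) ^ (s.count x - 1) ∣ f * derivative g - derivative f * g := by
        have h4 := pow_sub_one_dvd_derivative_of_pow_dvd h1
        have h5 : (X - C x) ^ (s.count x - 1) ∣ r * A := (pow_dvd_pow _ (Nat.sub_le _ _)).trans h1
        have : f * derivative g - derivative f * g
            = f * derivative (r * A) - derivative f * (r * A) := by rw [hder, h]; ring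
        rw [this]
        exact (h4.mul_left _).sub (h5.mul_left _)
      have h6 := mul_dvd_mul h2 h3
      rwa [← pow_succ', Nat.sub_add_cancel h0] at h6
    have h1 := Multiset.card_le_card hle
    have h2 := card_roots' W
    have hne := mul_ne_zero_iff.1 hW0
    have h3 : (X * f + g).natDegree ≤ k + 1 := by
      refine (natDegree_add_le _ _).trans (max_le ?_ (by omega))
      refine natDegree_mul_le.trans ?_
      rw [natDegree_X]; omega
    have h4 : (X * (f * derivative g - derivative f * g)).natDegree ≤ 2 * k := by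
      have : X * (f * derivative g - derivative f * g)
          = f * (X * derivative g) - (X * derivative f) * g := by ring
      rw [this]
      have a1 := natDegree_X_mul_deriv f
      have a2 := natDegree_X_mul_deriv g
      refine (natDegree_sub_le _ _).trans (max_le ?_ ?_)
      · refine natDegree_mul_le.trans ?_; omega
      · refine natDegree_mul_le.trans ?_; omega
    rw [natDegree_mul X_ne_zero hne.2, natDegree_X] at h4
    have h5 : W.natDegree ≤ (X * f + g).natDegree
      + (f * derivative g - derivative f * g).natDegree := natDegree_mul_le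
    omega

section Psi
variable {F : Type*} [Field F]

/-- Grading by total degree. -/
noncomputable def psi : MvPolynomial (Fin 2) F →ₐ[F] F[X][X] :=
  MvPolynomial.aeval ![X, C X * X]

lemma psi_monomial (s : Fin 2 →₀ ℕ) (c : F) :
    psi (MvPolynomial.monomial s c) = monomial (s 0 + s 1) (monomial (s 1) c) := by
  rw [psi, MvPolynomial.aeval_monomial, Finsupp.prod_fintype _ _ (by simp), Fin.prod_univ_two]
  simp only [Matrix.cons_val_zero, Matrix.cons_val_one]
  rw [← C_mul_X_pow_eq_monomial, ← C_mul_X_pow_eq_monomial, mul_pow, ← C_pow, map_mul, pow_add]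
  simp only [Polynomial.algebraMap_apply, Algebra.algebraMap_self, RingHom.id_apply]
  ring

lemma psi_coeff (A : MvPolynomial (Fin 2) F) (j i : ℕ) :
    ((psi A).coeff j).coeff i
      = ∑ s ∈ A.support, if s 0 + s 1 = j ∧ s 1 = i then A.coeff s else 0 := by
  conv_lhs => rw [A.as_sum]
  rw [map_sum, finsetSum_coeff, finsetSum_coeff]
  refine sum_congr rfl fun s _ => ?_
  rw [psi_monomial, coeff_monomial]
  by_cases h1 : s 0 + s 1 = j
  · simp [h1, coeff_monomial]
  · simp [h1]

lemma degree_two (s : Fin 2 →₀ ℕ) : (s.sum fun _ e => e) = s 0 + s 1 := by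
  rw [Finsupp.sum_fintype _ _ (by simp), Fin.sum_univ_two]

lemma psi_natDegree_le (A : MvPolynomial (Fin 2) F) : (psi A).natDegree ≤ A.totalDegree := by
  rw [natDegree_le_iff_coeff_eq_zero]
  intro j hj
  ext i
  rw [psi_coeff, coeff_zero]
  refine sum_eq_zero fun s hs => ?_
  have := MvPolynomial.le_totalDegree hs
  rw [degree_two] at this
  rw [if_neg]; omega

lemma psi_coeff_natDegree_le (A : MvPolynomial (Fin 2) F) (j : ℕ) :
    ((psi A).coeff j).natDegree ≤ j := by
  rw [natDegree_le_iff_coeff_eq_zero]
  intro i hi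
  rw [psi_coeff]
  refine sum_eq_zero fun s _ => ?_
  rw [if_neg]; omega

lemma psi_top_ne_zero {A : MvPolynomial (Fin 2) F} (hA : A ≠ 0) :
    (psi A).coeff A.totalDegree ≠ 0 := by
  obtain ⟨s, hs, hs2⟩ := Finset.exists_mem_eq_sup A.support
    (MvPolynomial.support_nonempty.2 hA) (fun s => s.sum fun _ e => e)
  have hdeg : A.totalDegree = s 0 + s 1 := by rw [← degree_two]; exact hs2
  intro h0
  have h1 := psi_coeff A A.totalDegree (s 1)
  rw [h0, coeff_zero, sum_eq_single s] at h1
  · rw [if_pos ⟨hdeg.symm, rfl⟩] at h1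
    exact MvPolynomial.mem_support_iff.1 hs h1.symm
  · intro t _ hts
    rw [if_neg]
    rintro ⟨h2, h3⟩
    apply hts
    ext i
    fin_cases i
    · simp only [Fin.zero_eta]; omega
    · exact h3
  · intro h; exact absurd hs h

lemma exists_interp [DecidableEq F] (U : Finset (F × F)) (m : ℕ) (hU : U.card < m ^ 2) :
    ∃ A : MvPolynomial (Fin 2) F, A ≠ 0 ∧ A.totalDegree + 2 ≤ 2 * m ∧
      ∀ P ∈ U, MvPolynomial.eval ![P.1, P.2] A = 0 := by
  classical
  let ex : Fin m × Fin m → (Fin 2 →₀ ℕ) := fun ij =>
    Finsupp.single 0 ij.1.val + Finsupp.single 1 ij.2.val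
  have hex0 : ∀ ij, ex ij 0 = ij.1.val := fun ij => by simp [ex]
  have hex1 : ∀ ij, ex ij 1 = ij.2.val := fun ij => by simp [ex]
  have hexinj : Function.Injective ex := by
    intro a b hab
    have h0 := hex0 a
    have h1 := hex1 a
    rw [hab, hex0] at h0
    rw [hab, hex1] at h1
    exact Prod.ext (Fin.ext h0.symm) (Fin.ext h1.symm)
  let T : (Fin m × Fin m → F) →ₗ[F] (U → F) :=
    { toFun := fun c P => ∑ ij, c ij * (P.1.1 ^ ij.1.val * P.1.2 ^ ij.2.val)
      map_add' := fun c d => by funext P; simp [add_mul, sum_add_distrib]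
      map_smul' := fun a c => by funext P; simp [mul_sum, mul_assoc] }
  have hker : LinearMap.ker T ≠ ⊥ := by
    apply LinearMap.ker_ne_bot_of_finrank_lt
    simpa [sq] using hU
  obtain ⟨c, hc, hc0⟩ := Submodule.exists_mem_ne_zero_of_ne_bot hker
  refine ⟨∑ ij, MvPolynomial.monomial (ex ij) (c ij), ?_, ?_, ?_⟩
  · intro h0
    apply hc0
    funext ij
    have := congrArg (MvPolynomial.coeff (ex ij)) h0
    rw [MvPolynomial.coeff_sum, sum_eq_single ij] at this
    · simpa using this
    · intro b _ hb
      rw [MvPolynomial.coeff_monomial, if_neg (fun h => hb (hexinj h))]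
    · simp
  · have hm : 0 < m := by
      rcases Nat.eq_zero_or_pos m with h | h
      · simp [h] at hU
      · exact h
    have : (∑ ij, MvPolynomial.monomial (ex ij) (c ij)).totalDegree ≤ 2 * m - 2 := by
      refine MvPolynomial.totalDegree_finsetSum_le fun ij _ => ?_
      refine (MvPolynomial.totalDegree_monomial_le _ _).trans ?_
      have := degree_two (ex ij)
      change (ex ij).sum (fun _ e => e) ≤ _
      rw [this, hex0, hex1]
      have := ij.1.2
      have := ij.2.2
      omega
    omega
  · intro P hP
    have := congrFun (LinearMap.mem_ker.1 hc) ⟨P, hP⟩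
    simp only [T, LinearMap.coe_mk, AddHom.coe_mk, Pi.zero_apply] at this
    rw [map_sum, ← this]
    refine sum_congr rfl fun ij _ => ?_
    rw [MvPolynomial.eval_monomial, Finsupp.prod_fintype _ _ (by simp), Fin.prod_univ_two,
      hex0, hex1]
    simp

end Psi

lemma psi_lin {F : Type*} [Field F] (u v w : F) :
    psi (MvPolynomial.C u * MvPolynomial.X 1 + MvPolynomial.C v * MvPolynomial.X 0
      + MvPolynomial.C w) = C (C u * X + C v) * X + C (C w) := by
  simp only [psi, map_add, map_mul, MvPolynomial.aeval_C, MvPolynomial.aeval_X,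
    Matrix.cons_val_zero, Matrix.cons_val_one, Polynomial.algebraMap_apply,
    Algebra.algebraMap_self, RingHom.id_apply]
  ring

lemma psi_prod_lin {F ι : Type*} [Field F] (s : Finset ι) (u v w : ι → F) :
    (psi (∏ i ∈ s, (MvPolynomial.C (u i) * MvPolynomial.X 1
      + MvPolynomial.C (v i) * MvPolynomial.X 0 + MvPolynomial.C (w i)))).natDegree ≤ s.card ∧
    (psi (∏ i ∈ s, (MvPolynomial.C (u i) * MvPolynomial.X 1
      + MvPolynomial.C (v i) * MvPolynomial.X 0 + MvPolynomial.C (w i)))).coeff s.card
      = ∏ i ∈ s, (C (u i) * X + C (v i)) := by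
  rw [map_prod]
  simp_rw [psi_lin]
  have h1 : ∀ i ∈ s, (C (C (u i) * X + C (v i)) * X + C (C (w i)) : F[X][X]).natDegree ≤ 1 :=
    fun i _ => natDegree_linear_le
  constructor
  · refine (natDegree_prod_le _ _).trans ?_
    simpa using sum_le_sum h1
  · have := coeff_prod_of_natDegree_le s _ 1 h1
    rw [mul_one] at this
    rw [this]
    refine prod_congr rfl fun i _ => ?_
    simp [coeff_C]

lemma deg_cofactor {R : Type*} [CommRing R] [IsDomain R] {u v : R[X]} {n D : ℕ}
    (hu : u.coeff n ≠ 0) (h : (u * v).natDegree ≤ D) : v = 0 ∨ v.natDegree + n ≤ D := by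
  by_cases hv : v = 0
  · exact Or.inl hv
  · right
    have hu0 : u ≠ 0 := by rintro rfl; simp at hu
    rw [natDegree_mul hu0 hv] at h
    have := le_natDegree_of_ne_zero hu
    omega

theorem sw_core {ι : Type*} [Fintype ι] (a b : ι → ZMod p) (m : ℕ) (hn : Fintype.card ι ≤ p)
    (U : Finset (ZMod p × ZMod p)) (hU : U.card < m ^ 2) (hm : 8 * m ≤ p)
    (hcov : ∀ P : ZMod p × ZMod p, (∀ i, P.2 + a i * P.1 + b i ≠ 0) → P ∈ U) :
    p + 2 ≤ (univ.image a).card + 2 * m ∨
      ∃ x, p + 2 ≤ (univ.filter fun i => a i = x).card + 2 * m := by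
  classical
  obtain ⟨A, hA0, hAe, hAU⟩ := exists_interp U m hU
  set e := A.totalDegree with he
  set n := Fintype.card ι with hn'
  set R : MvPolynomial (Fin 2) (ZMod p) := ∏ i, (MvPolynomial.C 1 * MvPolynomial.X 1
      + MvPolynomial.C (a i) * MvPolynomial.X 0 + MvPolynomial.C (b i)) with hR
  obtain ⟨hR1, hR2⟩ := psi_prod_lin (univ : Finset ι) (fun _ => 1) a b
  rw [card_univ, ← hR] at hR1 hR2
  set r : (ZMod p)[X] := ∏ i, (C 1 * X + C (a i)) with hr
  set s : Multiset (ZMod p) := (univ : Finset ι).val.map fun i => - a i with hs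
  have hrs : (s.map fun x => X - C x).prod = r := by
    rw [hs, Multiset.map_map, hr, Finset.prod]
    congr 2
    funext i; simp
  have hr0 : r ≠ 0 := by
    rw [← hrs]; exact (monic_multiset_prod_of_monic _ _ fun x _ => monic_X_sub_C x).ne_zero
  set As := (psi A).coeff e with hAs
  have hAs0 : As ≠ 0 := psi_top_ne_zero hA0
  have htop : (psi (R * A)).coeff (n + e) = r * As := by
    rw [map_mul, coeff_mul_add_eq_of_natDegree_le hR1 (psi_natDegree_le A), hR2]
  have hRdeg : R.totalDegree ≤ n := by
    refine (MvPolynomial.totalDegree_finsetProd _ _).trans ?_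
    have : ∀ i ∈ (univ : Finset ι), (MvPolynomial.C 1 * MvPolynomial.X 1
      + MvPolynomial.C (a i) * MvPolynomial.X 0 + MvPolynomial.C (b i) :
        MvPolynomial (Fin 2) (ZMod p)).totalDegree ≤ 1 := by
      intro i _
      refine (MvPolynomial.totalDegree_add _ _).trans (max_le ?_ (by simp))
      refine (MvPolynomial.totalDegree_add _ _).trans (max_le ?_ ?_)
      · refine (MvPolynomial.totalDegree_mul _ _).trans ?_; simp
      · refine (MvPolynomial.totalDegree_mul _ _).trans ?_; simp
    simpa using sum_le_sum this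
  have hD : (R * A).totalDegree ≤ n + e := (MvPolynomial.totalDegree_mul _ _).trans (by omega)
  obtain ⟨h, hh, hΦ⟩ := MvPolynomial.combinatorial_nullstellensatz_exists_linearCombination
    (fun _ : Fin 2 => (univ : Finset (ZMod p))) (fun _ => univ_nonempty) (R * A) (by
      intro x _
      rw [map_mul]
      by_cases hx : ∀ i, x 1 + a i * x 0 + b i ≠ 0
      · have := hAU _ (hcov (x 0, x 1) hx)
        have hx2 : x = ![x 0, x 1] := by funext i; fin_cases i <;> rfl
        rw [hx2, this, mul_zero]
      · push Not at hx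
        obtain ⟨i, hi⟩ := hx
        rw [hR, map_prod, prod_eq_zero (mem_univ i) (by simpa using hi), zero_mul])
  rw [Finsupp.linearCombination_apply, Finsupp.sum_fintype _ _ (by simp), Fin.sum_univ_two] at hΦ
  simp only [smul_eq_mul] at hΦ
  obtain ⟨hP01, hP02⟩ := psi_prod_lin (univ : Finset (ZMod p)) (fun _ => 0) (fun _ => 1)
    (fun s => -s)
  obtain ⟨hP11, hP12⟩ := psi_prod_lin (univ : Finset (ZMod p)) (fun _ => 1) (fun _ => 0)
    (fun s => -s)
  simp only [map_zero, map_one, zero_mul, one_mul, zero_add, add_zero, map_neg,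
    ← sub_eq_add_neg, prod_const, card_univ, ZMod.card, one_pow] at hP01 hP02 hP11 hP12
  set P0 : MvPolynomial (Fin 2) (ZMod p) := ∏ s, (MvPolynomial.X 0 - MvPolynomial.C s) with hP0
  set P1 : MvPolynomial (Fin 2) (ZMod p) := ∏ s, (MvPolynomial.X 1 - MvPolynomial.C s) with hP1
  have hd0 := deg_cofactor (u := psi P0) (v := psi (h 0)) (n := p) (D := n + e)
    (by rw [hP02]; exact one_ne_zero)
    (by rw [← map_mul]; exact (psi_natDegree_le _).trans ((hh 0).trans hD))
  have hd1 := deg_cofactor (u := psi P1) (v := psi (h 1)) (n := p) (D := n + e)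
    (by rw [hP12]; exact pow_ne_zero _ X_ne_zero)
    (by rw [← map_mul]; exact (psi_natDegree_le _).trans ((hh 1).trans hD))
  have hpD : p ≤ n + e := by
    by_contra hc
    have h0 : psi (h 0) = 0 := hd0.resolve_right (by omega)
    have h1 : psi (h 1) = 0 := hd1.resolve_right (by omega)
    rw [hΦ, map_add, map_mul, map_mul, h0, h1] at htop
    simp only [zero_mul, add_zero, coeff_zero] at htop
    exact mul_ne_zero hr0 hAs0 htop.symm
  set k := n + e - p with hk
  have hkD : n + e = k + p := by omega
  have hd0' : (psi (h 0)).natDegree ≤ k := by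
    rcases hd0 with h0 | h0
    · simp [h0]
    · omega
  have hd1' : (psi (h 1)).natDegree ≤ k := by
    rcases hd1 with h0 | h0
    · simp [h0]
    · omega
  rw [hΦ, map_add, map_mul, map_mul, hkD, coeff_add,
    coeff_mul_add_eq_of_natDegree_le hd0' hP01, coeff_mul_add_eq_of_natDegree_le hd1' hP11,
    hP02, hP12] at htop
  have hscard : Multiset.card s = n := by simp [hs, hn']
  have key := lacunary s As ((psi (h 1)).coeff k) ((psi (h 0)).coeff k) e k hAs0
    (psi_coeff_natDegree_le _ _) (psi_coeff_natDegree_le _ _) (psi_coeff_natDegree_le _ _)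
    (by omega) (by omega) (by rw [hrs, ← htop]; ring)
  rcases key with h1 | ⟨x, h1⟩
  · left
    have : s.toFinset.card ≤ (univ.image a).card := by
      have : s.toFinset = (univ.image a).image fun x => -x := by
        ext x; simp [hs]
      rw [this]; exact card_image_le
    omega
  · right
    refine ⟨-x, ?_⟩
    have : s.count x = (univ.filter fun i => a i = -x).card := by
      rw [hs, Multiset.count_map, card_def, filter_val]
      congr 2
      funext i
      exact propext ⟨fun h => by rw [h, neg_neg], fun h => by rw [h, neg_neg]⟩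
    omega

end Vale.Agent.P045
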