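import Vale.Agent.P045.Geo
import Vale.Agent.P045.Lac

/-! Stability of line covers of the affine plane of prime order. -/

set_option linter.unusedSectionVars false

open Finset

namespace Vale.Agent.P045

variable {p : ℕ} [Fact p.Prime]

lemma sw_line (C : Finset (Option (ZMod p) × ZMod p)) (hC : C.card ≤ p) (m : ℕ)
    (hU : (unc C).card < m ^ 2) (hm : 8 * m ≤ p) (L0 : Option (ZMod p) × ZMod p) (hL0 : L0 ∈ C) :
    p + 1 ≤ ((pts L0).filter fun P => ∃ L ∈ C.erase L0, On P L).card + 2 * m ∨
      ∃ Q, p + 1 ≤ (C.filter (Via Q)).card + 2 * m := by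
  classical
  obtain ⟨O, hO0, hO⟩ : ∃ O, On O L0 ∧ ∀ L ∈ C.erase L0, ¬ On O L := by
    by_contra hc
    push Not at hc
    have hsub : pts L0 ⊆ (C.erase L0).biUnion fun L => pts L0 ∩ pts L := by
      intro P hP
      obtain ⟨L, hL, h⟩ := hc P (mem_pts.1 hP)
      exact mem_biUnion.2 ⟨L, hL, mem_inter.2 ⟨hP, mem_pts.2 h⟩⟩
    have h1 := (card_le_card hsub).trans card_biUnion_le
    have h2 : ∑ L ∈ C.erase L0, (pts L0 ∩ pts L).card ≤ ∑ _L ∈ C.erase L0, 1 :=
      sum_le_sum fun L hL => card_inter_pts_le_one (ne_of_mem_erase hL).symm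
    rw [card_pts, ZMod.card] at h1
    rw [sum_const, smul_eq_mul, mul_one, card_erase_of_mem hL0] at h2
    have := card_pos.2 ⟨L0, hL0⟩
    omega
  set d0 := L0.1 with hd0
  let ι := Option {L // L ∈ C.erase L0}
  let a : ι → ZMod p := fun i => match i with
    | none => 0
    | some L => lam L.1.1 (uu d0) / (lam L.1.1 O - L.1.2)
  let b : ι → ZMod p := fun i => match i with
    | none => 0
    | some L => lam L.1.1 (ww d0) / (lam L.1.1 O - L.1.2)
  have hden : ∀ L : {L // L ∈ C.erase L0}, lam L.1.1 O - L.1.2 ≠ 0 :=
    fun L h => hO L.1 L.2 (sub_eq_zero.1 h)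
  have hι : Fintype.card ι ≤ p := by
    simp only [ι, Fintype.card_option, Fintype.card_coe, card_erase_of_mem hL0]
    have := card_pos.2 ⟨L0, hL0⟩
    omega
  let U' : Finset (ZMod p × ZMod p) := univ.filter fun P => ∀ i, P.2 + a i * P.1 + b i ≠ 0
  have hU' : U'.card ≤ (unc C).card := by
    apply card_le_card_of_injOn (fun P => O + P.2⁻¹ • (ww d0 + P.1 • uu d0))
    · rintro ⟨M, T⟩ hP
      simp only [U', coe_filter, mem_univ, true_and, Set.mem_ofPred_eq] at hP
      have hT : T ≠ 0 := by simpa [a, b] using hP none
      simp only [mem_coe, mem_unc]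
      intro L hL hon
      by_cases hLL : L = L0
      · subst hLL
        simp only [On, lam_add, lam_smul, ← hd0, lam_uu, lam_ww] at hon hO0
        rw [hO0] at hon
        simp [hT] at hon
      · have hL' : L ∈ C.erase L0 := mem_erase.2 ⟨hLL, hL⟩
        apply hP (some ⟨L, hL'⟩)
        have h1 := hden ⟨L, hL'⟩
        simp only [On, lam_add, lam_smul] at hon
        simp only [a, b] at h1 ⊢
        field_simp at hon ⊢
        linear_combination hon
    · rintro ⟨M, T⟩ hP ⟨M', T'⟩ hP' h
      simp only [U', coe_filter, mem_univ, true_and, Set.mem_ofPred_eq] at hP hP'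
      have hT : T ≠ 0 := by simpa [a, b] using hP none
      have h1 := congrArg (lam d0) h
      simp only [lam_add, lam_smul, lam_uu, lam_ww] at h1
      have hTT : T = T' := by simpa using h1
      subst hTT
      have h2 := congrArg (lam (other d0)) h
      simp only [lam_add, lam_smul] at h2
      have h3 := lam_uu_ne (other_ne d0)
      have : M = M' := by simpa [hT, h3] using h2
      rw [this]
  have hpt : ∀ L : {L // L ∈ C.erase L0}, a (some L) ≠ 0 →
      On (O + (-(a (some L))⁻¹) • uu d0) L.1 := by
    intro L hL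
    have h1 := hden L
    simp only [a] at hL ⊢
    have h2 : lam L.1.1 (uu d0) ≠ 0 := fun h => hL (by rw [h, zero_div])
    simp only [On, lam_add, lam_smul]
    field_simp
    ring
  rcases sw_core a b m hι U' (hU'.trans_lt hU) hm (fun P hP => mem_filter.2 ⟨mem_univ _, hP⟩)
    with h | ⟨x, h⟩
  · left
    have : ((univ.image a).erase 0).card
        ≤ ((pts L0).filter fun P => ∃ L ∈ C.erase L0, On P L).card := by
      apply card_le_card_of_injOn (fun x => O + (-x⁻¹) • uu d0)
      · intro x hx
        simp only [coe_erase, coe_image, coe_univ, Set.image_univ, Set.mem_sdiff, Set.mem_range,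
          Set.mem_singleton_iff] at hx
        obtain ⟨⟨i, rfl⟩, hx⟩ := hx
        simp only [coe_filter, mem_pts, Set.mem_ofPred_eq]
        constructor
        · simp only [On, lam_add, lam_smul, ← hd0, lam_uu] at hO0 ⊢
          rw [hO0]; simp
        · cases i with
          | none => exact absurd rfl hx
          | some L => exact ⟨L.1, L.2, hpt L hx⟩
      · intro x _ y _ hxy
        have h2 := congrArg (lam (other d0)) hxy
        simp only [lam_add, lam_smul] at h2
        have h3 := lam_uu_ne (other_ne d0)
        simpa [h3] using h2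
    have h2 := pred_card_le_card_erase (s := univ.image a) (a := 0)
    omega
  · right
    have key : ∀ Q, (∀ L : {L // L ∈ C.erase L0}, a (some L) = x → Via Q L.1) →
        p + 1 ≤ (C.filter (Via Q)).card + 2 * m := by
      intro Q hQ
      have : ((univ.filter fun i => a i = x).erase none).card ≤ (C.filter (Via Q)).card := by
        apply card_le_card_of_injOn (fun i : ι => match i with
          | none => L0
          | some L => L.1)
        · intro i hi
          simp only [coe_erase, coe_filter, mem_univ, true_and, Set.mem_sdiff, Set.mem_ofPred_eq,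
            Set.mem_singleton_iff] at hi
          cases i with
          | none => exact absurd rfl hi.2
          | some L =>
            simp only [coe_filter, Set.mem_ofPred_eq]
            exact ⟨mem_of_mem_erase L.2, hQ L hi.1⟩
        · intro i hi j hj hij
          simp only [coe_erase, coe_filter, mem_univ, true_and, Set.mem_sdiff, Set.mem_ofPred_eq,
            Set.mem_singleton_iff] at hi hj
          cases i with
          | none => exact absurd rfl hi.2
          | some L =>
            cases j with
            | none => exact absurd rfl hj.2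
            | some L' => exact congrArg some (Subtype.ext hij)
      have h2 := pred_card_le_card_erase (s := univ.filter fun i => a i = x) (a := none)
      omega
    by_cases hx : x = 0
    · refine ⟨Sum.inr d0, key _ fun L hL => ?_⟩
      by_contra hne
      have h1 := hden L
      have h2 := lam_uu_ne (d := d0) (d' := L.1.1) hne
      simp only [a, hx] at hL
      exact div_ne_zero h2 h1 hL
    · refine ⟨Sum.inl (O + (-x⁻¹) • uu d0), key _ fun L hL => ?_⟩
      have := hpt L (by rw [hL]; exact hx)
      rwa [hL] at this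

theorem sw (C : Finset (Option (ZMod p) × ZMod p)) (hC : C.card ≤ p) (m : ℕ)
    (hU : (unc C).card < m ^ 2) (hm : 8 * m ≤ p) :
    ∃ Q, p + 1 ≤ (C.filter (Via Q)).card + 2 * m := by
  classical
  by_contra hc
  have hA : ∀ L0 ∈ C, ((pts L0).filter fun P => ¬ ∃ L ∈ C.erase L0, On P L).card ≤ 2 * m := by
    intro L0 hL0
    have h1 := (sw_line C hC m hU hm L0 hL0).resolve_right hc
    have h2 := card_filter_add_card_filter_not (s := pts L0) (fun P => ∃ L ∈ C.erase L0, On P L)
    rw [card_pts, ZMod.card] at h2
    omega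
  set Mu : Finset (ZMod p × ZMod p) := univ.filter fun P => 2 ≤ (C.filter (On P)).card with hMu
  have hsub : (univ : Finset (ZMod p × ZMod p)) ⊆ unc C ∪ (Mu ∪ C.biUnion fun L0 =>
      (pts L0).filter fun P => ¬ ∃ L ∈ C.erase L0, On P L) := by
    intro P _
    simp only [mem_union, mem_unc, mem_biUnion, mem_filter, mem_pts, hMu, mem_univ, true_and]
    by_contra hn
    push Not at hn
    obtain ⟨⟨L0, hL0, h0⟩, h1, h2⟩ := hn
    obtain ⟨L, hL, h3⟩ := h2 L0 hL0 h0
    have : 1 < (C.filter (On P)).card := one_lt_card.2 ⟨L0, mem_filter.2 ⟨hL0, h0⟩, L,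
      mem_filter.2 ⟨mem_of_mem_erase hL, h3⟩, (ne_of_mem_erase hL).symm⟩
    omega
  have h1 := card_le_card hsub
  have h2 := card_union_le (unc C) (Mu ∪ C.biUnion fun L0 =>
      (pts L0).filter fun P => ¬ ∃ L ∈ C.erase L0, On P L)
  have h3 := card_union_le Mu (C.biUnion fun L0 =>
      (pts L0).filter fun P => ¬ ∃ L ∈ C.erase L0, On P L)
  have h4 : (C.biUnion fun L0 =>
      (pts L0).filter fun P => ¬ ∃ L ∈ C.erase L0, On P L).card ≤ p * (2 * m) := by
    refine card_biUnion_le.trans ((sum_le_sum hA).trans ?_)
    rw [sum_const, smul_eq_mul]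
    exact Nat.mul_le_mul_right _ hC
  have h5 : 2 * Mu.card ≤ p * p := by
    calc 2 * Mu.card = ∑ _P ∈ Mu, 2 := by simp [mul_comm]
      _ ≤ ∑ P ∈ Mu, (C.filter (On P)).card := sum_le_sum fun P hP => (mem_filter.1 hP).2
      _ ≤ ∑ P, (C.filter (On P)).card := sum_le_sum_of_subset (subset_univ _)
      _ = ∑ L ∈ C, (pts L).card := by
          simp_rw [card_filter, pts, card_filter]
          rw [sum_comm]
      _ ≤ p * p := by
          simp_rw [card_pts, ZMod.card]
          rw [sum_const, smul_eq_mul]
          exact Nat.mul_le_mul_right _ hC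
  rw [card_univ, Fintype.card_prod, ZMod.card] at h1
  have h6 : 8 * m * p ≤ p * p := Nat.mul_le_mul_right _ hm
  have h7 : (8 * m) * (8 * m) ≤ p * p := Nat.mul_le_mul hm hm
  nlinarith

end Vale.Agent.P045
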