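import Mathlib

/-! Independent transversals by a counting argument. -/

set_option linter.unusedSectionVars false

open Finset

namespace Vale.Agent.P045

variable {V β : Type*} [Fintype V] [DecidableEq V] [DecidableEq β]

open Classical in
/-- Valid assignments on `S`. -/
noncomputable def itSet (dom : V → Finset β) (x0 : V → β) (adj : V × β → V × β → Prop)
    (S : Finset V) : Finset (V → β) :=
  (Fintype.piFinset fun v => if v ∈ S then dom v else {x0 v}).filter
    fun f => ∀ u ∈ S, ∀ v ∈ S, u ≠ v → ¬ adj (u, f u) (v, f v)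

lemma mem_itSet {dom : V → Finset β} {x0 : V → β} {adj : V × β → V × β → Prop}
    {S : Finset V} {f : V → β} : f ∈ itSet dom x0 adj S ↔
      (∀ v ∈ S, f v ∈ dom v) ∧ (∀ v, v ∉ S → f v = x0 v) ∧
      ∀ u ∈ S, ∀ v ∈ S, u ≠ v → ¬ adj (u, f u) (v, f v) := by
  simp only [itSet, mem_filter, Fintype.mem_piFinset]
  constructor
  · rintro ⟨h1, h2⟩
    refine ⟨fun v hv => ?_, fun v hv => ?_, h2⟩
    · simpa [hv] using h1 v
    · simpa [hv] using h1 v
  · rintro ⟨h1, h2, h3⟩
    refine ⟨fun v => ?_, h3⟩
    by_cases hv : v ∈ S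
    · simpa [hv] using h1 v hv
    · simpa [hv] using h2 v hv

lemma it_step (dom : V → Finset β) (x0 : V → β) (adj : V × β → V × β → Prop)
    (hsymm : ∀ a b, adj a b → adj b a) (t Δ : ℕ) (ht : ∀ v, (dom v).card = t)
    (nb : V × β → Finset (V × β)) (hnb : ∀ a, (nb a).card ≤ Δ)
    (hadj : ∀ v, ∀ x ∈ dom v, ∀ u, ∀ y ∈ dom u, u ≠ v → adj (v, x) (u, y) → (u, y) ∈ nb (v, x))
    (hΔ : 4 * Δ ≤ t) :
    ∀ (n : ℕ) (S : Finset V), S.card = n → ∀ v, v ∉ S →
      t * (itSet dom x0 adj S).card ≤ 2 * (itSet dom x0 adj (insert v S)).card := by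
  classical
  intro n
  induction n using Nat.strong_induction_on with
  | _ n ih =>
  intro S hS v hv
  set P := itSet dom x0 adj S with hP
  -- fibres
  have hfib : ∀ u ∈ S, ∀ y, t * (P.filter fun f => f u = y).card ≤ 2 * P.card := by
    intro u hu y
    have h1 := ih (n - 1) (by have := card_pos.2 ⟨u, hu⟩; omega) (S.erase u)
      (by rw [card_erase_of_mem hu, hS]) u (notMem_erase u S)
    rw [insert_erase hu] at h1
    refine le_trans (Nat.mul_le_mul_left _ ?_) h1
    apply card_le_card_of_injOn (fun f => Function.update f u (x0 u))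
    · intro f hf
      simp only [coe_filter, Set.mem_ofPred_eq] at hf
      obtain ⟨h2, h3, h4⟩ := mem_itSet.1 hf.1
      simp only [mem_coe]
      rw [mem_itSet]
      refine ⟨fun w hw => ?_, fun w hw => ?_, fun w hw w' hw' hne => ?_⟩
      · rw [Function.update_of_ne (ne_of_mem_erase hw)]; exact h2 w (mem_of_mem_erase hw)
      · by_cases hwu : w = u
        · subst hwu; simp
        · rw [Function.update_of_ne hwu]; exact h3 w (fun h => hw (mem_erase.2 ⟨hwu, h⟩))
      · rw [Function.update_of_ne (ne_of_mem_erase hw), Function.update_of_ne (ne_of_mem_erase hw')]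
        exact h4 w (mem_of_mem_erase hw) w' (mem_of_mem_erase hw') hne
    · intro f hf g hg hfg
      simp only [coe_filter, Set.mem_ofPred_eq] at hf hg
      funext w
      by_cases hwu : w = u
      · subst hwu; rw [hf.2, hg.2]
      · have := congrFun hfg w
        simpa [Function.update_of_ne hwu] using this
  -- good and bad pairs
  set G := (dom v ×ˢ P).filter fun p => ∀ u ∈ S, ¬ adj (v, p.1) (u, p.2 u) with hG
  set B := (dom v ×ˢ P).filter fun p => ¬ ∀ u ∈ S, ¬ adj (v, p.1) (u, p.2 u) with hB
  have hGB : G.card + B.card = t * P.card := by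
    rw [hG, hB, card_filter_add_card_filter_not, card_product, ht]
  have hGle : G.card ≤ (itSet dom x0 adj (insert v S)).card := by
    apply card_le_card_of_injOn (fun p => Function.update p.2 v p.1)
    · rintro ⟨x, f⟩ hp
      simp only [hG, coe_filter, mem_product, Set.mem_ofPred_eq] at hp
      obtain ⟨⟨hx, hf⟩, hg⟩ := hp
      obtain ⟨h2, h3, h4⟩ := mem_itSet.1 hf
      simp only [mem_coe]
      rw [mem_itSet]
      have hne : ∀ w ∈ S, w ≠ v := fun w hw h => hv (h ▸ hw)
      refine ⟨fun w hw => ?_, fun w hw => ?_, fun w hw w' hw' hww => ?_⟩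
      · rcases mem_insert.1 hw with rfl | hw
        · simpa using hx
        · rw [Function.update_of_ne (hne w hw)]; exact h2 w hw
      · rw [mem_insert, not_or] at hw
        rw [Function.update_of_ne hw.1]; exact h3 w hw.2
      · rcases mem_insert.1 hw with h5 | h5 <;> rcases mem_insert.1 hw' with h6 | h6
        · exact absurd (h5.trans h6.symm) hww
        · rw [h5, Function.update_self, Function.update_of_ne (hne w' h6)]; exact hg w' h6
        · rw [h6, Function.update_self, Function.update_of_ne (hne w h5)]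
          exact fun h => hg w h5 (hsymm _ _ h)
        · rw [Function.update_of_ne (hne w h5), Function.update_of_ne (hne w' h6)]
          exact h4 w h5 w' h6 hww
    · rintro ⟨x, f⟩ hp ⟨y, g⟩ hq hfg
      simp only [hG, coe_filter, mem_product, Set.mem_ofPred_eq] at hp hq
      have hxy : x = y := by simpa using congrFun hfg v
      subst hxy
      congr 1
      funext w
      by_cases hwv : w = v
      · subst hwv
        rw [(mem_itSet.1 hp.1.2).2.1 w hv, (mem_itSet.1 hq.1.2).2.1 w hv]
      · simpa [Function.update_of_ne hwv] using congrFun hfg w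
  have hBle : t * B.card ≤ t * (Δ * (2 * P.card)) := by
    have hsub : B ⊆ (dom v).biUnion fun x => ((nb (v, x)).filter fun a => a.1 ∈ S).biUnion
        fun a => {x} ×ˢ (P.filter fun f => f a.1 = a.2) := by
      rintro ⟨x, f⟩ hp
      simp only [hB, mem_filter, mem_product] at hp
      obtain ⟨⟨hx, hf⟩, hb⟩ := hp
      push Not at hb
      obtain ⟨u, hu, hb⟩ := hb
      simp only [mem_biUnion, mem_filter, mem_product, mem_singleton]
      refine ⟨x, hx, (u, f u), ⟨?_, hu⟩, rfl, hf, rfl⟩
      exact hadj v x hx u (f u) ((mem_itSet.1 hf).1 u hu) (fun h => hv (h ▸ hu)) hb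
    calc t * B.card ≤ t * ∑ x ∈ dom v, ∑ a ∈ (nb (v, x)).filter fun a => a.1 ∈ S,
            (P.filter fun f => f a.1 = a.2).card := by
          apply Nat.mul_le_mul_left
          refine (card_le_card hsub).trans (card_biUnion_le.trans (sum_le_sum fun x _ => ?_))
          refine card_biUnion_le.trans (sum_le_sum fun a _ => ?_)
          simp
      _ = ∑ x ∈ dom v, ∑ a ∈ (nb (v, x)).filter fun a => a.1 ∈ S,
            t * (P.filter fun f => f a.1 = a.2).card := by simp_rw [mul_sum]
      _ ≤ ∑ x ∈ dom v, Δ * (2 * P.card) := by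
          refine sum_le_sum fun x _ => ?_
          calc _ ≤ ∑ a ∈ (nb (v, x)).filter fun a => a.1 ∈ S, 2 * P.card :=
                sum_le_sum fun a ha => hfib a.1 (mem_filter.1 ha).2 a.2
            _ ≤ Δ * (2 * P.card) := by
                rw [sum_const, smul_eq_mul]
                exact Nat.mul_le_mul_right _ ((card_filter_le _ _).trans (hnb _))
      _ = _ := by rw [sum_const, smul_eq_mul, ht]
  rcases Nat.eq_zero_or_pos t with h0 | h0
  · simp [h0]
  have hB2 : B.card ≤ Δ * (2 * P.card) := Nat.le_of_mul_le_mul_left hBle h0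
  have : 4 * Δ * P.card ≤ t * P.card := Nat.mul_le_mul_right _ hΔ
  nlinarith

/-- Independent transversal lemma. -/
theorem exists_transversal (dom : V → Finset β) (adj : V × β → V × β → Prop)
    (hsymm : ∀ a b, adj a b → adj b a) (t Δ : ℕ) (ht0 : 0 < t) (ht : ∀ v, t ≤ (dom v).card)
    (nb : V × β → Finset (V × β)) (hnb : ∀ a, (nb a).card ≤ Δ)
    (hadj : ∀ v, ∀ x ∈ dom v, ∀ u, ∀ y ∈ dom u, u ≠ v → adj (v, x) (u, y) → (u, y) ∈ nb (v, x))
    (hΔ : 4 * Δ ≤ t) :
    ∃ f : V → β, (∀ v, f v ∈ dom v) ∧ ∀ u v, u ≠ v → ¬ adj (u, f u) (v, f v) := by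
  classical
  choose dom' hsub hcard using fun v => exists_subset_card_eq (ht v)
  have hne : ∀ v, (dom' v).Nonempty := fun v => card_pos.1 (by rw [hcard]; exact ht0)
  choose x0 _hx0 using hne
  have key := it_step dom' x0 adj hsymm t Δ hcard nb hnb
    (fun v x hx u y hy => hadj v x (hsub v hx) u y (hsub u hy)) hΔ
  have pos : ∀ S : Finset V, 0 < (itSet dom' x0 adj S).card := by
    intro S
    induction S using Finset.induction_on with
    | empty => exact card_pos.2 ⟨x0, mem_itSet.2 ⟨by simp, by simp, by simp⟩⟩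
    | insert v S hv ih =>
      have := key _ S rfl v hv
      have h2 : 0 < t * (itSet dom' x0 adj S).card := Nat.mul_pos ht0 ih
      omega
  obtain ⟨f, hf⟩ := card_pos.1 (pos univ)
  obtain ⟨h1, -, h3⟩ := mem_itSet.1 hf
  exact ⟨f, fun v => hsub v (h1 v (mem_univ _)), fun u v => h3 u (mem_univ _) v (mem_univ _)⟩

end Vale.Agent.P045
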