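import Vale.Agent.P045.Stage0
import Vale.Agent.P045.IT
import Vale.Agent.P045.Cfg

/-! Choice of the hosts. -/

set_option linter.unusedSectionVars false

open Finset

namespace Vale.Agent.P045

variable {F : Type} [Field F] [Fintype F] [DecidableEq F] {R : ℕ}

lemma HostS.dir_inj {τ : Option F → Bool × Fin 11} {ω : Sl F R → F} {h : Option F × Bool}
    {P : F × F} {g : Fin 11 → Option F × Fin R} (hg : HostS τ ω h P g) {i j : Fin 11}
    (hij : (g i).1 = (g j).1) : i = j := by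
  have h1 := (hg.1 i).1
  rw [hij, (hg.1 j).1] at h1
  exact (Prod.ext_iff.1 h1).2.symm

lemma HostS.hit {τ : Option F → Bool × Fin 11} {ω : Sl F R → F} {h : Option F × Bool}
    {P : F × F} {g : Fin 11 → Option F × Fin R} (hg : HostS τ ω h P g) (j : Fin 11) :
    lam (g j).1 P = ω ((g j).1, some (g j).2) := ((hg.2 ((g j).1, some (g j).2)).2 ⟨j, rfl⟩).2

lemma HostS.not_split {τ : Option F → Bool × Fin 11} {ω : Sl F R → F} {h : Option F × Bool}
    {P : F × F} {g : Fin 11 → Option F × Fin R} (hg : HostS τ ω h P g) {d : Option F}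
    (hd : lam d P = ω (d, none)) : d = h.1 := by
  by_contra hne
  obtain ⟨j, hj⟩ := (hg.2 (d, none)).1 ⟨hne, hd⟩
  cases (Prod.ext_iff.1 hj).2

lemma HostS.deg {τ : Option F → Bool × Fin 11} {ω : Sl F R → F} {h : Option F × Bool}
    {P : F × F} {g : Fin 11 → Option F × Fin R} (hg : HostS τ ω h P g)
    (hl : lam h.1 P = ω (h.1, none)) (j : Fin 11) : DegS ω (g j).1 P := by
  refine ⟨h.1, (univ.erase j).image fun i => ((g i).1, some (g i).2), ?_, ?_,
    ⟨(hg.1 j).2.symm, hl⟩, ?_⟩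
  · rw [card_image_of_injective, card_erase_of_mem (mem_univ _)]
    · simp
    · intro a b hab; exact hg.dir_inj (Prod.ext_iff.1 hab).1
  · intro s hs
    obtain ⟨i, hi, rfl⟩ := mem_image.1 hs
    exact ⟨fun hh => ne_of_mem_erase hi (hg.dir_inj hh), (hg.1 i).2⟩
  · intro s hs
    constructor
    · rintro ⟨h1, h2⟩
      obtain ⟨i, rfl⟩ := (hg.2 s).1 ⟨hs, h2⟩
      refine mem_image.2 ⟨i, mem_erase.2 ⟨?_, mem_univ _⟩, rfl⟩
      rintro rfl; exact h1 rfl
    · intro hs2
      obtain ⟨i, hi, rfl⟩ := mem_image.1 hs2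
      exact ⟨fun hh => ne_of_mem_erase hi (hg.dir_inj hh), hg.hit i⟩

theorem exists_cfg (τ : Option F → Bool × Fin 11) (ω : Sl F R → F) (Δ : ℕ)
    (hdeg : ∀ L, degc L ω ≤ Δ)
    (hcand : ∀ h : Option F × Bool, 44 * Δ + 1 ≤ cand τ h (ω (h.1, none)) ω) :
    ∃ G : Cfg F, G.Ok ∧ ∃ slot : MI F → Sl F R, Function.Injective slot ∧
      ∀ μ, G.ln μ = ((slot μ).1, ω (slot μ)) := by
  classical
  let dom : Option F × Bool → Finset (F × F) := fun h =>
    (pts (h.1, ω (h.1, none))).filter fun P => ∃ g, HostS τ ω h P g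
  have hdom : ∀ h P, P ∈ dom h ↔ lam h.1 P = ω (h.1, none) ∧ ∃ g, HostS τ ω h P g := by
    intro h P; simp only [dom, mem_filter, mem_pts]; rfl
  let adj : (Option F × Bool) × (F × F) → (Option F × Bool) × (F × F) → Prop := fun a b =>
    ∃ s : Sl F R, (s.1 ≠ a.1.1 ∧ lam s.1 a.2 = ω s) ∧ (s.1 ≠ b.1.1 ∧ lam s.1 b.2 = ω s)
  let nb : (Option F × Bool) × (F × F) → Finset ((Option F × Bool) × (F × F)) := fun a =>
    univ.filter fun b => a.2 ∈ dom a.1 ∧ b.2 ∈ dom b.1 ∧ adj a b
  have huniq : ∀ h h' P, P ∈ dom h → P ∈ dom h' → h = h' := by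
    intro h h' P h1 h2
    obtain ⟨h3, g, hg⟩ := (hdom _ _).1 h1
    obtain ⟨h4, g', hg'⟩ := (hdom _ _).1 h2
    have hd : h.1 = h'.1 := hg'.not_split h3
    obtain ⟨j, hj⟩ := (hg'.2 ((g 0).1, some (g 0).2)).1 ⟨hd ▸ (hg.1 0).2, hg.hit 0⟩
    have h5 := (hg.1 0).1
    rw [(Prod.ext_iff.1 hj).1, (hg'.1 j).1] at h5
    exact Prod.ext hd (Prod.ext_iff.1 h5).1.symm
  have hnb : ∀ a, (nb a).card ≤ 11 * Δ := by
    rintro ⟨h, P⟩
    by_cases hP : P ∈ dom h
    · obtain ⟨-, g, hg⟩ := (hdom _ _).1 hP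
      have h1 : (nb (h, P)).card ≤ (univ.biUnion fun j : Fin 11 =>
          (pts ((g j).1, ω ((g j).1, some (g j).2))).filter (DegS ω (g j).1)).card := by
        apply card_le_card_of_injOn Prod.snd
        · rintro ⟨h', P'⟩ hb
          simp only [nb, coe_filter, mem_univ, true_and, Set.mem_ofPred_eq] at hb
          obtain ⟨-, hb2, s, hs1, hs2⟩ := hb
          obtain ⟨hl, g', hg'⟩ := (hdom _ _).1 hb2
          obtain ⟨j, rfl⟩ := (hg.2 s).1 hs1
          obtain ⟨j', hj'⟩ := (hg'.2 _).1 hs2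
          simp only [coe_biUnion, coe_univ, Set.mem_univ, Set.iUnion_true, Set.mem_iUnion,
            mem_coe, mem_filter, mem_pts]
          refine ⟨j, hs2.2, ?_⟩
          have := hg'.deg hl j'
          rwa [← (Prod.ext_iff.1 hj').1] at this
        · rintro ⟨h1, P1⟩ hb ⟨h2, P2⟩ hb' hh
          simp only [nb, coe_filter, mem_univ, true_and, Set.mem_ofPred_eq] at hb hb'
          simp only at hh
          subst hh
          rw [huniq h1 h2 P1 hb.2.1 hb'.2.1]
      refine h1.trans (card_biUnion_le.trans ?_)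
      calc _ ≤ ∑ _j : Fin 11, Δ := sum_le_sum fun j _ => ?_
        _ = _ := by simp
      have := hdeg ((g j).1, ω ((g j).1, some (g j).2))
      rw [degc, cnt_eq] at this
      rw [card_filter_pts]
      exact_mod_cast this
    · have : nb (h, P) = ∅ := by
        simp only [nb, filter_eq_empty_iff]
        exact fun _ _ hh => hP hh.1
      simp [this]
  obtain ⟨f, hf1, hf2⟩ := exists_transversal dom adj (fun a b ⟨s, h1, h2⟩ => ⟨s, h2, h1⟩)
    (44 * Δ + 1) (11 * Δ) (by omega) (by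
      intro h
      have := hcand h
      rw [cand, cnt_eq] at this
      simp only [dom]
      rw [card_filter_pts]
      exact_mod_cast this) nb hnb
    (fun v x hx u y hy _ ha => mem_filter.2 ⟨mem_univ _, hx, hy, ha⟩) (by omega)
  have hf3 := fun h => (hdom h (f h)).1 (hf1 h)
  choose hl g hg using hf3
  let slot : MI F → Sl F R := fun μ => match μ with
    | Sum.inl d => (d, none)
    | Sum.inr (h, j) => ((g h j).1, some (g h j).2)
  have hslot : Function.Injective slot := by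
    rintro (d | ⟨h, j⟩) (d' | ⟨h', j'⟩) hh
    · exact congrArg Sum.inl (Prod.ext_iff.1 hh).1
    · cases (Prod.ext_iff.1 hh).2
    · cases (Prod.ext_iff.1 hh).2
    · simp only [slot] at hh
      have : h = h' := by
        by_contra hne
        exact hf2 h h' hne ⟨_, ((hg h).2 _).2 ⟨j, rfl⟩, ((hg h').2 _).2 ⟨j', hh⟩⟩
      subst this
      rw [(hg h).dir_inj (Prod.ext_iff.1 hh).1]
  let G : Cfg F := ⟨fun d => ω (d, none), f, fun h j => (g h j).1⟩
  have hln : ∀ μ, G.ln μ = ((slot μ).1, ω (slot μ)) := by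
    rintro (d | ⟨h, j⟩)
    · rfl
    · exact Prod.ext rfl ((hg h).hit j)
  refine ⟨G, ⟨hl, fun h j => ((hg h).1 j).2, ?_, ?_⟩, slot, hslot, hln⟩
  · intro d b j b' j' hh
    have h1 := ((hg (d, b)).1 j).1
    have h2 := ((hg (d, b')).1 j').1
    simp only [G] at hh
    rw [hh, h2] at h1
    exact ⟨(Prod.ext_iff.1 h1).1.symm, (Prod.ext_iff.1 h1).2.symm⟩
  · intro h μ hon
    rw [hln] at hon
    by_cases hd : (slot μ).1 = h.1
    · rcases μ with d | ⟨h', j'⟩
      · left; rw [← hd]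
      · exfalso
        have h1 : lam h.1 (f h) = ω (slot (Sum.inr (h', j'))) := by rw [← hd]; exact hon
        have h2 : lam h.1 (f h') = ω (slot (Sum.inr (h', j'))) := by
          rw [← hd]; exact (hg h').hit j'
        have h3 := (hg h').not_split (h2.trans (h1.symm.trans (hl h)))
        exact ((hg h').1 j').2 (hd.trans h3)
    · right
      obtain ⟨j, hj⟩ := ((hg h).2 (slot μ)).1 ⟨hd, hon⟩
      exact ⟨j, hslot hj⟩

end Vale.Agent.P045
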