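import Vale.Agent.P045.Cover

/-! Choice of the kept points by a first moment argument. -/

set_option linter.unusedSectionVars false

open Finset

namespace Vale.Agent.P045

variable {F : Type} [Field F] [Fintype F] [DecidableEq F]

lemma card_det (S : Finset (Fin 11 → F)) (j : Fin 11)
    (h : ∀ x ∈ S, ∀ y ∈ S, (∀ i, i ≠ j → x i = y i) → x j = y j) :
    S.card ≤ Fintype.card F ^ 10 := by
  have : S.card ≤ (univ : Finset ({i : Fin 11 // i ≠ j} → F)).card := by
    apply card_le_card_of_injOn (fun x i => x i.1) (fun _ _ => by simp)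
    intro x hx y hy hxy
    have h1 : ∀ i, i ≠ j → x i = y i := fun i hi => congrFun hxy ⟨i, hi⟩
    funext i
    by_cases hi : i = j
    · rw [hi]; exact h x hx y hy h1
    · exact h1 i hi
  simpa using this

lemma card_zero (G : Option F → Finset (Fin 11 → F)) (g : ℝ) (hg0 : 0 ≤ g)
    (hg : ∀ d, g ≤ (G d).card)
    (Z : Fin 3 → Option F × Fin 11) (hZ : Function.Injective fun t => (Z t).1)
    (S : Finset (Option F → Fin 11 → F)) (hS : S ⊆ Fintype.piFinset G)
    (hdet : ∀ c ∈ S, ∀ c' ∈ S, (∀ d i, (∀ t, Z t ≠ (d, i)) → c d i = c' d i) → c = c') :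
    S.card * g ^ 3 ≤ (Fintype.piFinset G).card * ((Fintype.card F : ℝ) ^ 10) ^ 3 := by
  classical
  set T : Finset (Option F) := univ.image fun t => (Z t).1 with hT
  have hTc : T.card = 3 := by rw [hT, card_image_of_injective _ hZ]; simp
  let W : Option F → Finset (Fin 11 → F) := fun d =>
    univ.filter fun x => ∀ i, (∃ t, Z t = (d, i)) → x i = 0
  have hW : ∀ d ∈ T, (W d).card ≤ Fintype.card F ^ 10 := by
    intro d hd
    obtain ⟨t, -, ht⟩ := mem_image.1 hd
    apply card_det _ (Z t).2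
    intro x hx y hy _
    rw [(mem_filter.1 hx).2 _ ⟨t, Prod.ext ht rfl⟩, (mem_filter.1 hy).2 _ ⟨t, Prod.ext ht rfl⟩]
  have h1 : S.card ≤ (Fintype.piFinset fun d => if d ∈ T then W d else G d).card := by
    apply card_le_card_of_injOn (fun c d i => if ∃ t, Z t = (d, i) then 0 else c d i)
    · intro c hc
      simp only [mem_coe, Fintype.mem_piFinset]
      intro d
      by_cases hd : d ∈ T
      · rw [if_pos hd]
        refine mem_filter.2 ⟨mem_univ _, fun i hi => ?_⟩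
        simp only [if_pos hi]
      · rw [if_neg hd]
        have : (fun i => if ∃ t, Z t = (d, i) then 0 else c d i) = c d := by
          funext i
          rw [if_neg]
          rintro ⟨t, ht⟩
          exact hd (mem_image.2 ⟨t, mem_univ _, by rw [ht]⟩)
        rw [this]
        exact Fintype.mem_piFinset.1 (hS hc) d
    · intro c hc c' hc' h
      apply hdet c hc c' hc'
      intro d i hi
      have := congrFun (congrFun h d) i
      simp only at this
      rwa [if_neg (fun ⟨t, ht⟩ => hi t ht), if_neg (fun ⟨t, ht⟩ => hi t ht)] at this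
  rw [Fintype.card_piFinset] at h1 ⊢
  rw [← prod_mul_prod_compl T] at h1 ⊢
  have h2 : ∏ d ∈ T, (if d ∈ T then W d else G d).card ≤ (Fintype.card F ^ 10) ^ 3 := by
    rw [← hTc]
    apply prod_le_pow_card
    intro d hd
    rw [if_pos hd]; exact hW d hd
  have h3 : ∏ d ∈ Tᶜ, (if d ∈ T then W d else G d).card = ∏ d ∈ Tᶜ, (G d).card :=
    prod_congr rfl fun d hd => by rw [if_neg (mem_compl.1 hd)]
  have h4 : g ^ 3 ≤ ∏ d ∈ T, ((G d).card : ℝ) := by
    rw [← hTc, ← prod_const]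
    exact prod_le_prod (fun _ _ => hg0) fun d _ => hg d
  rw [h3] at h1
  have h5 : (S.card : ℝ) ≤ ((Fintype.card F : ℝ) ^ 10) ^ 3 * ∏ d ∈ Tᶜ, ((G d).card : ℝ) := by
    exact_mod_cast h1.trans (Nat.mul_le_mul_right _ h2)
  push_cast
  calc S.card * g ^ 3 ≤ (((Fintype.card F : ℝ) ^ 10) ^ 3 * ∏ d ∈ Tᶜ, ((G d).card : ℝ))
        * ∏ d ∈ T, ((G d).card : ℝ) := mul_le_mul h5 h4 (pow_nonneg hg0 3)
          (mul_nonneg (pow_nonneg (pow_nonneg (Nat.cast_nonneg _) _) _)
            (prod_nonneg fun _ _ => Nat.cast_nonneg _))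
    _ = _ := by ring

/-- Missing lines of the gadget of direction `d`. -/
def gmu (d : Option F) : Option (Bool × Fin 11) → MI F
  | none => Sum.inl d
  | some (b, i) => Sum.inr ((d, b), i)

lemma exists_gmu (μ : MI F) : ∃ o, μ = gmu (hostOf μ).1 o := by
  rcases μ with d | ⟨⟨d, b⟩, i⟩
  · exact ⟨none, rfl⟩
  · exact ⟨some (b, i), rfl⟩

lemma card_idx1 : (univ : Finset (Option (Bool × Fin 11) × Fin 11 × Fin 11)).card = 2783 := by
  rw [card_univ, Fintype.card_prod, Fintype.card_prod, Fintype.card_option, Fintype.card_prod,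
    Fintype.card_bool, Fintype.card_fin]

lemma card_idx2 :
    (univ : Finset (Bool × (Fin 3 → Fin 11) × (Fin 3 → Fin 11))).card = 3543122 := by
  rw [card_univ, Fintype.card_prod, Fintype.card_prod, Fintype.card_fun, Fintype.card_bool,
    Fintype.card_fin, Fintype.card_fin]
  norm_num

lemma card_idx3 : (univ : Finset (Fin 5 → Fin 11)).card = 11 ^ 5 := by
  rw [card_univ, Fintype.card_fun, Fintype.card_fin, Fintype.card_fin]

namespace Cfg
variable {G : Cfg F}

/-- Coincidence of two kept points on a missing line. -/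
def Bad1 (G : Cfg F) (d : Option F) (a : Option (Bool × Fin 11) × Fin 11 × Fin 11)
    (x : Fin 11 → F) : Prop :=
  a.2.1 ≠ a.2.2 ∧ G.kpf (gmu d a.1) a.2.1 (x a.2.1) = G.kpf (gmu d a.1) a.2.2 (x a.2.2)

/-- Three collinear kept points in one gadget. -/
def Bad2 (G : Cfg F) (d : Option F) (a : Bool × (Fin 3 → Fin 11) × (Fin 3 → Fin 11))
    (x : Fin 11 → F) : Prop :=
  Function.Injective a.2.1 ∧ (∀ t, a.2.1 t ≠ a.2.2 t) ∧ ∃ v, ¬ On (G.A (d, a.1)) v ∧
    (∀ t, On (G.kpf (Sum.inr ((d, a.1), a.2.2 t)) (a.2.1 t) (x (a.2.1 t))) v) ∧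
    G.kpf (Sum.inr ((d, a.1), a.2.2 0)) (a.2.1 0) (x (a.2.1 0))
      ≠ G.kpf (Sum.inr ((d, a.1), a.2.2 1)) (a.2.1 1) (x (a.2.1 1))

open Classical in
lemma card_bad1 (hG : G.Ok) (d : Option F) (a : Option (Bool × Fin 11) × Fin 11 × Fin 11) :
    (univ.filter (G.Bad1 d a)).card ≤ Fintype.card F ^ 10 := by
  apply card_det _ a.2.1
  intro x hx y hy h
  obtain ⟨h1, h2⟩ := (mem_filter.1 hx).2
  obtain ⟨-, h3⟩ := (mem_filter.1 hy).2
  rw [h _ (Ne.symm h1), ← h3] at h2
  exact hG.kpf_inj _ _ h2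

open Classical in
lemma card_bad2 (hG : G.Ok) (d : Option F) (a : Bool × (Fin 3 → Fin 11) × (Fin 3 → Fin 11)) :
    (univ.filter (G.Bad2 d a)).card ≤ Fintype.card F ^ 10 := by
  apply card_det _ (a.2.1 2)
  intro x hx y hy h
  obtain ⟨h1, h2, v, h3, h4, h5⟩ := (mem_filter.1 hx).2
  obtain ⟨-, -, v', h3', h4', -⟩ := (mem_filter.1 hy).2
  have e0 : x (a.2.1 0) = y (a.2.1 0) := h _ (fun hh => by simpa using h1 hh)
  have e1 : x (a.2.1 1) = y (a.2.1 1) := h _ (fun hh => by simpa using h1 hh)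
  have hv : v = v' := On.line_eq (h4 0) (h4 1) (e0 ▸ h4' 0) (e1 ▸ h4' 1) h5
  subst hv
  apply hG.kpf_inj (Sum.inr ((d, a.1), a.2.2 2)) (a.2.1 2)
  refine On.pt_eq (h4 2) (h4' 2) (hG.kpf_on (μ := Sum.inr ((d, a.1), a.2.2 2)) (h2 2) _)
    (hG.kpf_on (μ := Sum.inr ((d, a.1), a.2.2 2)) (h2 2) _) ?_
  rintro rfl
  exact h3 (onh _ _)

theorem exists_good (hG : G.Ok) (κ K : ℝ) (hκ : 0 < κ)
    (Dom : Option F → Fin 11 → Finset F)
    (hDom : ∀ d j, κ * Fintype.card F ≤ (Dom d j).card)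
    (hcl : ∀ d j, ∀ ξ ∈ Dom d j, ∀ o, valid (gmu d o) j →
      G.Clean (G.ln (gmu d o)).1 (G.kpf (gmu d o) j ξ))
    (Conc : Finset (((F × F) ⊕ Option F) × (Fin 5 → MI F)))
    (hConc : ∀ Q μ, Function.Injective μ → (∀ t, Via Q (G.ln (μ t))) → (Q, μ) ∈ Conc)
    (hK : (Conc.card : ℝ) ≤ K * (Fintype.card F : ℝ) ^ 2)
    (h1 : 2 * 4000000 ≤ κ ^ 11 * Fintype.card F)
    (h2 : 8 * (K * 11 ^ 5) < κ ^ 33 * Fintype.card F) :
    ∃ c, G.Good c := by
  classical
  set q : ℝ := (Fintype.card F : ℝ) with hq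
  have hq0 : 0 < q := by rw [hq]; exact_mod_cast Fintype.card_pos
  let Gd : Option F → Finset (Fin 11 → F) := fun d =>
    (Fintype.piFinset (Dom d)).filter fun x => (∀ a, ¬ G.Bad1 d a x) ∧ ∀ a, ¬ G.Bad2 d a x
  set g : ℝ := (κ * q) ^ 11 / 2 with hg
  have hg0 : 0 < g := by positivity
  have hGd : ∀ d, g ≤ (Gd d).card := by
    intro d
    have hsub : Fintype.piFinset (Dom d) ⊆ Gd d ∪
        ((univ.biUnion fun a => univ.filter (G.Bad1 d a)) ∪
          univ.biUnion fun a => univ.filter (G.Bad2 d a)) := by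
      intro x hx
      by_contra hn
      simp only [mem_union, mem_biUnion, mem_filter, mem_univ, true_and, Gd, not_or,
        not_exists] at hn
      exact hn.1 ⟨hx, hn.2.1, hn.2.2⟩
    have e1 := (card_le_card hsub).trans ((card_union_le _ _).trans
      (Nat.add_le_add_left (card_union_le _ _) _))
    have e2 : (univ.biUnion fun a => univ.filter (G.Bad1 d a)).card
        ≤ 2783 * Fintype.card F ^ 10 := by
      exact (card_biUnion_le_card_mul _ _ _ fun a _ => card_bad1 hG d a).trans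
        (Nat.mul_le_mul_right _ card_idx1.le)
    have e3 : (univ.biUnion fun a => univ.filter (G.Bad2 d a)).card
        ≤ 3543122 * Fintype.card F ^ 10 := by
      exact (card_biUnion_le_card_mul _ _ _ fun a _ => card_bad2 hG d a).trans
        (Nat.mul_le_mul_right _ card_idx2.le)
    have e4 : (κ * q) ^ 11 ≤ (Fintype.piFinset (Dom d)).card := by
      rw [Fintype.card_piFinset]
      push_cast
      calc (κ * q) ^ 11 = ∏ _j : Fin 11, κ * q := by simp
        _ ≤ _ := prod_le_prod (fun _ _ => by positivity) fun j _ => hDom d j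
    have e5 : ((Fintype.piFinset (Dom d)).card : ℝ) ≤ (Gd d).card + 4000000 * q ^ 10 := by
      have : (Fintype.piFinset (Dom d)).card ≤ (Gd d).card + 4000000 * Fintype.card F ^ 10 := by
        omega
      rw [hq]; exact_mod_cast this
    have e6 : 2 * 4000000 * q ^ 10 ≤ (κ * q) ^ 11 := by
      calc 2 * 4000000 * q ^ 10 ≤ κ ^ 11 * q * q ^ 10 := by gcongr
        _ = _ := by ring
    linarith
  set Om := Fintype.piFinset Gd with hOm
  have hOm0 : (0:ℝ) < Om.card := by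
    rw [hOm, Fintype.card_piFinset]
    push_cast
    exact prod_pos fun d _ => hg0.trans_le (hGd d)
  let Ev : (((F × F) ⊕ Option F) × (Fin 5 → MI F)) × (Fin 5 → Fin 11) →
      Finset (Option F → Fin 11 → F) := fun a => Om.filter fun c =>
    Function.Injective (fun t => (hostOf (a.1.2 t)).1) ∧ (∀ t, valid (a.1.2 t) (a.2 t)) ∧
    (∀ t, Via a.1.1 (G.ln (a.1.2 t))) ∧
      ∃ v, ¬ Via a.1.1 v ∧ ∀ t, On (G.kp c (a.1.2 t) (a.2 t)) v
  have hEv : ∀ a, ((Ev a).card : ℝ) * g ^ 3 ≤ Om.card * (q ^ 10) ^ 3 := by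
    rintro ⟨⟨Q, μ⟩, j⟩
    rcases (Ev ((Q, μ), j)).eq_empty_or_nonempty with h0 | ⟨c0, hc0⟩
    · rw [h0]; simp only [card_empty, Nat.cast_zero, zero_mul]; positivity
    obtain ⟨hinj, hval, hvia, -⟩ := (mem_filter.1 hc0).2
    simp only at hinj hval hvia
    apply card_zero Gd g hg0.le hGd
      (fun t => ((hostOf (μ t.succ.succ)).1, j t.succ.succ))
      (fun t t' h => Fin.succ_injective _ (Fin.succ_injective _ (hinj h))) _ (filter_subset _ _)
    intro c hc c' hc' hcc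
    obtain ⟨-, -, -, v, hv1, hv2⟩ := (mem_filter.1 hc).2
    obtain ⟨-, -, -, v', hv1', hv2'⟩ := (mem_filter.1 hc').2
    simp only at hv1 hv2 hv1' hv2'
    have e0 : G.kp c (μ 0) (j 0) = G.kp c' (μ 0) (j 0) := by
      unfold kp
      rw [hcc _ _ fun t ht => ?_]
      exact Fin.succ_ne_zero _ (hinj (Prod.ext_iff.1 ht).1)
    have e1 : G.kp c (μ 1) (j 1) = G.kp c' (μ 1) (j 1) := by
      unfold kp
      rw [hcc _ _ fun t ht => ?_]
      have := hinj (Prod.ext_iff.1 ht).1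
      exact Fin.succ_ne_zero _ (Fin.succ_injective _ (this.trans Fin.succ_zero_eq_one.symm))
    have hne : G.kp c (μ 0) (j 0) ≠ G.kp c (μ 1) (j 1) := by
      intro heq
      by_cases hQ : Q = Sum.inl (G.kp c (μ 0) (j 0))
      · exact hv1 (by rw [hQ]; exact hv2 0)
      · have := hG.ln_inj (Via.line_eq (hvia 0) (hvia 1) (hG.kp_on c (hval 0))
          (heq ▸ hG.kp_on c (hval 1)) hQ)
        have h01 : (0 : Fin 5) = 1 := hinj (by simp only [this])
        exact absurd h01 (by decide)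
    have hv : v = v' := On.line_eq (hv2 0) (hv2 1) (e0 ▸ hv2' 0) (e1 ▸ hv2' 1) hne
    subst hv
    funext d i
    by_cases hz : ∀ t : Fin 3, ((hostOf (μ t.succ.succ)).1, j t.succ.succ) ≠ (d, i)
    · exact hcc d i hz
    · push Not at hz
      obtain ⟨t, ht⟩ := hz
      obtain ⟨rfl, rfl⟩ := Prod.ext_iff.1 ht
      apply hG.kpf_inj (μ t.succ.succ) (j t.succ.succ)
      refine On.pt_eq (hv2 _) (hv2' _) (hG.kp_on c (hval _)) (hG.kp_on c' (hval _)) ?_
      rintro rfl
      exact hv1 (hvia _)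
  have hlt : (((Conc ×ˢ univ).biUnion Ev).card : ℝ) < Om.card := by
    have e1 : (((Conc ×ˢ univ).biUnion Ev).card : ℝ) ≤ ∑ a ∈ Conc ×ˢ univ, ((Ev a).card : ℝ) := by
      exact_mod_cast card_biUnion_le
    have e2 : ∑ a ∈ Conc ×ˢ univ, ((Ev a).card : ℝ)
        ≤ (Conc.card * 11 ^ 5) * (Om.card * (q ^ 10) ^ 3 / g ^ 3) := by
      calc _ ≤ ∑ _a ∈ Conc ×ˢ (univ : Finset (Fin 5 → Fin 11)),
            (Om.card * (q ^ 10) ^ 3 / g ^ 3) :=
            sum_le_sum fun a _ => (le_div_iff₀ (by positivity)).2 (hEv a)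
        _ = _ := by
            rw [sum_const, nsmul_eq_mul, card_product, card_idx3]; push_cast; ring
    refine e1.trans_lt (e2.trans_lt ?_)
    rw [← mul_div_assoc, div_lt_iff₀ (by positivity)]
    calc Conc.card * 11 ^ 5 * (Om.card * (q ^ 10) ^ 3)
        ≤ K * q ^ 2 * 11 ^ 5 * (Om.card * (q ^ 10) ^ 3) := by gcongr
      _ = Om.card * (8 * (K * 11 ^ 5) * q ^ 32 / 8) := by ring
      _ < Om.card * (κ ^ 33 * q * q ^ 32 / 8) := by gcongr
      _ = _ := by rw [hg]; ring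
  obtain ⟨c, hc, hcn⟩ : ∃ c ∈ Om, c ∉ (Conc ×ˢ univ).biUnion Ev := by
    by_contra hn
    push Not at hn
    have := card_le_card hn
    exact absurd hlt (not_lt.2 (by exact_mod_cast this))
  have hcG : ∀ d, c d ∈ Gd d := Fintype.mem_piFinset.1 hc
  have hdist : ∀ μ j j', G.kp c μ j = G.kp c μ j' → j = j' := by
    intro μ j j' h
    obtain ⟨o, ho⟩ := exists_gmu μ
    by_contra hne
    refine (mem_filter.1 (hcG (hostOf μ).1)).2.1 (o, j, j') ⟨hne, ?_⟩
    simp only [← ho]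
    exact h
  have hclean : ∀ μ j, valid μ j → G.Clean (G.ln μ).1 (G.kp c μ j) := by
    intro μ j hv
    obtain ⟨o, ho⟩ := exists_gmu μ
    have := hcl (hostOf μ).1 j (c (hostOf μ).1 j)
      (Fintype.mem_piFinset.1 (mem_filter.1 (hcG (hostOf μ).1)).1 j) o (by rwa [← ho])
    rwa [← ho] at this
  refine ⟨c, hclean, fun μ j j' _ _ => hdist μ j j', ?_, ?_⟩
  · rintro ⟨d, b⟩ j i hj hji v hA hon
    refine (mem_filter.1 (hcG d)).2.2 (b, j, i) ⟨hj, hji, v, hA, hon, ?_⟩
    intro heq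
    change G.kp c (Sum.inr ((d, b), i 0)) (j 0) = G.kp c (Sum.inr ((d, b), i 1)) (j 1) at heq
    by_cases hi : i 0 = i 1
    · rw [← hi] at heq
      exact absurd (hj (hdist _ _ _ heq)) (by decide)
    · apply hA
      have a1 : On (G.kp c (Sum.inr ((d, b), i 0)) (j 0)) (G.ln (Sum.inr ((d, b), i 0))) :=
        hG.kp_on c (hji 0)
      have a2 : On (G.kp c (Sum.inr ((d, b), i 0)) (j 0)) (G.ln (Sum.inr ((d, b), i 1))) :=
        heq ▸ hG.kp_on c (hji 1)
      rw [← On.pt_eq a1 (onh _ _) a2 (onh _ _) fun hl => hi (by simpa using hG.ln_inj hl)]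
      exact hon 0
  · intro Q μ j hinj hval hvia v hv hon
    apply hcn
    refine mem_biUnion.2 ⟨((Q, μ), j), mem_product.2 ⟨hConc Q μ ?_ hvia, mem_univ _⟩,
      mem_filter.2 ⟨hc, hinj, hval, hvia, v, hv, hon⟩⟩
    intro t t' h
    exact hinj (by simp only [h])

end Cfg

end Vale.Agent.P045
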