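import Vale.Agent.P045.StabC
import Vale.Agent.P045.Stage1
import Vale.Agent.P045.Stage2
import Vale.Agent.P045.SW

/-! Assembly. -/

set_option linter.unusedSectionVars false

open Finset Filter

namespace Vale.Agent.P045

section Det
variable {F : Type} [Field F] [Fintype F] [DecidableEq F] {R : ℕ}

lemma card_conc (ω : Sl F R → F) (G : Cfg F) (slot : MI F → Sl F R)
    (hs : Function.Injective slot) (hln : ∀ μ, G.ln μ = ((slot μ).1, ω (slot μ))) :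
    ∃ Conc : Finset (((F × F) ⊕ Option F) × (Fin 5 → MI F)),
      (∀ Q μ, Function.Injective μ → (∀ t, Via Q (G.ln (μ t))) → (Q, μ) ∈ Conc) ∧
      (Conc.card : ℝ) ≤ conc ω + (Fintype.card F + 1) * (R + 1) ^ 5 := by
  classical
  refine ⟨univ.filter fun x => Function.Injective x.2 ∧ ∀ t, Via x.1 (G.ln (x.2 t)),
    fun Q μ h1 h2 => mem_filter.2 ⟨mem_univ _, h1, h2⟩, ?_⟩
  have h := card_le_card_of_injOn
    (s := univ.filter fun x : ((F × F) ⊕ Option F) × (Fin 5 → MI F) =>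
      Function.Injective x.2 ∧ ∀ t, Via x.1 (G.ln (x.2 t)))
    (t := (univ.filter fun x : (F × F) × (Fin 5 → Sl F R) => Function.Injective x.2 ∧
      ∀ t, lam (x.2 t).1 x.1 = ω (x.2 t)).disjSum
      (univ : Finset (Option F × (Fin 5 → Option (Fin R)))))
    (fun x => match x with
      | (Sum.inl P, μ) => Sum.inl (P, slot ∘ μ)
      | (Sum.inr d, μ) => Sum.inr (d, fun t => (slot (μ t)).2)) (by
      rintro ⟨P | d, μ⟩ hx
      · simp only [coe_filter, mem_univ, true_and, Set.mem_ofPred_eq] at hx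
        simp only [mem_coe, inl_mem_disjSum, mem_filter, mem_univ, true_and]
        refine ⟨hs.comp hx.1, fun t => ?_⟩
        have := hx.2 t
        rw [hln] at this
        exact this
      · simp) (by
      rintro ⟨P | d, μ⟩ hx ⟨P' | d', μ'⟩ hx' h
      · simp only [Sum.inl.injEq, Prod.mk.injEq] at h
        rw [h.1, hs.comp_left h.2]
      · cases h
      · cases h
      · simp only [Sum.inr.injEq, Prod.mk.injEq] at h
        simp only [coe_filter, mem_univ, true_and, Set.mem_ofPred_eq] at hx hx'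
        obtain ⟨rfl, h2⟩ := h
        congr 1
        funext t
        apply hs
        have h3 := hx.2 t
        have h4 := hx'.2 t
        rw [hln] at h3 h4
        exact Prod.ext (Eq.trans h3 (Eq.symm h4)) (congrFun h2 t))
  rw [card_disjSum] at h
  rw [conc, cnt_eq]
  simp only [card_univ, Fintype.card_prod, Fintype.card_option, Fintype.card_fun,
    Fintype.card_fin] at h
  exact_mod_cast h

lemma good_of_typical (τ : Option F → Bool × Fin 11) (ω : Sl F R → F) (κ K6 : ℝ) (hκ : 0 < κ)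
    (Δ : ℕ) (hdeg : ∀ L, degc L ω ≤ Δ)
    (hcand : ∀ h : Option F × Bool, 44 * Δ + 1 ≤ cand τ h (ω (h.1, none)) ω)
    (hclm : ∀ θ : Th F, κ * Fintype.card F ≤ clm θ ω)
    (hconc : conc ω + (Fintype.card F + 1) * (R + 1) ^ 5 ≤ K6 * (Fintype.card F : ℝ) ^ 2)
    (h1 : 2 * 4000000 ≤ κ ^ 11 * Fintype.card F)
    (h2 : 8 * (K6 * 11 ^ 5) < κ ^ 33 * Fintype.card F) :
    ∃ G : Cfg F, ∃ c, G.Ok ∧ G.Good c ∧ (∀ d P, CleanS ω d P → G.Clean d P) ∧
      ∀ P ∈ XJ ω ∅, G.Free P := by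
  classical
  obtain ⟨G, hG, slot, hs, hln⟩ := exists_cfg τ ω Δ hdeg hcand
  have hcl : ∀ d P, CleanS ω d P → G.Clean d P := by
    intro d P h μ hd hon
    rw [hln] at hd hon
    exact h _ hd hon
  obtain ⟨Conc, hC1, hC2⟩ := card_conc ω G slot hs hln
  let θ : Option F → Fin 11 → Th F := fun d j => (d, G.l d, fun x => G.e (d, x.1) x.2,
    fun x => lam (G.e (d, x.1) x.2) (G.A (d, x.1)), j)
  obtain ⟨c, hc⟩ := Cfg.exists_good hG κ K6 hκ
    (fun d j => univ.filter fun ξ =>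
      ∀ o, mok (θ d j) o → CleanS ω (mdir (θ d j) o) (mpt (θ d j) o ξ))
    (fun d j => by have := hclm (θ d j); rwa [clm, cnt_eq] at this)
    (by
      intro d j ξ hξ o hv
      have h3 := (mem_filter.1 hξ).2 o
      rcases o with _ | ⟨b, i⟩
      · exact hcl _ _ (h3 trivial)
      · exact hcl _ _ (h3 ⟨hG.e_ne (d, b) j, fun hh => hv (hG.e_inj' (d, b) hh)⟩))
    Conc hC1 (hC2.trans hconc) h1 h2
  refine ⟨G, c, hG, hc, hcl, fun P hP μ hon => ?_⟩
  rw [hln] at hon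
  exact mem_XJ.1 hP _ (notMem_empty _) hon

lemma card_Th (hq : 2 ≤ Fintype.card F) : (Fintype.card (Th F) : ℝ) ≤ (Fintype.card F : ℝ) ^ 73 := by
  have h1 : Fintype.card F + 1 ≤ Fintype.card F ^ 2 := by nlinarith
  have h2 : 11 ≤ Fintype.card F ^ 4 := le_trans (by norm_num) (Nat.pow_le_pow_left hq 4)
  have : Fintype.card (Th F) ≤ Fintype.card F ^ 73 := by
    simp only [Fintype.card_prod, Fintype.card_option, Fintype.card_fun, Fintype.card_bool,
      Fintype.card_fin]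
    calc _ ≤ Fintype.card F ^ 2 * (Fintype.card F * ((Fintype.card F ^ 2) ^ (2 * 11)
          * (Fintype.card F ^ (2 * 11) * Fintype.card F ^ 4))) := by gcongr
      _ = _ := by ring
  exact_mod_cast this

end Det

lemma ev_lin {a : ℝ} (ha : 0 < a) (b : ℝ) : ∀ᶠ q : ℕ in atTop, b < a * q :=
  (Tendsto.const_mul_atTop ha tendsto_natCast_atTop_atTop).eventually_gt_atTop b

set_option maxHeartbeats 1000000 in
theorem main_R (R : ℕ) (hR : 45 * (4 * (2 * ((R:ℝ) + 1)) ^ 10 + 1) + 1 ≤ ((R:ℝ) / 44) ^ 11) :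
    ∀ᶠ q : ℕ in atTop, ∀ [Fact q.Prime], ∃ G : Cfg (ZMod q), ∃ c, G.Ok ∧ G.Good c ∧
      ∀ D : Finset (Option (ZMod q) × Option (ZMod q)), D.card ≤ q →
        ∃ φ, G.Edge c φ ∧ ∀ d, (d, φ d) ∉ D := by
  have hR0 : (0:ℝ) ≤ R := Nat.cast_nonneg R
  obtain ⟨δ0, hδ0⟩ : ∃ δ0, δ0 = Real.exp (-(2 * ((R:ℝ) + 1))) := ⟨_, rfl⟩
  have hδp : 0 < δ0 := hδ0 ▸ Real.exp_pos _
  have hδ1 : δ0 ≤ 1 := by rw [hδ0]; exact Real.exp_le_one_iff.2 (by linarith)
  obtain ⟨c, hc⟩ : ∃ c, c = δ0 ^ 2 / 256 := ⟨_, rfl⟩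
  have hcp : 0 < c := by rw [hc]; positivity
  have hc1 : c ≤ 1 := by rw [hc]; nlinarith
  obtain ⟨m0, hm0⟩ : ∃ m0 : ℕ, 4 * ((R:ℝ) + 1) ≤ c * m0 := by
    obtain ⟨m0, h⟩ := exists_nat_ge (4 * ((R:ℝ) + 1) / c)
    exact ⟨m0, by rwa [div_le_iff₀' hcp] at h⟩
  obtain ⟨k, hk1, hk2⟩ : ∃ k : ℕ, 16 * (R + 1) ≤ k ∧ 32 ≤ k * δ0 := by
    obtain ⟨k, h⟩ := exists_nat_ge (32 / δ0)
    refine ⟨k + 16 * (R + 1), by omega, ?_⟩
    rw [div_le_iff₀ hδp] at h
    push_cast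
    nlinarith
  have hkp : (1:ℝ) ≤ k := by
    have : 1 ≤ k := by omega
    exact_mod_cast this
  obtain ⟨η, hη⟩ : ∃ η, η = c * (1 / (k:ℝ)) ^ m0 / 4 := ⟨_, rfl⟩
  have hηp : 0 < η := by rw [hη]; positivity
  have hη1 : η ≤ 1 := by
    have : (1 / (k:ℝ)) ^ m0 ≤ 1 := pow_le_one₀ (by positivity) (by rw [div_le_one (by linarith)]; exact hkp)
    rw [hη]; nlinarith
  obtain ⟨ε, hε⟩ : ∃ ε, ε = η / 24 := ⟨_, rfl⟩
  have hεp : 0 < ε := by rw [hε]; positivity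
  obtain ⟨γ, hγ⟩ : ∃ γ, γ = ε ^ 2 * δ0 / 24 := ⟨_, rfl⟩
  have hγp : 0 < γ := by rw [hγ]; positivity
  have hγδ : γ ≤ δ0 / 2 := by
    have : ε ^ 2 ≤ 1 := by nlinarith
    rw [hγ]; nlinarith
  obtain ⟨σ, hσp, hσ1, hσ2, hσ3⟩ : ∃ σ, 0 < σ ∧ σ ≤ 1 / 8 ∧ σ ≤ η ∧ σ ≤ ε * δ0 / 16 :=
    ⟨min (1 / 8) (min η (ε * δ0 / 16)), by positivity, min_le_left _ _,
      (min_le_right _ _).trans (min_le_left _ _), (min_le_right _ _).trans (min_le_right _ _)⟩
  obtain ⟨κ, hκ⟩ : ∃ κ, κ = Real.exp (-(92 * ((R:ℝ) + 1))) / 2 := ⟨_, rfl⟩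
  have hκp : 0 < κ := by rw [hκ]; positivity
  obtain ⟨K6, hK6⟩ : ∃ K6, K6 = 8 * (2 * ((R:ℝ) + 1)) ^ 5 + (R + 1) ^ 5 := ⟨_, rfl⟩
  have hlog : ∀ᶠ q : ℕ in atTop,
      4 * ((R:ℝ) + 1) + 8 / (ε * δ0) + (R + 1) / η + 1 ≤ 6 * ε * Real.log q :=
    (Tendsto.const_mul_atTop (by positivity)
      (Real.tendsto_log_atTop.comp tendsto_natCast_atTop_atTop)).eventually_ge_atTop _
  have h8 : (0:ℝ) < 1 / 8 := by norm_num
  filter_upwards [hlog, eventually_ge_atTop (2 * (R + 11) + 88), ev_lin hγp (R + 1),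
    ev_lin hεp 1, ev_lin hδp 16, ev_lin (pow_pos hκp 11) (2 * 4000000),
    ev_lin (pow_pos hκp 33) (8 * (K6 * 11 ^ 5)),
    ev_poly_exp 73 (a := κ ^ 2 / (4 * (R + 1) * 46 ^ 2)) (by positivity) h8,
    ev_poly_exp 4 (a := γ ^ 2 / (16 * (R + 1))) (by positivity) h8,
    ev_poly_exp 4 (a := δ0 ^ 2 / (16 * (R + 1))) (by positivity) h8,
    ev_poly_exp 7 one_pos h8,
    ev_poly_exp 2 (a := σ ^ 2 / (4 * (R + 1))) (by positivity) one_pos]
    with q e1 e2 e3 e4 e5 e6 e7 e8 e9 e10 e11 e12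
  intro _
  classical
  have hcard : Fintype.card (ZMod q) = q := ZMod.card q
  have hq2 : (2:ℝ) ≤ q := by exact_mod_cast (show 2 ≤ q by omega)
  have hq0 : (0:ℝ) < q := by linarith
  have hqq : (q:ℝ) + 2 ≤ q ^ 2 := by nlinarith
  obtain ⟨τ, hτ⟩ := exists_tau (F := ZMod q)
  obtain ⟨δ, hδ⟩ : ∃ δ, δ = del q R := ⟨_, rfl⟩
  have hδδ : δ0 ≤ δ := by rw [hδ, hδ0]; exact del_ge (by omega) R
  have p1 := prG1 (F := ZMod q) (R := R) (by omega)
  have p2 := prG2 (F := ZMod q) (R := R) γ hγp.le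
  have p4 := prG4 (F := ZMod q) (R := R) τ (by omega) hτ δ0 hδp.le
  have p5 := prG5 (F := ZMod q) (R := R) (by omega) δ0 hδp.le
  have p6 := prG6 (F := ZMod q) (R := R)
  have p7 := pr_str_all (F := ZMod q) (R := R) (8 / (ε * δ0)) η ε hηp ⌈ε * q⌉₊ ⌊η / 2 * q⌋₊
    (by omega) (by rw [hcard]; exact (Nat.ceil_lt_add_one (by positivity)).le)
    (by rw [hcard, hε]; have := Nat.lt_floor_add_one (η / 2 * q); linarith) (by rwa [hcard])
  have hTh := card_Th (F := ZMod q) (by omega)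
  rw [← hκ] at p1
  simp only [Fintype.card_prod, Fintype.card_option, Fintype.card_bool] at p4 p5
  rw [hcard] at p1 p2 p4 p5 p6 p7 hTh
  rw [← hδ] at p2 p4 p5
  have hq4 : ((q:ℝ) + 1) * q * 2 ≤ q ^ 4 := by
    calc ((q:ℝ) + 1) * q * 2 ≤ q ^ 2 * q * q := by gcongr; linarith
      _ = _ := by ring
  have p1' := p1.trans_lt (lt_of_le_of_lt (by gcongr) e8)
  have p2' := p2.trans_lt (lt_of_le_of_lt (by rw [← mul_assoc]; gcongr) e9)
  have p4' := p4.trans_lt (lt_of_le_of_lt (by gcongr; push_cast; linarith) e10)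
  have p5' := p5.trans_lt (lt_of_le_of_lt (by
    gcongr; push_cast; nlinarith only [hq4, mul_pos hq0 hq0, hq0]) e10)
  have p7' := p7.trans_lt e11
  obtain ⟨ω, hω⟩ := exists_not_of_pr_lt_one (lt_of_le_of_lt ((pr_or _ _).trans (add_le_add p1'.le
    ((pr_or _ _).trans (add_le_add p2'.le ((pr_or _ _).trans (add_le_add p4'.le
    ((pr_or _ _).trans (add_le_add p5'.le ((pr_or _ _).trans (add_le_add p6 p7'.le))))))))))
    (by norm_num))
  simp only [not_or, not_exists, not_not, not_le] at hω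
  obtain ⟨g1, g2, g4, g5, g6, g7⟩ := hω
  have hG0 : Good0 γ ω := by
    intro L; rw [hcard, ← hδ]; exact g2 L
  set D := 4 * (2 * ((R:ℝ) + 1)) ^ 10 + 1 with hD
  have hD1 : 1 ≤ D := by
    have : 0 ≤ 4 * (2 * ((R:ℝ) + 1)) ^ 10 := by positivity
    linarith
  have hδq : 16 ≤ δ * q := e5.le.trans (by gcongr)
  obtain ⟨G, c0, hG, hc0, hcl, hfree⟩ := good_of_typical τ ω κ K6 hκp ⌊D * (δ * q)⌋₊
    (by
      intro L
      have h1 := g5 L
      have h2 : degc L ω ≤ D * (δ * q) := by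
        have : δ0 * q ≤ δ * q := by gcongr
        rw [hD]; linarith
      rw [degc, cnt_eq] at h2 ⊢
      exact_mod_cast Nat.le_floor h2)
    (by
      intro h
      have h1 := g4 (h, ω (h.1, none))
      have h2 : (⌊D * (δ * q)⌋₊ : ℝ) ≤ D * (δ * q) := Nat.floor_le (by positivity)
      have h3 : δ0 * q ≤ δ * q := by gcongr
      have h4 : (45 * D + 1) * (δ * q) ≤ ((R:ℝ) / 44) ^ 11 * (δ * q) := by gcongr
      have h5 : 1 * 16 ≤ D * (δ * q) := by gcongr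
      simp only at h1
      linarith)
    (fun θ => by rw [hcard]; exact (g1 θ).le)
    (by
      rw [hcard, hK6]
      have : ((q:ℝ) + 1) * (R + 1) ^ 5 ≤ q ^ 2 * (R + 1) ^ 5 := by gcongr; linarith
      linarith)
    (by rw [hcard]; exact e6.le) (by rw [hcard]; exact e7)
  refine ⟨G, c0, hG, hc0, fun D hD => ?_⟩
  have hm1 : (⌊δ0 * q / 8⌋₊ : ℝ) ≤ δ0 * q / 8 := Nat.floor_le (by positivity)
  have hm2 := Nat.lt_floor_add_one (δ0 * q / 8)
  refine Cfg.no_cover hG hc0 ⌊δ0 * q / 8⌋₊ ?_ ?_ D (by rwa [hcard])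
  · intro L
    refine ⟨(pts L).filter (CleanS ω L.1), filter_subset _ _, ?_,
      fun P hP => hcl _ _ (mem_filter.1 hP).2⟩
    have h1 := (g2 L).1
    rw [cl_eq] at h1
    have h2 : δ0 / 2 * q ≤ (δ - γ) * q := by gcongr; linarith
    have : (2 * ⌊δ0 * q / 8⌋₊ : ℝ) < ((pts L).filter (CleanS ω L.1)).card := by linarith
    exact_mod_cast this
  · intro C hC hcov
    rw [hcard] at hC ⊢
    apply sw C hC
    · by_contra hn
      have h1 : ((⌊δ0 * q / 8⌋₊ : ℝ)) ^ 2 ≤ (unc C).card := by exact_mod_cast not_lt.1 hn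
      have h2 : c * (q:ℝ) ^ 2 ≤ (unc C).card := by
        refine le_trans ?_ h1
        calc c * (q:ℝ) ^ 2 = (δ0 * q / 16) ^ 2 := by rw [hc]; ring
          _ ≤ _ := by gcongr; linarith
      have hce := Nat.ceil_lt_add_one (show 0 ≤ ε * q by positivity)
      obtain ⟨I, J, C', B, h3⟩ := exists_str ω k m0 ⌈ε * q⌉₊ ⌊η / 2 * q⌋₊ c η ε δ0 γ σ
        (by omega) hδp (by rwa [hcard, ← hδ]) hεp (by linarith) hγp.le (by linarith)
        (by rw [hcard]; exact e3.le) hk1 hk2 hm0 (by linarith)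
        (by rw [hcard]; exact Nat.le_ceil _) (by rw [hcard]; linarith)
        (by rw [hcard, Nat.ceil_le]; nlinarith only [hε, hη1, hq0])
        (by rw [hcard]; exact Nat.floor_le (by positivity)) hσp.le hσ1 hσ2 hσ3
        (by rw [hcard]; exact lt_of_le_of_lt (by gcongr) e12) hG0 C (by rwa [hcard])
        (fun P hP => hcov P (hfree P hP)) (by rwa [hcard])
      rw [hcard] at h3
      exact g7 I J C' B h3
    · have : (8 * ⌊δ0 * q / 8⌋₊ : ℝ) ≤ q := by nlinarith only [hm1, hδ1, hq0]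
      exact_mod_cast this

theorem main : ∃ q0 : ℕ, ∀ q ≥ q0, ∀ [Fact q.Prime], ∃ G : Cfg (ZMod q), ∃ c, G.Ok ∧ G.Good c ∧
      ∀ D : Finset (Option (ZMod q) × Option (ZMod q)), D.card ≤ q →
        ∃ φ, G.Edge c φ ∧ ∀ d, (d, φ d) ∉ D :=
  eventually_atTop.1 (main_R (10 ^ 28) (by norm_num))

end Vale.Agent.P045
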