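import Mathlib

/-! Affine plane over a finite field: directions, lines, incidences, mixing lemma. -/

set_option linter.unusedSectionVars false

open Finset

namespace Vale.Agent.P045

variable {F : Type} [Field F]

/-- The linear form whose level sets are the lines of direction `d`. -/
def lam : Option F → F × F → F
  | none, P => P.1
  | some m, P => P.2 - m * P.1

/-- Direction vector. -/
def uu : Option F → F × F
  | none => (0, 1)
  | some m => (1, m)

/-- Transversal vector. -/
def ww : Option F → F × F
  | none => (1, 0)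
  | some _ => (0, 1)

lemma lam_add (d : Option F) (P Q : F × F) : lam d (P + Q) = lam d P + lam d Q := by
  cases d <;> simp [lam]; ring

lemma lam_smul (d : Option F) (c : F) (P : F × F) : lam d (c • P) = c * lam d P := by
  cases d <;> simp [lam]; ring

lemma lam_uu (d : Option F) : lam d (uu d) = 0 := by
  cases d <;> simp [lam, uu]

lemma lam_ww (d : Option F) : lam d (ww d) = 1 := by
  cases d <;> simp [lam, ww]

lemma lam_uu_ne {d d' : Option F} (h : d' ≠ d) : lam d' (uu d) ≠ 0 := by
  cases d <;> cases d' <;> simp_all [lam, uu]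
  rw [sub_eq_zero]; exact fun h' => h h'.symm

lemma eq_of_lam_eq {d d' : Option F} (h : d ≠ d') {P Q : F × F} (h1 : lam d P = lam d Q)
    (h2 : lam d' P = lam d' Q) : P = Q := by
  obtain ⟨x, y⟩ := P
  obtain ⟨x', y'⟩ := Q
  cases d with
  | none =>
    cases d' with
    | none => exact absurd rfl h
    | some m =>
      simp only [lam] at h1 h2
      subst h1
      simp only [Prod.mk.injEq, true_and]
      linear_combination h2
  | some m =>
    cases d' with
    | none =>
      simp only [lam] at h1 h2
      subst h2
      simp only [Prod.mk.injEq, true_and]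
      linear_combination h1
    | some m' =>
      simp only [lam] at h1 h2
      have hm : m' - m ≠ 0 := by
        rw [sub_ne_zero]; rintro rfl; exact h rfl
      have hx : x = x' := by
        have : (m' - m) * (x - x') = 0 := by linear_combination h1 - h2
        rcases mul_eq_zero.1 this with h3 | h3
        · exact absurd h3 hm
        · exact sub_eq_zero.1 h3
      subst hx
      simp only [Prod.mk.injEq, true_and]
      linear_combination h1

lemma exists_join (P Q : F × F) : ∃ d, lam d P = lam d Q := by
  obtain ⟨x, y⟩ := P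
  obtain ⟨x', y'⟩ := Q
  by_cases h : x = x'
  · exact ⟨none, h⟩
  · refine ⟨some ((y - y') / (x - x')), ?_⟩
    have : x - x' ≠ 0 := sub_ne_zero.2 h
    simp only [lam]
    field_simp
    ring

/-- Parametrisation of the line of direction `d` and intercept `b`. -/
def pos (d : Option F) (b ξ : F) : F × F := b • ww d + ξ • uu d

lemma lam_pos (d : Option F) (b ξ : F) : lam d (pos d b ξ) = b := by
  simp [pos, lam_add, lam_smul, lam_uu, lam_ww]

lemma lam_pos_inj {d d' : Option F} (h : d' ≠ d) (b : F) :
    Function.Injective (fun ξ => lam d' (pos d b ξ)) := by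
  intro ξ ξ' hh
  simp only [pos, lam_add, lam_smul] at hh
  have := lam_uu_ne h
  have h2 : (ξ - ξ') * lam d' (uu d) = 0 := by linear_combination hh
  rcases mul_eq_zero.1 h2 with h3 | h3
  · exact sub_eq_zero.1 h3
  · exact absurd h3 this

/-- Some direction different from `d`. -/
def other : Option F → Option F
  | none => some 0
  | some _ => none

lemma other_ne (d : Option F) : other d ≠ d := by cases d <;> simp [other]

lemma pos_inj (d : Option F) (b : F) : Function.Injective (pos d b) := by
  intro ξ ξ' h
  exact lam_pos_inj (other_ne d) b (by simp only [h])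

/-- Intersection point of two lines of different directions. -/
def meet (d : Option F) (b : F) (d' : Option F) (b' : F) : F × F :=
  pos d b ((b' - b * lam d' (ww d)) / lam d' (uu d))

lemma lam_meet_left (d : Option F) (b : F) (d' : Option F) (b' : F) :
    lam d (meet d b d' b') = b := lam_pos _ _ _

lemma lam_meet_right {d d' : Option F} (h : d ≠ d') (b b' : F) :
    lam d' (meet d b d' b') = b' := by
  have := lam_uu_ne h.symm
  simp only [meet, pos, lam_add, lam_smul]
  field_simp
  ring

lemma exists_pos {d : Option F} {b : F} {P : F × F} (h : lam d P = b) : ∃ ξ, pos d b ξ = P := by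
  refine ⟨(lam (other d) P - b * lam (other d) (ww d)) / lam (other d) (uu d), ?_⟩
  apply eq_of_lam_eq (other_ne d).symm
  · rw [lam_pos, h]
  · exact lam_meet_right (other_ne d).symm _ _

/-- Incidence of a point and a line. -/
def On (P : F × F) (L : Option F × F) : Prop := lam L.1 P = L.2

lemma On.line_eq {P Q : F × F} {L L' : Option F × F} (h1 : On P L) (h2 : On Q L) (h3 : On P L')
    (h4 : On Q L') (hPQ : P ≠ Q) : L = L' := by
  obtain ⟨d, b⟩ := L
  obtain ⟨d', b'⟩ := L'
  simp only [On] at *
  by_cases hd : d = d'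
  · subst hd; rw [← h1, ← h3]
  · exact absurd (eq_of_lam_eq hd (h1.trans h2.symm) (h3.trans h4.symm)) hPQ

lemma On.pt_eq {P Q : F × F} {L L' : Option F × F} (h1 : On P L) (h2 : On Q L) (h3 : On P L')
    (h4 : On Q L') (hL : L ≠ L') : P = Q := by
  by_contra h; exact hL (On.line_eq h1 h2 h3 h4 h)

lemma On.eq_of_dir {P : F × F} {L L' : Option F × F} (h1 : On P L) (h3 : On P L')
    (hd : L.1 = L'.1) : L = L' := by
  obtain ⟨d, b⟩ := L
  obtain ⟨d', b'⟩ := L'
  simp only [On] at *
  subst hd; rw [← h1, ← h3]

variable [Fintype F] [DecidableEq F]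

instance (P : F × F) (L : Option F × F) : Decidable (On P L) := by unfold On; infer_instance

/-- The points of a line. -/
def pts (L : Option F × F) : Finset (F × F) := univ.filter fun P => On P L

@[simp] lemma mem_pts {L : Option F × F} {P : F × F} : P ∈ pts L ↔ On P L := by simp [pts]

lemma pts_eq_image (L : Option F × F) : pts L = univ.image (pos L.1 L.2) := by
  ext P
  simp only [mem_pts, mem_image, mem_univ, true_and]
  constructor
  · exact fun h => exists_pos h
  · rintro ⟨ξ, rfl⟩; exact lam_pos _ _ _

lemma card_pts (L : Option F × F) : (pts L).card = Fintype.card F := by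
  rw [pts_eq_image, card_image_of_injective _ (pos_inj _ _), card_univ]

lemma card_filter_pts (L : Option F × F) (p : F × F → Prop) [DecidablePred p] :
    ((pts L).filter p).card = (univ.filter fun ξ => p (pos L.1 L.2 ξ)).card := by
  rw [pts_eq_image, filter_image, card_image_of_injective _ (pos_inj _ _)]

lemma card_inter_pts_le_one {L L' : Option F × F} (h : L ≠ L') :
    (pts L ∩ pts L').card ≤ 1 := by
  rw [card_le_one]
  intro P hP Q hQ
  simp only [mem_inter, mem_pts] at hP hQ
  exact On.pt_eq hP.1 hQ.1 hP.2 hQ.2 h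

lemma card_lines_on (P : F × F) :
    (univ.filter fun L : Option F × F => On P L).card = Fintype.card F + 1 := by
  have : (univ.filter fun L : Option F × F => On P L) = univ.image fun d => (d, lam d P) := by
    ext ⟨d, b⟩
    simp [On, eq_comm]
  rw [this, card_image_of_injective, card_univ, Fintype.card_option]
  intro d d' h; exact (Prod.ext_iff.1 h).1

lemma card_lines_on_two {P Q : F × F} (h : P ≠ Q) :
    (univ.filter fun L : Option F × F => On P L ∧ On Q L).card = 1 := by
  obtain ⟨d, hd⟩ := exists_join P Q
  rw [card_eq_one]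
  refine ⟨(d, lam d P), ?_⟩
  ext L
  simp only [mem_filter, mem_univ, true_and, mem_singleton]
  constructor
  · rintro ⟨h1, h2⟩
    exact On.line_eq h1 h2 (show On P (d, lam d P) from rfl) (show On Q (d, lam d P) from hd.symm) h
  · rintro rfl; exact ⟨rfl, hd.symm⟩

lemma card_line : Fintype.card (Option F × F) = (Fintype.card F + 1) * Fintype.card F := by
  simp

lemma sum_card_inter (Z : Finset (F × F)) :
    ∑ L : Option F × F, ((pts L ∩ Z).card : ℝ) = (Fintype.card F + 1) * Z.card := by
  have h1 : ∀ L : Option F × F, ((pts L ∩ Z).card : ℝ) = ∑ P ∈ Z, if On P L then (1:ℝ) else 0 := by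
    intro L
    rw [sum_boole]
    congr 2
    ext P; simp [and_comm]
  simp_rw [h1]
  rw [sum_comm]
  simp_rw [sum_boole, card_lines_on]
  simp only [sum_const, nsmul_eq_mul]
  push_cast; ring

lemma sum_card_inter_sq (Z : Finset (F × F)) :
    ∑ L : Option F × F, ((pts L ∩ Z).card : ℝ) ^ 2
      = Fintype.card F * Z.card + (Z.card : ℝ) ^ 2 := by
  have h1 : ∀ L : Option F × F, ((pts L ∩ Z).card : ℝ) ^ 2
      = ∑ P ∈ Z, ∑ Q ∈ Z, if On P L ∧ On Q L then (1:ℝ) else 0 := by
    intro L
    have : ((pts L ∩ Z).card : ℝ) = ∑ P ∈ Z, if On P L then (1:ℝ) else 0 := by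
      rw [sum_boole]
      congr 2
      ext P; simp [and_comm]
    rw [this, sq, sum_mul_sum]
    refine sum_congr rfl fun P _ => sum_congr rfl fun Q _ => ?_
    by_cases h1 : On P L <;> by_cases h2 : On Q L <;> simp [h1, h2]
  simp_rw [h1]
  rw [sum_comm]
  have h2 : ∀ P ∈ Z, ∑ L : Option F × F, ∑ Q ∈ Z, (if On P L ∧ On Q L then (1:ℝ) else 0)
      = Fintype.card F + Z.card := by
    intro P hP
    rw [sum_comm]
    have : ∀ Q ∈ Z, ∑ L : Option F × F, (if On P L ∧ On Q L then (1:ℝ) else 0)
        = 1 + if Q = P then (Fintype.card F : ℝ) else 0 := by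
      intro Q _
      rw [sum_boole]
      by_cases hQ : Q = P
      · subst hQ
        simp only [and_self, if_true, card_lines_on]; push_cast; ring
      · rw [card_lines_on_two (Ne.symm hQ)]; simp [hQ]
    rw [sum_congr rfl this, sum_add_distrib, sum_ite_eq' Z P, if_pos hP]
    simp [add_comm]
  rw [sum_congr rfl h2, sum_const, nsmul_eq_mul]
  ring

lemma mixing (Z : Finset (F × F)) :
    ∑ L : Option F × F, (((pts L ∩ Z).card : ℝ) - Z.card / Fintype.card F) ^ 2
      ≤ Fintype.card F * Z.card := by
  have hq : (0:ℝ) < Fintype.card F := by exact_mod_cast Fintype.card_pos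
  have h1 : ∀ L : Option F × F, (((pts L ∩ Z).card : ℝ) - Z.card / Fintype.card F) ^ 2
     = ((pts L ∩ Z).card : ℝ) ^ 2 - 2 * (Z.card / Fintype.card F) * ((pts L ∩ Z).card : ℝ)
       + (Z.card / Fintype.card F) ^ 2 := fun L => by ring
  simp_rw [h1]
  rw [sum_add_distrib, sum_sub_distrib, ← mul_sum, sum_card_inter, sum_card_inter_sq, sum_const,
    card_univ, card_line, nsmul_eq_mul]
  push_cast
  have : (Fintype.card F : ℝ) * Z.card + (Z.card : ℝ) ^ 2
      - 2 * (Z.card / Fintype.card F) * ((Fintype.card F + 1) * Z.card)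
      + (Fintype.card F + 1) * Fintype.card F * (Z.card / Fintype.card F) ^ 2
      = Fintype.card F * Z.card - (Z.card : ℝ) ^ 2 / Fintype.card F := by
    field_simp; ring
  rw [this]
  have : 0 ≤ (Z.card : ℝ) ^ 2 / Fintype.card F := by positivity
  linarith

/-- Lines deviating from the average number of points are few. -/
lemma card_dev_le (Z : Finset (F × F)) (S : Finset (Option F × F)) (t : ℝ) (ht : 0 ≤ t)
    (hS : ∀ L ∈ S, t ≤ |((pts L ∩ Z).card : ℝ) - Z.card / Fintype.card F|) :
    S.card * t ^ 2 ≤ Fintype.card F * Z.card := by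
  refine le_trans ?_ (mixing Z)
  calc S.card * t ^ 2 = ∑ L ∈ S, t ^ 2 := by simp
    _ ≤ ∑ L ∈ S, (((pts L ∩ Z).card : ℝ) - Z.card / Fintype.card F) ^ 2 := by
        refine sum_le_sum fun L hL => ?_
        rw [← sq_abs (_ - _)]
        exact pow_le_pow_left₀ ht (hS L hL) 2
    _ ≤ _ := sum_le_sum_of_subset_of_nonneg (subset_univ _) fun _ _ _ => sq_nonneg _

/-- A centre is an affine point or a direction; `Via Q L` says that `L` passes through it. -/
def Via : (F × F) ⊕ Option F → Option F × F → Prop
  | Sum.inl P, L => On P L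
  | Sum.inr d, L => L.1 = d

instance (Q : (F × F) ⊕ Option F) (L : Option F × F) : Decidable (Via Q L) := by
  cases Q <;> unfold Via <;> infer_instance

omit [Fintype F] [DecidableEq F] in
lemma Via.line_eq {Q : (F × F) ⊕ Option F} {L L' : Option F × F} {P : F × F} (h1 : Via Q L)
    (h2 : Via Q L') (h3 : On P L) (h4 : On P L') (hQ : Q ≠ Sum.inl P) : L = L' := by
  cases Q with
  | inl P' => exact On.line_eq h1 h3 h2 h4 (fun h => hQ (by rw [h]))
  | inr d => exact On.eq_of_dir h3 h4 (h1.trans h2.symm)

/-- The points missed by a set of lines. -/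
def unc (C : Finset (Option F × F)) : Finset (F × F) := univ.filter fun P => ∀ L ∈ C, ¬ On P L

@[simp] lemma mem_unc {C : Finset (Option F × F)} {P : F × F} :
    P ∈ unc C ↔ ∀ L ∈ C, ¬ On P L := by simp [unc]

end Vale.Agent.P045
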