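import Vale.Agent.P045.Geo
import Vale.Agent.P045.Conc

/-! The random model of reserved lines: generic tools. -/

set_option linter.unusedSectionVars false

open Finset

namespace Vale.Agent.P045

section Generic
variable {ι α : Type*} [Fintype ι] [DecidableEq ι] [Fintype α] [DecidableEq α]

lemma pr_pattern [Nonempty α] (v : ι → α) (W T : Finset ι) (hT : T ⊆ W) :
    pr (fun ω : ι → α => ∀ s ∈ W, (v s = ω s ↔ s ∈ T))
      = (1 / Fintype.card α) ^ T.card * (1 - 1 / Fintype.card α) ^ (W.card - T.card) := by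
  have hα : (0:ℝ) < Fintype.card α := by exact_mod_cast Fintype.card_pos
  let S : ι → Finset α := fun s => if s ∈ T then {v s} else if s ∈ W then univ.erase (v s) else univ
  rw [pr_congr (B := fun ω => ∀ s, ω s ∈ S s), pr_pi]
  · rw [← prod_mul_prod_compl W, ← prod_sdiff hT, ← card_sdiff_of_subset hT]
    have h1 : ∏ s ∈ T, ((S s).card : ℝ) / Fintype.card α = (1 / Fintype.card α) ^ T.card := by
      rw [← prod_const]
      exact prod_congr rfl fun s hs => by simp [S, hs]
    have h2 : ∏ s ∈ W \ T, ((S s).card : ℝ) / Fintype.card α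
        = (1 - 1 / Fintype.card α) ^ (W \ T).card := by
      rw [← prod_const]
      refine prod_congr rfl fun s hs => ?_
      rw [mem_sdiff] at hs
      simp only [S, hs.1, hs.2, if_true, if_false, card_erase_of_mem (mem_univ _), card_univ]
      rw [Nat.cast_sub Fintype.card_pos]
      field_simp
      simp
    have h3 : ∏ s ∈ Wᶜ, ((S s).card : ℝ) / Fintype.card α = 1 := by
      refine prod_eq_one fun s hs => ?_
      rw [mem_compl] at hs
      have : s ∉ T := fun h => hs (hT h)
      simp only [S, hs, this, if_false, card_univ]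
      field_simp
    rw [h1, h2, h3]; ring
  · intro ω
    constructor
    · intro h s
      simp only [S]
      by_cases h1 : s ∈ T
      · simp [h1, ((h s (hT h1)).2 h1).symm]
      · by_cases h2 : s ∈ W
        · simp only [h1, h2, if_true, if_false, mem_erase, mem_univ, and_true]
          exact fun h3 => h1 ((h s h2).1 h3.symm)
        · simp [h1, h2]
    · intro h s hs
      have := h s
      simp only [S] at this
      by_cases h1 : s ∈ T
      · simp only [h1, if_true, mem_singleton] at this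
        simp [h1, this]
      · simp only [h1, hs, if_true, if_false, mem_erase, mem_univ, and_true] at this
        simp only [h1, iff_false]
        exact fun h3 => this h3.symm

open Classical in
/-- Number of parameters in `s` satisfying a property of the sample point. -/
noncomputable def cnt {β Ω : Type*} (s : Finset β) (A : β → Ω → Prop) (ω : Ω) : ℝ :=
  ((s.filter fun b => A b ω).card : ℝ)

lemma cnt_eq {β Ω : Type*} (s : Finset β) (A : β → Ω → Prop) (ω : Ω)
    [DecidablePred fun b => A b ω] : cnt s A ω = ((s.filter fun b => A b ω).card : ℝ) := by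
  unfold cnt; congr

lemma avg_cnt {β Ω : Type*} [Fintype Ω] (s : Finset β) (A : β → Ω → Prop) :
    avg (cnt s A) = ∑ b ∈ s, pr (A b) := by
  classical
  exact avg_card s A

lemma lip_cnt {β Ω : Type*} (s : Finset β) (A : β → Ω → Prop) (ω ω' : Ω) (B : Finset β)
    (h : ∀ b ∈ s, b ∉ B → (A b ω ↔ A b ω')) : |cnt s A ω - cnt s A ω'| ≤ B.card := by
  classical
  have key : ∀ ω ω', (∀ b ∈ s, b ∉ B → (A b ω → A b ω')) → cnt s A ω ≤ cnt s A ω' + B.card := by
    intro ω ω' h
    rw [cnt_eq, cnt_eq]
    have : (s.filter fun b => A b ω) ⊆ (s.filter fun b => A b ω') ∪ B := by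
      intro b hb
      rw [mem_filter] at hb
      by_cases hB : b ∈ B
      · exact mem_union_right _ hB
      · exact mem_union_left _ (mem_filter.2 ⟨hb.1, h b hb.1 hB hb.2⟩)
    exact_mod_cast (card_le_card this).trans (card_union_le _ _)
  have h1 := key ω ω' fun b hb hB => (h b hb hB).1
  have h2 := key ω' ω fun b hb hB => (h b hb hB).2
  rw [abs_le]; constructor <;> linarith

lemma lip_pattern {Ξ I : Type*} [Fintype Ξ] [DecidableEq Ξ] [Fintype I] (v : I → Ξ → ι → α)
    (act : I → ι → Prop) (hinj : ∀ i s, act i s → Function.Injective fun ξ => v i ξ s)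
    (Φ : (I → ι → Prop) → Prop) (ω : ι → α) (s : ι) (a : α) :
    |cnt univ (fun ξ ω => Φ fun i s => act i s ∧ v i ξ s = ω s) (Function.update ω s a)
      - cnt univ (fun ξ ω => Φ fun i s => act i s ∧ v i ξ s = ω s) ω|
      ≤ 2 * Fintype.card I := by
  classical
  let B : Finset Ξ := univ.biUnion fun i : I =>
    (univ.filter fun ξ => act i s ∧ v i ξ s = ω s) ∪ (univ.filter fun ξ => act i s ∧ v i ξ s = a)
  have hB : B.card ≤ 2 * Fintype.card I := by
    have h1 : ∀ i x, (univ.filter fun ξ => act i s ∧ v i ξ s = x).card ≤ 1 := by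
      intro i x
      rw [card_le_one]
      intro ξ hξ ξ' hξ'
      simp only [mem_filter, mem_univ, true_and] at hξ hξ'
      exact hinj i s hξ.1 (hξ.2.trans hξ'.2.symm)
    refine card_biUnion_le.trans ?_
    calc _ ≤ ∑ _i : I, 2 := sum_le_sum fun i _ => (card_union_le _ _).trans (by
            have := h1 i (ω s); have := h1 i a; omega)
      _ = _ := by simp [mul_comm]
  refine (lip_cnt univ _ _ _ B ?_).trans (by exact_mod_cast hB)
  intro ξ _ hξ
  simp only [B, mem_biUnion, mem_univ, true_and, mem_union, mem_filter, not_exists, not_or] at hξ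
  have : (fun i s' => act i s' ∧ v i ξ s' = Function.update ω s a s')
      = fun i s' => act i s' ∧ v i ξ s' = ω s' := by
    funext i s'
    by_cases hs : s' = s
    · subst hs
      rw [Function.update_self]
      exact propext ⟨fun h => absurd h (hξ i).2, fun h => absurd h (hξ i).1⟩
    · rw [Function.update_of_ne hs]
  simp only [this]

end Generic

lemma exp_le_one_sub {x : ℝ} (h0 : 0 ≤ x) (h1 : x ≤ 1 / 2) : Real.exp (-(2 * x)) ≤ 1 - x := by
  have h2 := Real.add_one_le_exp (2 * x)
  rw [Real.exp_neg, inv_le_iff_one_le_mul₀ (Real.exp_pos _)]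
  nlinarith

lemma exp_le_pow {x : ℝ} (h0 : 0 ≤ x) (h1 : x ≤ 1 / 2) (n : ℕ) :
    Real.exp (-(2 * x * n)) ≤ (1 - x) ^ n := by
  calc Real.exp (-(2 * x * n)) = Real.exp (-(2 * x)) ^ n := by
        rw [← Real.exp_nat_mul]; congr 1; ring
    _ ≤ _ := pow_le_pow_left₀ (Real.exp_pos _).le (exp_le_one_sub h0 h1) n

/-- Slots for reserved lines. -/
abbrev Sl (F : Type) (R : ℕ) := Option F × Option (Fin R)

variable {F : Type} [Field F] [Fintype F] [DecidableEq F] {R : ℕ}

lemma card_Sl : Fintype.card (Sl F R) = (Fintype.card F + 1) * (R + 1) := by simp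

lemma card_dir (D : Finset (Option F)) :
    (univ.filter fun s : Sl F R => s.1 ∈ D).card = D.card * (R + 1) := by
  have : (univ.filter fun s : Sl F R => s.1 ∈ D) = D ×ˢ univ := by ext s; simp
  rw [this, card_product]; simp

lemma card_ne_dir (d : Option F) :
    (univ.filter fun s : Sl F R => s.1 ≠ d).card = Fintype.card F * (R + 1) := by
  have := card_dir (R := R) (univ.erase d)
  simpa using this

lemma card_ne_dir2 {d d' : Option F} (h : d ≠ d') :
    (univ.filter fun s : Sl F R => s.1 ≠ d ∧ s.1 ≠ d').card = (Fintype.card F - 1) * (R + 1) := by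
  have := card_dir (R := R) ((univ.erase d').erase d)
  rw [card_erase_of_mem (by simp [h])] at this
  simpa using this

/-- The density of clean points. -/
noncomputable def del (q R : ℕ) : ℝ := (1 - 1 / (q:ℝ)) ^ (q * (R + 1))

lemma del_ge {q : ℕ} (hq : 2 ≤ q) (R : ℕ) : Real.exp (-(2 * (R + 1))) ≤ del q R := by
  have hq' : (2:ℝ) ≤ q := by exact_mod_cast hq
  have := exp_le_pow (x := 1 / (q:ℝ)) (by positivity)
    (by rw [div_le_div_iff₀ (by linarith) (by norm_num)]; linarith) (q * (R + 1))
  refine le_trans (le_of_eq ?_) this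
  congr 2
  push_cast; field_simp

lemma del_le_one {q : ℕ} (hq : 2 ≤ q) (R : ℕ) : del q R ≤ 1 := by
  have hq' : (2:ℝ) ≤ q := by exact_mod_cast hq
  apply pow_le_one₀
  · rw [sub_nonneg, div_le_one (by linarith)]; linarith
  · have : 0 ≤ 1 / (q:ℝ) := by positivity
    linarith

lemma N_le : (Fintype.card (Sl F R) : ℝ) ≤ 2 * (R + 1) * Fintype.card F := by
  rw [card_Sl]
  have : (1:ℝ) ≤ Fintype.card F := by exact_mod_cast Fintype.card_pos
  push_cast
  nlinarith [show (0:ℝ) ≤ R from Nat.cast_nonneg R]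

/-- Convert the exponent of the bounded differences inequality. -/
lemma exp_bound (c γ : ℝ) (hc : 0 < c) :
    Real.exp (-((γ * Fintype.card F) ^ 2 / (2 * Fintype.card (Sl F R) * c ^ 2)))
      ≤ Real.exp (-(γ ^ 2 / (4 * (R + 1) * c ^ 2) * Fintype.card F)) := by
  have hq : (0:ℝ) < Fintype.card F := by exact_mod_cast Fintype.card_pos
  have hN : (0:ℝ) < Fintype.card (Sl F R) := by exact_mod_cast Fintype.card_pos
  apply Real.exp_le_exp.2
  rw [neg_le_neg_iff]
  calc γ ^ 2 / (4 * (R + 1) * c ^ 2) * Fintype.card F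
      = (γ * Fintype.card F) ^ 2 / (2 * (2 * (R + 1) * Fintype.card F) * c ^ 2) := by
        field_simp; ring
    _ ≤ _ := by
        gcongr
        exact N_le

section Pat
variable {I : Type*} [Fintype I] [Nonempty I] (φ : I → F → F × F) (act : I → Sl F R → Prop)
  (hinj : ∀ i s, act i s → Function.Injective fun ξ => lam s.1 (φ i ξ))
  (Φ : (I → Sl F R → Prop) → Prop)
include hinj

lemma pat_upper (γ M : ℝ) (hγ : 0 ≤ γ)
    (hM : ∀ ξ, pr (fun ω : Sl F R → F => Φ fun i s => act i s ∧ lam s.1 (φ i ξ) = ω s) ≤ M) :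
    pr (fun ω : Sl F R → F => (M + γ) * Fintype.card F ≤
      cnt univ (fun ξ ω => Φ fun i s => act i s ∧ lam s.1 (φ i ξ) = ω s) ω)
      ≤ Real.exp (-(γ ^ 2 / (4 * (R + 1) * (2 * Fintype.card I) ^ 2) * Fintype.card F)) := by
  have hI : (0:ℝ) < 2 * Fintype.card I := by
    have : (0:ℝ) < Fintype.card I := by exact_mod_cast Fintype.card_pos
    linarith
  have h := mcd_upper (2 * Fintype.card I) (γ * Fintype.card F) hI (by positivity) _
    (lip_pattern (fun i ξ (s : Sl F R) => lam s.1 (φ i ξ)) act hinj Φ)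
  refine le_trans (pr_mono ?_) (h.trans (exp_bound _ _ hI))
  intro ω hω
  refine le_trans ?_ hω
  rw [avg_cnt, add_mul]
  have : ∑ ξ, pr (fun ω : Sl F R → F => Φ fun i s => act i s ∧ lam s.1 (φ i ξ) = ω s)
      ≤ ∑ _ξ : F, M := sum_le_sum fun ξ _ => hM ξ
  rw [sum_const, card_univ, nsmul_eq_mul] at this
  linarith

lemma pat_lower (γ M : ℝ) (hγ : 0 ≤ γ)
    (hM : ∀ ξ, M ≤ pr (fun ω : Sl F R → F => Φ fun i s => act i s ∧ lam s.1 (φ i ξ) = ω s)) :
    pr (fun ω : Sl F R → F =>
      cnt univ (fun ξ ω => Φ fun i s => act i s ∧ lam s.1 (φ i ξ) = ω s) ω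
        ≤ (M - γ) * Fintype.card F)
      ≤ Real.exp (-(γ ^ 2 / (4 * (R + 1) * (2 * Fintype.card I) ^ 2) * Fintype.card F)) := by
  have hI : (0:ℝ) < 2 * Fintype.card I := by
    have : (0:ℝ) < Fintype.card I := by exact_mod_cast Fintype.card_pos
    linarith
  have h := mcd_lower (2 * Fintype.card I) (γ * Fintype.card F) hI (by positivity) _
    (lip_pattern (fun i ξ (s : Sl F R) => lam s.1 (φ i ξ)) act hinj Φ)
  refine le_trans (pr_mono ?_) (h.trans (exp_bound _ _ hI))
  intro ω hω
  refine le_trans hω ?_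
  rw [avg_cnt, sub_mul]
  have : ∑ _ξ : F, M ≤
      ∑ ξ, pr (fun ω : Sl F R → F => Φ fun i s => act i s ∧ lam s.1 (φ i ξ) = ω s) :=
    sum_le_sum fun ξ _ => hM ξ
  rw [sum_const, card_univ, nsmul_eq_mul] at this
  linarith

end Pat

end Vale.Agent.P045
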