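import Vale.Agent.P045.Stage0

/-! Stability, part A: the structure of a bad cover. -/

set_option linter.unusedSectionVars false

open Finset

namespace Vale.Agent.P045

variable {F : Type} [Field F] [Fintype F] [DecidableEq F] {R : ℕ}

/-- Points hit by no slot outside `J`. -/
def XJ (ω : Sl F R → F) (J : Finset (Sl F R)) : Finset (F × F) :=
  univ.filter fun P => ∀ s, s ∉ J → lam s.1 P ≠ ω s

@[simp] lemma mem_XJ {ω : Sl F R → F} {J : Finset (Sl F R)} {P : F × F} :
    P ∈ XJ ω J ↔ ∀ s, s ∉ J → lam s.1 P ≠ ω s := by simp [XJ]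

/-- Points covered by a set of lines. -/
def cov (C : Finset (Option F × F)) : Finset (F × F) := univ.filter fun P => ∃ L ∈ C, On P L

@[simp] lemma mem_cov {C : Finset (Option F × F)} {P : F × F} :
    P ∈ cov C ↔ ∃ L ∈ C, On P L := by simp [cov]

lemma sum_hits (ω : Sl F R → F) :
    ∑ P : F × F, (univ.filter fun s : Sl F R => lam s.1 P = ω s).card
      = Fintype.card (Sl F R) * Fintype.card F := by
  simp_rw [card_filter]
  rw [sum_comm]
  have : ∀ s : Sl F R, ∑ P : F × F, (if lam s.1 P = ω s then 1 else 0) = Fintype.card F := by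
    intro s
    rw [← card_pts (s.1, ω s), pts, card_filter]
    rfl
  simp_rw [this]
  simp

lemma exists_colouring (ω : Sl F R → F) (C C' : Finset (Option F × F)) (k m0 : ℕ) (c η w σ : ℝ)
    (hC : C.card ≤ Fintype.card F) (hCs : ∀ L ∈ C, ∀ s : Sl F R, L ≠ (s.1, ω s))
    (hU : c * (Fintype.card F : ℝ) ^ 2 ≤ (unc C).card)
    (hk : 16 * (R + 1) ≤ k) (hm0 : 4 * ((R:ℝ) + 1) ≤ c * m0) (hη : 4 * η ≤ c * (1 / k) ^ m0)
    (hw : (C'.card : ℝ) / k ≤ w * Fintype.card F)
    (hσ0 : 0 ≤ σ) (hσ1 : σ ≤ 1 / 8) (hσ2 : σ ≤ η) (hσ3 : σ ≤ w)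
    (hq : (Fintype.card F + 2) * Real.exp (-(σ ^ 2 / (4 * (R + 1)) * Fintype.card F)) < 1) :
    ∃ J : Finset (Sl F R), (J.card : ℝ) ≤ Fintype.card F / 4 ∧
      η * (Fintype.card F : ℝ) ^ 2 ≤ (unc C ∩ XJ ω J).card ∧
      ∀ L ∈ C \ C', (((pts L ∩ cov C') ∩ (XJ ω J \ XJ ω ∅)).card : ℝ) ≤ 2 * w * Fintype.card F := by
  classical
  have hk0 : 0 < k := by omega
  have : NeZero k := ⟨hk0.ne'⟩
  have hk' : (16:ℝ) * (R + 1) ≤ k := by exact_mod_cast hk
  have hR : (0:ℝ) ≤ R := Nat.cast_nonneg R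
  have hkp : (0:ℝ) < k := by exact_mod_cast hk0
  set q : ℝ := (Fintype.card F : ℝ) with hqdef
  have hq0 : 0 < q := by rw [hqdef]; exact_mod_cast Fintype.card_pos
  set E := Real.exp (-(σ ^ 2 / (4 * (R + 1)) * q)) with hE
  have hEb : Real.exp (-((σ * q) ^ 2 / (2 * Fintype.card (Sl F R) * 1 ^ 2))) ≤ E := by
    have := exp_bound (F := F) (R := R) 1 σ one_pos
    rw [one_pow, mul_one (4 * ((R:ℝ) + 1))] at this
    rw [one_pow]
    exact this
  have hall : ∀ T : Finset (Sl F R),
      pr (fun f : Sl F R → Fin k => ∀ s ∈ T, f s = 0) = (1 / (k:ℝ)) ^ T.card := by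
    intro T
    have := pr_pattern (fun _ : Sl F R => (0 : Fin k)) T T subset_rfl
    rw [Nat.sub_self, pow_zero, mul_one, Fintype.card_fin] at this
    rw [← this]
    exact pr_congr fun f => ⟨fun h s hs => ⟨fun _ => hs, fun _ => (h s hs).symm⟩,
      fun h s hs => ((h s hs).2 hs).symm⟩
  -- (a)
  let fa := cnt (univ : Finset (Sl F R)) fun s (f : Sl F R → Fin k) => f s = 0
  have ha : pr (fun f => avg fa + σ * q ≤ fa f) ≤ E := by
    refine (mcd_upper 1 (σ * q) one_pos (by positivity) fa ?_).trans hEb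
    intro f s a
    refine (lip_cnt univ _ _ _ {s} ?_).trans (by simp)
    intro b _ hb
    rw [Function.update_of_ne (by simpa using hb)]
  have ha2 : avg fa ≤ q / 8 := by
    rw [avg_cnt]
    have : ∀ s : Sl F R, pr (fun f : Sl F R → Fin k => f s = 0) = 1 / (k:ℝ) := by
      intro s
      have := hall {s}
      simpa using this
    simp_rw [this]
    rw [sum_const, card_univ, nsmul_eq_mul, mul_one_div, div_le_iff₀ hkp]
    have := N_le (F := F) (R := R)
    nlinarith
  -- (b)
  let fb := cnt (unc C) fun P (f : Sl F R → Fin k) => ∀ s, f s ≠ 0 → lam s.1 P ≠ ω s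
  have hb : pr (fun f => fb f ≤ avg fb - σ * q ^ 2) ≤ E := by
    refine (mcd_lower q (σ * q ^ 2) hq0 (by positivity) fb ?_).trans (le_trans (le_of_eq ?_) hEb)
    · intro f s a
      refine (lip_cnt _ _ _ _ (pts (s.1, ω s)) ?_).trans (by rw [card_pts])
      intro P _ hP
      refine forall_congr' fun s' => ?_
      by_cases hs : s' = s
      · subst hs
        have : lam s'.1 P ≠ ω s' := fun h => hP (mem_pts.2 h)
        simp [this]
      · rw [Function.update_of_ne hs]
    · congr 2; field_simp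
  have hb2 : 2 * η * q ^ 2 ≤ avg fb := by
    rw [avg_cnt]
    let H : F × F → Finset (Sl F R) := fun P => univ.filter fun s => lam s.1 P = ω s
    have h1 : ∀ P, pr (fun f : Sl F R → Fin k => ∀ s, f s ≠ 0 → lam s.1 P ≠ ω s)
        = (1 / (k:ℝ)) ^ (H P).card := by
      intro P
      rw [← hall]
      refine pr_congr fun f => forall_congr' fun s => ?_
      simp only [H, mem_filter, mem_univ, true_and]
      exact not_imp_not
    simp_rw [h1]
    have h2 : ((unc C).filter fun P => ¬ (H P).card ≤ m0).card * m0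
        ≤ Fintype.card (Sl F R) * Fintype.card F := by
      rw [← sum_hits ω]
      calc _ = ∑ _P ∈ (unc C).filter fun P => ¬ (H P).card ≤ m0, m0 := by simp
        _ ≤ ∑ P ∈ (unc C).filter fun P => ¬ (H P).card ≤ m0, (H P).card :=
            sum_le_sum fun P hP => (not_le.1 (mem_filter.1 hP).2).le
        _ ≤ _ := sum_le_sum_of_subset (subset_univ _)
    have h3 : (((unc C).filter fun P => ¬ (H P).card ≤ m0).card : ℝ) * m0
        ≤ 2 * (R + 1) * q * q := by
      have : (((unc C).filter fun P => ¬ (H P).card ≤ m0).card : ℝ) * m0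
        ≤ Fintype.card (Sl F R) * q := by rw [hqdef]; exact_mod_cast h2
      exact this.trans (by gcongr; exact N_le)
    have hm0' : (0:ℝ) < m0 := by
      by_contra hn
      have : (m0:ℝ) = 0 := le_antisymm (not_lt.1 hn) (Nat.cast_nonneg _)
      rw [this] at hm0; linarith
    have h4 : (((unc C).filter fun P => ¬ (H P).card ≤ m0).card : ℝ) ≤ c * q ^ 2 / 2 := by
      apply le_of_mul_le_mul_right _ hm0'
      refine h3.trans ?_
      nlinarith [sq_nonneg q]
    have h5 : (((unc C).filter fun P => (H P).card ≤ m0).card : ℝ)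
        + ((unc C).filter fun P => ¬ (H P).card ≤ m0).card = (unc C).card := by
      exact_mod_cast card_filter_add_card_filter_not _
    have hk1 : 1 / (k:ℝ) ≤ 1 := by rw [div_le_one hkp]; linarith
    calc 2 * η * q ^ 2 ≤ (c * q ^ 2 / 2) * (1 / (k:ℝ)) ^ m0 := by nlinarith [sq_nonneg q]
      _ ≤ ((unc C).filter fun P => (H P).card ≤ m0).card * (1 / (k:ℝ)) ^ m0 := by
          gcongr; linarith
      _ = ∑ _P ∈ (unc C).filter fun P => (H P).card ≤ m0, (1 / (k:ℝ)) ^ m0 := by simp
      _ ≤ ∑ P ∈ (unc C).filter fun P => (H P).card ≤ m0, (1 / (k:ℝ)) ^ (H P).card :=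
          sum_le_sum fun P hP => pow_le_pow_of_le_one (by positivity) hk1 (mem_filter.1 hP).2
      _ ≤ _ := sum_le_sum_of_subset_of_nonneg (filter_subset _ _) fun _ _ _ => by positivity
  -- (c)
  let fc := fun L => cnt (pts L ∩ cov C') fun P (f : Sl F R → Fin k) =>
    (∀ s, f s ≠ 0 → lam s.1 P ≠ ω s) ∧ ∃ s : Sl F R, lam s.1 P = ω s
  have hc : ∀ L ∈ C \ C', pr (fun f => avg (fc L) + σ * q ≤ fc L f) ≤ E := by
    intro L hL
    refine (mcd_upper 1 (σ * q) one_pos (by positivity) (fc L) ?_).trans hEb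
    intro f s a
    refine (lip_cnt _ _ _ _ (pts L ∩ pts (s.1, ω s)) ?_).trans (by
      exact_mod_cast card_inter_pts_le_one (hCs L (mem_sdiff.1 hL).1 s))
    intro P hP1 hP
    refine and_congr_left fun _ => forall_congr' fun s' => ?_
    by_cases hs : s' = s
    · subst hs
      have : lam s'.1 P ≠ ω s' := fun h => hP (mem_inter.2 ⟨(mem_inter.1 hP1).1, mem_pts.2 h⟩)
      simp [this]
    · rw [Function.update_of_ne hs]
  have hc2 : ∀ L ∈ C \ C', avg (fc L) ≤ w * q := by
    intro L hL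
    rw [avg_cnt]
    have h1 : ∀ P, pr (fun f : Sl F R → Fin k =>
        (∀ s, f s ≠ 0 → lam s.1 P ≠ ω s) ∧ ∃ s : Sl F R, lam s.1 P = ω s) ≤ 1 / (k:ℝ) := by
      intro P
      by_cases hP : ∃ s : Sl F R, lam s.1 P = ω s
      · obtain ⟨s, hs⟩ := hP
        have := hall {s}
        rw [card_singleton, pow_one] at this
        rw [← this]
        refine pr_mono fun f hf s' hs' => ?_
        rw [mem_singleton.1 hs']
        by_contra hn
        exact hf.1 s hn hs
      · refine le_trans (pr_mono (B := fun _ => False) fun f h => hP h.2) ?_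
        rw [pr_false]; positivity
    refine (sum_le_sum fun P _ => h1 P).trans ?_
    rw [sum_const, nsmul_eq_mul, mul_one_div]
    refine le_trans ?_ hw
    gcongr
    have hsub : pts L ∩ cov C' ⊆ C'.biUnion fun L' => pts L ∩ pts L' := by
      intro P hP
      obtain ⟨h1, h2⟩ := mem_inter.1 hP
      obtain ⟨L', h3, h4⟩ := mem_cov.1 h2
      exact mem_biUnion.2 ⟨L', h3, mem_inter.2 ⟨h1, mem_pts.2 h4⟩⟩
    refine (card_le_card hsub).trans (card_biUnion_le.trans ?_)
    calc _ ≤ ∑ _L' ∈ C', 1 := sum_le_sum fun L' hL' => card_inter_pts_le_one (by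
            rintro rfl; exact (mem_sdiff.1 hL).2 hL')
      _ = _ := by simp
  have hc3 := (pr_exists (C \ C') fun L f => avg (fc L) + σ * q ≤ fc L f).trans (sum_le_sum hc)
  rw [sum_const, nsmul_eq_mul] at hc3
  have hc4 : ((C \ C').card : ℝ) ≤ q := by
    rw [hqdef]; exact_mod_cast (card_le_card sdiff_subset).trans hC
  have hE0 : 0 ≤ E := (Real.exp_pos _).le
  obtain ⟨f, hf⟩ := exists_not_of_pr_lt_one (A := fun f => avg fa + σ * q ≤ fa f ∨
      (fb f ≤ avg fb - σ * q ^ 2 ∨ ∃ L ∈ C \ C', avg (fc L) + σ * q ≤ fc L f)) (by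
    refine (pr_or _ _).trans_lt ?_
    have := pr_or (fun f => fb f ≤ avg fb - σ * q ^ 2)
      (fun f => ∃ L ∈ C \ C', avg (fc L) + σ * q ≤ fc L f)
    have h2 : ((C \ C').card : ℝ) * E ≤ q * E := by gcongr
    linarith)
  push Not at hf
  obtain ⟨hf1, hf2, hf3⟩ := hf
  refine ⟨univ.filter fun s => f s = 0, ?_, ?_, fun L hL => ?_⟩
  · have : fa f = (univ.filter fun s => f s = 0).card := cnt_eq _ _ _
    rw [← this]
    nlinarith only [hf1, ha2, hσ1, hq0]
  · have : fb f = (unc C ∩ XJ ω (univ.filter fun s => f s = 0)).card := by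
      simp only [fb]
      rw [cnt_eq]
      congr 2
      ext P; simp
    rw [← this]
    nlinarith only [hf2, hb2, hσ2, sq_nonneg q]
  · have : fc L f = ((pts L ∩ cov C') ∩ (XJ ω (univ.filter fun s => f s = 0) \ XJ ω ∅)).card := by
      simp only [fc]
      rw [cnt_eq]
      congr 2
      ext P; simp [and_assoc]
    rw [← this]
    have h1 := hf3 L hL
    have h2 := hc2 L hL
    have h3 : σ * q ≤ w * q := by gcongr
    linarith only [h1, h2, h3]

end Vale.Agent.P045
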