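import Vale.Agent.P045.StabA

/-! Stability, part B: containers. -/

set_option linter.unusedSectionVars false

open Finset

namespace Vale.Agent.P045

variable {F : Type} [Field F] [Fintype F] [DecidableEq F] {R : ℕ}

/-- All lines have the typical number of clean points. -/
def Good0 (γ : ℝ) (ω : Sl F R → F) : Prop :=
  ∀ L, (del (Fintype.card F) R - γ) * Fintype.card F < cl L ω ∧
    cl L ω < (del (Fintype.card F) R + γ) * Fintype.card F

lemma cl_eq (L : Option F × F) (ω : Sl F R → F) [DecidablePred (CleanS ω L.1)] :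
    cl L ω = ((pts L).filter (CleanS ω L.1)).card := by
  rw [cl, cnt_eq, card_filter_pts]

lemma Good0.line_le {γ : ℝ} {ω : Sl F R → F} (h : Good0 γ ω) (L : Option F × F) :
    ((pts L ∩ XJ ω ∅).card : ℝ) ≤ (del (Fintype.card F) R + γ) * Fintype.card F := by
  classical
  refine le_trans ?_ (h L).2.le
  rw [cl_eq]
  gcongr
  intro P hP
  rw [mem_inter, mem_XJ] at hP
  exact mem_filter.2 ⟨hP.1, fun s _ => hP.2 s (notMem_empty _)⟩

lemma Good0.card_X {γ : ℝ} {ω : Sl F R → F} (h : Good0 γ ω) (hq : 2 ≤ Fintype.card F)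
    (hγ : γ ≤ del (Fintype.card F) R) (hρ : (R:ℝ) + 1 ≤ γ * Fintype.card F) :
    (del (Fintype.card F) R - 2 * γ) * (Fintype.card F : ℝ) ^ 2 ≤ (XJ ω ∅).card := by
  classical
  have hq0 : (0:ℝ) < Fintype.card F := by exact_mod_cast Fintype.card_pos
  set B : Finset F := univ \ univ.image fun o : Option (Fin R) => ω (none, o) with hB
  have hBc : (Fintype.card F : ℝ) - (R + 1) ≤ B.card := by
    have h1 := card_sdiff_add_card_eq_card
      (subset_univ (univ.image fun o : Option (Fin R) => ω (none, o)))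
    have h2 := card_image_le (s := univ) (f := fun o : Option (Fin R) => ω (none, o))
    simp only [card_univ, Fintype.card_option, Fintype.card_fin] at h1 h2
    have : Fintype.card F ≤ B.card + (R + 1) := by rw [hB]; omega
    have : (Fintype.card F : ℝ) ≤ B.card + (R + 1) := by exact_mod_cast this
    linarith
  have h1 : (XJ ω ∅).card = ∑ b : F, ((XJ ω ∅).filter fun P => P.1 = b).card :=
    card_eq_sum_card_fiberwise (f := Prod.fst) fun _ _ => mem_univ _
  have h2 : ∀ b ∈ B, (del (Fintype.card F) R - γ) * Fintype.card F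
      ≤ (((XJ ω ∅).filter fun P => P.1 = b).card : ℝ) := by
    intro b hb
    refine (h (none, b)).1.le.trans ?_
    rw [cl_eq]
    gcongr
    intro P hP
    simp only [mem_filter, mem_pts] at hP
    refine mem_filter.2 ⟨mem_XJ.2 fun s _ => ?_, hP.1⟩
    by_cases hs : s.1 = none
    · obtain ⟨d, o⟩ := s
      simp only at hs
      subst hs
      intro hh
      simp only [hB, mem_sdiff, mem_univ, mem_image, true_and, not_exists] at hb
      exact hb o (hh.symm.trans hP.1)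
    · exact hP.2 s hs
  have h3 : B.card * ((del (Fintype.card F) R - γ) * Fintype.card F) ≤ (XJ ω ∅).card := by
    rw [h1]
    push_cast
    calc _ = ∑ _b ∈ B, (del (Fintype.card F) R - γ) * Fintype.card F := by simp
      _ ≤ ∑ b ∈ B, (((XJ ω ∅).filter fun P => P.1 = b).card : ℝ) := sum_le_sum h2
      _ ≤ _ := sum_le_sum_of_subset_of_nonneg (subset_univ _) fun _ _ _ => Nat.cast_nonneg _
  refine le_trans ?_ h3
  have hd := del_le_one hq R
  have hR : (0:ℝ) ≤ R := Nat.cast_nonneg R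
  have hγ0 : 0 ≤ γ := by
    by_contra hn
    have : γ * Fintype.card F < 0 := mul_neg_of_neg_of_pos (not_le.1 hn) hq0
    linarith
  calc _ ≤ (Fintype.card F - γ * Fintype.card F)
        * ((del (Fintype.card F) R - γ) * Fintype.card F) := by
        have : 0 ≤ γ * (1 - del (Fintype.card F) R + γ) * (Fintype.card F : ℝ) ^ 2 := by
          have : 0 ≤ 1 - del (Fintype.card F) R + γ := by linarith
          positivity
        nlinarith
    _ ≤ _ := by
        have : 0 ≤ (del (Fintype.card F) R - γ) * Fintype.card F :=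
          mul_nonneg (by linarith) hq0.le
        gcongr; linarith

/-- Lines with few points of `Z`. -/
noncomputable def Poor (Z : Finset (F × F)) : Finset (Option F × F) :=
  univ.filter fun L => ((pts L ∩ Z).card : ℝ) ≤ Z.card / (2 * Fintype.card F)

/-- Lines with many points of `Y`. -/
noncomputable def Rich (Y : Finset (F × F)) : Finset (Option F × F) :=
  univ.filter fun L => 2 * Y.card / Fintype.card F ≤ ((pts L ∩ Y).card : ℝ)

lemma card_poor (Z : Finset (F × F)) (a : ℝ) (ha : 0 < a)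
    (hZ : a * (Fintype.card F : ℝ) ^ 2 ≤ Z.card) :
    ((Poor Z).card : ℝ) ≤ 4 / a * Fintype.card F := by
  have hq0 : (0:ℝ) < Fintype.card F := by exact_mod_cast Fintype.card_pos
  have hZ0 : (0:ℝ) < Z.card := lt_of_lt_of_le (by positivity) hZ
  have h := card_dev_le Z (Poor Z) (Z.card / (2 * Fintype.card F)) (by positivity) (by
    intro L hL
    have := (mem_filter.1 hL).2
    rw [abs_sub_comm]
    refine le_trans ?_ (le_abs_self _)
    have e : (Z.card : ℝ) / Fintype.card F = 2 * (Z.card / (2 * Fintype.card F)) := by field_simp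
    linarith)
  have h2 : ((Poor Z).card : ℝ) * Z.card ≤ 4 * (Fintype.card F : ℝ) ^ 3 := by
    rw [div_pow, ← mul_div_assoc, div_le_iff₀ (by positivity)] at h
    apply le_of_mul_le_mul_right _ hZ0
    nlinarith
  rw [div_mul_eq_mul_div, le_div_iff₀ ha]
  apply le_of_mul_le_mul_right _ (pow_pos hq0 2)
  calc ((Poor Z).card : ℝ) * a * (Fintype.card F : ℝ) ^ 2
      = ((Poor Z).card : ℝ) * (a * (Fintype.card F : ℝ) ^ 2) := by ring
    _ ≤ ((Poor Z).card : ℝ) * Z.card := by gcongr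
    _ ≤ _ := by linarith

lemma card_rich (Y : Finset (F × F)) (a : ℝ) (ha : 0 < a)
    (hY : a * (Fintype.card F : ℝ) ^ 2 ≤ Y.card) :
    ((Rich Y).card : ℝ) ≤ 1 / a * Fintype.card F := by
  have hq0 : (0:ℝ) < Fintype.card F := by exact_mod_cast Fintype.card_pos
  have hZ0 : (0:ℝ) < Y.card := lt_of_lt_of_le (by positivity) hY
  have h := card_dev_le Y (Rich Y) (Y.card / Fintype.card F) (by positivity) (by
    intro L hL
    have := (mem_filter.1 hL).2
    refine le_trans ?_ (le_abs_self _)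
    have e : 2 * (Y.card : ℝ) / Fintype.card F = 2 * (Y.card / Fintype.card F) := by ring
    linarith)
  have h2 : ((Rich Y).card : ℝ) * Y.card ≤ (Fintype.card F : ℝ) ^ 3 := by
    rw [div_pow, ← mul_div_assoc, div_le_iff₀ (by positivity)] at h
    apply le_of_mul_le_mul_right _ hZ0
    nlinarith
  rw [div_mul_eq_mul_div, le_div_iff₀ ha]
  apply le_of_mul_le_mul_right _ (pow_pos hq0 2)
  calc ((Rich Y).card : ℝ) * a * (Fintype.card F : ℝ) ^ 2
      = ((Rich Y).card : ℝ) * (a * (Fintype.card F : ℝ) ^ 2) := by ring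
    _ ≤ ((Rich Y).card : ℝ) * Y.card := by gcongr
    _ ≤ _ := by linarith

/-- The structure extracted from a bad cover. -/
def Str (K η : ℝ) (I J : Finset (Sl F R)) (C' B : Finset (Option F × F)) (ω : Sl F R → F) : Prop :=
  I ⊆ J ∧ ((Poor (XJ ω J ∩ cov C')).card : ℝ) ≤ K ∧ ∃ C'' ⊆ Poor (XJ ω J ∩ cov C'),
    η * (Fintype.card F : ℝ) ^ 2 ≤ (unc (C' ∪ B ∪ C'') ∩ XJ ω J).card ∧
    ∀ s ∈ I, (s.1, ω s) ∈ Rich (unc (C' ∪ B ∪ C'') ∩ XJ ω J)

lemma exists_rich (ω : Sl F R → F) (C : Finset (Option F × F)) (J : Finset (Sl F R))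
    (hcov : ∀ P ∈ XJ ω ∅, ∃ L ∈ C, On P L) (hJ : (J.card : ℝ) ≤ Fintype.card F / 4)
    (η : ℝ) (hY : η * (Fintype.card F : ℝ) ^ 2 ≤ (unc C ∩ XJ ω J).card) :
    η / 2 * Fintype.card F
      ≤ (J.filter fun s => (s.1, ω s) ∈ Rich (unc C ∩ XJ ω J)).card := by
  classical
  have hq0 : (0:ℝ) < Fintype.card F := by exact_mod_cast Fintype.card_pos
  set Y := unc C ∩ XJ ω J with hYdef
  have hsub : Y ⊆ J.biUnion fun s => pts (s.1, ω s) ∩ Y := by
    intro P hP
    have hP' := mem_inter.1 hP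
    have : P ∉ XJ ω ∅ := fun h => by
      obtain ⟨L, h1, h2⟩ := hcov P h
      exact mem_unc.1 hP'.1 L h1 h2
    rw [mem_XJ] at this
    push Not at this
    obtain ⟨s, -, hs⟩ := this
    refine mem_biUnion.2 ⟨s, ?_, mem_inter.2 ⟨mem_pts.2 hs, hP⟩⟩
    by_contra hn
    exact mem_XJ.1 hP'.2 s hn hs
  have h1 : (Y.card : ℝ) ≤ ∑ s ∈ J, ((pts (s.1, ω s) ∩ Y).card : ℝ) := by
    exact_mod_cast (card_le_card hsub).trans card_biUnion_le
  rw [← sum_filter_add_sum_filter_not J (fun s => (s.1, ω s) ∈ Rich Y)] at h1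
  have h2 : ∑ s ∈ J.filter (fun s => (s.1, ω s) ∈ Rich Y), ((pts (s.1, ω s) ∩ Y).card : ℝ)
      ≤ (J.filter (fun s => (s.1, ω s) ∈ Rich Y)).card * Fintype.card F := by
    rw [← nsmul_eq_mul, ← sum_const]
    refine sum_le_sum fun s _ => ?_
    rw [← card_pts (s.1, ω s)]
    exact_mod_cast card_le_card inter_subset_left
  have h3 : ∑ s ∈ J.filter (fun s => ¬ (s.1, ω s) ∈ Rich Y), ((pts (s.1, ω s) ∩ Y).card : ℝ)
      ≤ Y.card / 2 := by
    calc _ ≤ ∑ _s ∈ J.filter (fun s => ¬ (s.1, ω s) ∈ Rich Y), 2 * (Y.card : ℝ) / Fintype.card F := by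
          refine sum_le_sum fun s hs => ?_
          have := (mem_filter.1 hs).2
          simp only [Rich, mem_filter, mem_univ, true_and, not_le] at this
          exact this.le
      _ ≤ (Fintype.card F / 4) * (2 * (Y.card : ℝ) / Fintype.card F) := by
          rw [sum_const, nsmul_eq_mul]
          gcongr
          exact le_trans (by exact_mod_cast card_filter_le _ _) hJ
      _ = _ := by field_simp; ring
  apply le_of_mul_le_mul_right _ hq0
  nlinarith

theorem exists_str (ω : Sl F R → F) (k m0 e r : ℕ) (c η ε δ0 γ σ : ℝ)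
    (hq2 : 2 ≤ Fintype.card F) (hδ0 : 0 < δ0) (hδ : δ0 ≤ del (Fintype.card F) R)
    (hε : 0 < ε) (hε1 : ε ≤ 1) (hγ0 : 0 ≤ γ) (hγ : 24 * γ ≤ ε ^ 2 * δ0)
    (hρ : (R:ℝ) + 1 ≤ γ * Fintype.card F)
    (hk : 16 * (R + 1) ≤ k) (hk2 : 32 ≤ k * δ0)
    (hm0 : 4 * ((R:ℝ) + 1) ≤ c * m0) (hη : 4 * η ≤ c * (1 / k) ^ m0)
    (he1 : ε * Fintype.card F ≤ e) (he2 : (e:ℝ) ≤ 2 * ε * Fintype.card F) (he3 : e ≤ Fintype.card F)
    (hr : (r:ℝ) ≤ η / 2 * Fintype.card F)
    (hσ0 : 0 ≤ σ) (hσ1 : σ ≤ 1 / 8) (hσ2 : σ ≤ η) (hσ3 : σ ≤ ε * δ0 / 16)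
    (hq : (Fintype.card F + 2) * Real.exp (-(σ ^ 2 / (4 * (R + 1)) * Fintype.card F)) < 1)
    (hG : Good0 γ ω) (C0 : Finset (Option F × F)) (hC0 : C0.card ≤ Fintype.card F)
    (hcov0 : ∀ P ∈ XJ ω ∅, ∃ L ∈ C0, On P L)
    (hU0 : c * (Fintype.card F : ℝ) ^ 2 ≤ (unc C0).card) :
    ∃ I J C' B, I.card = r ∧ C'.card ≤ e ∧ B.card ≤ e ∧
      Str (8 / (ε * δ0) * Fintype.card F) η I J C' B ω := by
  classical
  set q : ℝ := (Fintype.card F : ℝ) with hqdef
  have hq0 : 0 < q := by rw [hqdef]; exact_mod_cast Fintype.card_pos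
  set δ := del (Fintype.card F) R with hδdef
  set C := C0.filter fun L => ∀ s : Sl F R, L ≠ (s.1, ω s) with hCdef
  have hC : C.card ≤ Fintype.card F := (card_filter_le _ _).trans hC0
  have hcov : ∀ P ∈ XJ ω ∅, ∃ L ∈ C, On P L := by
    intro P hP
    obtain ⟨L, h1, h2⟩ := hcov0 P hP
    refine ⟨L, mem_filter.2 ⟨h1, fun s hs => ?_⟩, h2⟩
    subst hs
    exact mem_XJ.1 hP s (notMem_empty _) h2
  have hU : c * q ^ 2 ≤ (unc C).card := by
    refine hU0.trans ?_
    gcongr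
    intro P hP
    exact mem_unc.2 fun L hL => mem_unc.1 hP L (mem_filter.1 hL).1
  obtain ⟨C', hC'1, hC'2, hC'3⟩ : ∃ C' ⊆ C, C'.card ≤ e ∧ (C \ C').card + e ≤ Fintype.card F := by
    by_cases h : e ≤ C.card
    · obtain ⟨C', h1, h2⟩ := exists_subset_card_eq h
      refine ⟨C', h1, h2.le, ?_⟩
      have := card_sdiff_add_card_eq_card h1
      omega
    · exact ⟨C, subset_rfl, by omega, by simpa using he3⟩
  have hkp : (0:ℝ) < k := by
    have : 0 < k := by omega
    exact_mod_cast this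
  have hC'e : (C'.card : ℝ) ≤ e := by exact_mod_cast hC'2
  obtain ⟨J, hJ1, hJ2, hJ3⟩ := exists_colouring ω C C' k m0 c η (ε * δ0 / 16) σ hC
    (fun L hL => (mem_filter.1 hL).2) hU hk hm0 hη (by
      rw [div_le_iff₀ hkp]
      have : 32 * (ε * q) ≤ k * δ0 * (ε * q) := by gcongr
      nlinarith only [this, hC'e, he2]) hσ0 hσ1 hσ2 hσ3 hq
  have hγε : 24 * γ ≤ ε * δ0 := hγ.trans (by
    have : ε ^ 2 ≤ ε := by nlinarith
    gcongr)
  have hεδ : ε * δ0 ≤ δ0 := by nlinarith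
  have hX := hG.card_X hq2 (by linarith) hρ
  have hline := hG.line_le
  rw [← hδdef, ← hqdef] at hX hline
  set X := XJ ω ∅ with hXdef
  set Z0 := X ∩ cov C' with hZ0
  set Z := XJ ω J ∩ cov C' with hZ
  have hXJ : X ⊆ XJ ω J := fun P hP => mem_XJ.2 fun s _ => mem_XJ.1 hP s (notMem_empty _)
  have hZ0Z : Z0 ⊆ Z := inter_subset_inter hXJ subset_rfl
  have hZ0le : (Z0.card : ℝ) ≤ C'.card * ((δ + γ) * q) := by
    have hsub : Z0 ⊆ C'.biUnion fun L => pts L ∩ X := by
      intro P hP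
      obtain ⟨h1, h2⟩ := mem_inter.1 hP
      obtain ⟨L, h3, h4⟩ := mem_cov.1 h2
      exact mem_biUnion.2 ⟨L, h3, mem_inter.2 ⟨mem_pts.2 h4, h1⟩⟩
    have : (Z0.card : ℝ) ≤ ∑ L ∈ C', ((pts L ∩ X).card : ℝ) := by
      exact_mod_cast (card_le_card hsub).trans card_biUnion_le
    refine this.trans ((sum_le_sum fun L _ => hline L).trans (by simp))
  have hXle : (X.card : ℝ) + ∑ L ∈ C \ C', ((pts L ∩ Z0).card : ℝ)
      ≤ Z0.card + (C \ C').card * ((δ + γ) * q) := by
    have hsub : X ⊆ Z0 ∪ (C \ C').biUnion fun L => (pts L ∩ X) \ Z0 := by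
      intro P hP
      by_cases h : P ∈ Z0
      · exact mem_union_left _ h
      · obtain ⟨L, h1, h2⟩ := hcov P hP
        refine mem_union_right _ (mem_biUnion.2 ⟨L, mem_sdiff.2 ⟨h1, fun h3 => h ?_⟩,
          mem_sdiff.2 ⟨mem_inter.2 ⟨mem_pts.2 h2, hP⟩, h⟩⟩)
        exact mem_inter.2 ⟨hP, mem_cov.2 ⟨L, h3, h2⟩⟩
    have h1 : (X.card : ℝ) ≤ Z0.card + ∑ L ∈ C \ C', (((pts L ∩ X) \ Z0).card : ℝ) := by
      exact_mod_cast (card_le_card hsub).trans ((card_union_le _ _).trans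
        (Nat.add_le_add_left card_biUnion_le _))
    have h2 : ∑ L ∈ C \ C', ((((pts L ∩ X) \ Z0).card : ℝ) + (pts L ∩ Z0).card)
        ≤ (C \ C').card * ((δ + γ) * q) := by
      rw [← nsmul_eq_mul, ← sum_const]
      refine sum_le_sum fun L _ => le_trans (le_of_eq ?_) (hline L)
      have : pts L ∩ Z0 = (pts L ∩ X) ∩ Z0 := by
        ext P; simp only [hZ0, mem_inter]; tauto
      rw [this]
      exact_mod_cast card_sdiff_add_card_inter _ _
    rw [sum_add_distrib] at h2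
    linarith
  have hCC : ((C \ C').card : ℝ) + e ≤ q := by rw [hqdef]; exact_mod_cast hC'3
  have hdγ : 0 ≤ (δ + γ) * q := mul_nonneg (by linarith) hq0.le
  have hsum0 : 0 ≤ ∑ L ∈ C \ C', ((pts L ∩ Z0).card : ℝ) := sum_nonneg fun _ _ => Nat.cast_nonneg _
  have hA : (C \ C').card * ((δ + γ) * q) ≤ (q - e) * ((δ + γ) * q) := by gcongr; linarith
  have hB : C'.card * ((δ + γ) * q) ≤ e * ((δ + γ) * q) := by gcongr
  have hover : ∑ L ∈ C \ C', ((pts L ∩ Z0).card : ℝ) ≤ 3 * γ * q ^ 2 := by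
    nlinarith only [hX, hXle, hZ0le, hA, hB]
  have hZlow : ε * δ0 / 2 * q ^ 2 ≤ Z.card := by
    have h1 : (Z0.card : ℝ) ≤ Z.card := by exact_mod_cast card_le_card hZ0Z
    have h2 : ε * q * (δ0 * q) ≤ e * ((δ + γ) * q) := by gcongr; linarith
    have h3 : 24 * γ * q ^ 2 ≤ ε * δ0 * q ^ 2 := by gcongr
    have h4 : 0 ≤ γ * q ^ 2 := by positivity
    nlinarith only [hX, hXle, hA, hsum0, h1, h2, h3, h4]
  set B := (C \ C').filter fun L => L ∉ Poor Z with hBdef
  set C'' := (C \ C').filter fun L => L ∈ Poor Z with hC''def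
  have hCeq : C' ∪ B ∪ C'' = C := by
    rw [union_assoc, union_comm B, filter_union_filter_not_eq, union_sdiff_of_subset hC'1]
  have hBcard : B.card ≤ e := by
    have h1 : ∀ L ∈ B, ε * δ0 / 8 * q ≤ ((pts L ∩ Z0).card : ℝ) := by
      intro L hL
      obtain ⟨h2, h3⟩ := mem_filter.1 hL
      simp only [Poor, mem_filter, mem_univ, true_and, not_le] at h3
      have h4 := hJ3 L h2
      have h5 : ((pts L ∩ Z).card : ℝ) ≤ (pts L ∩ Z0).card
          + ((pts L ∩ cov C') ∩ (XJ ω J \ X)).card := by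
        have : pts L ∩ Z ⊆ (pts L ∩ Z0) ∪ ((pts L ∩ cov C') ∩ (XJ ω J \ X)) := by
          intro P; simp only [hZ, hZ0, mem_inter, mem_union, mem_sdiff]; tauto
        exact_mod_cast (card_le_card this).trans (card_union_le _ _)
      have h6 : ε * δ0 / 4 * q ≤ Z.card / (2 * q) := by
        rw [le_div_iff₀ (by positivity)]; linarith
      rw [← hqdef] at h3
      linarith
    have h2 : B.card * (ε * δ0 / 8 * q) ≤ 3 * γ * q ^ 2 := by
      refine le_trans ?_ hover
      rw [← nsmul_eq_mul, ← sum_const]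
      exact (sum_le_sum h1).trans
        (sum_le_sum_of_subset_of_nonneg (filter_subset _ _) fun _ _ _ => Nat.cast_nonneg _)
    have h3 : (B.card : ℝ) ≤ ε * q := by
      apply le_of_mul_le_mul_right _ (show 0 < ε * δ0 / 8 * q by positivity)
      refine h2.trans ?_
      have : 24 * γ * q ^ 2 ≤ ε ^ 2 * δ0 * q ^ 2 := by gcongr
      nlinarith only [this]
    exact_mod_cast h3.trans he1
  have hrich := exists_rich ω C J hcov hJ1 η hJ2
  obtain ⟨I, hI1, hI2⟩ := exists_subset_card_eq (n := r)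
    (s := J.filter fun s => (s.1, ω s) ∈ Rich (unc C ∩ XJ ω J)) (by exact_mod_cast hr.trans hrich)
  refine ⟨I, J, C', B, hI2, hC'2, hBcard, hI1.trans (filter_subset _ _), ?_, C'',
    fun L hL => (mem_filter.1 hL).2, ?_, ?_⟩
  · refine (card_poor Z (ε * δ0 / 2) (by positivity) hZlow).trans (le_of_eq ?_)
    rw [← hqdef]; field_simp; ring
  · rw [hCeq]; exact hJ2
  · rw [hCeq]; exact fun s hs => (mem_filter.1 (hI1 hs)).2

end Vale.Agent.P045
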