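import Vale.Agent.P045.StabB

/-! Stability, part C: counting. -/

set_option linter.unusedSectionVars false

open Finset

namespace Vale.Agent.P045

lemma card_small {β : Type*} [Fintype β] [DecidableEq β] (e : ℕ) :
    (univ.filter fun S : Finset β => S.card ≤ e).card ≤ (Fintype.card β + 1) ^ e := by
  induction e with
  | zero =>
    have : (univ.filter fun S : Finset β => S.card ≤ 0) = {∅} := by ext S; simp
    rw [this]; simp
  | succ e ih =>
    have hsub : (univ.filter fun S : Finset β => S.card ≤ e + 1) ⊆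
        (univ.filter fun S : Finset β => S.card ≤ e) ∪
          ((univ : Finset β) ×ˢ (univ.filter fun S : Finset β => S.card ≤ e)).image
            fun x => insert x.1 x.2 := by
      intro S hS
      rcases S.eq_empty_or_nonempty with rfl | ⟨a, ha⟩
      · simp
      · refine mem_union_right _ (mem_image.2 ⟨(a, S.erase a), ?_, insert_erase ha⟩)
        have := (mem_filter.1 hS).2
        simp only [mem_product, mem_univ, mem_filter, true_and, card_erase_of_mem ha]
        omega
    have h1 := (card_le_card hsub).trans ((card_union_le _ _).trans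
      (Nat.add_le_add_left card_image_le _))
    rw [card_product, card_univ] at h1
    calc _ ≤ (Fintype.card β + 1) * (univ.filter fun S : Finset β => S.card ≤ e).card := by
          linarith
      _ ≤ (Fintype.card β + 1) * (Fintype.card β + 1) ^ e := Nat.mul_le_mul_left _ ih
      _ = _ := by ring

variable {F : Type} [Field F] [Fintype F] [DecidableEq F] {R : ℕ}

lemma prod_rich_le (I : Finset (Sl F R)) (S : Finset (Option F × F)) :
    ∏ s ∈ I, ((univ.filter fun b : F => (s.1, b) ∈ S).card : ℝ)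
      ≤ Real.exp ((R + 1) * S.card) := by
  have h1 : ∑ s : Sl F R, ((univ.filter fun b : F => (s.1, b) ∈ S).card : ℝ) = (R + 1) * S.card := by
    rw [Fintype.sum_prod_type]
    simp only [sum_const, card_univ, Fintype.card_option, Fintype.card_fin, nsmul_eq_mul]
    rw [← mul_sum]
    push_cast
    congr 1
    rw [card_eq_sum_card_fiberwise (s := S) (t := univ) (f := Prod.fst) fun _ _ => mem_univ _]
    push_cast
    refine sum_congr rfl fun d _ => ?_
    norm_cast
    apply card_bij (fun b _ => (d, b))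
    · intro b hb; simpa using hb
    · intro b _ b' _ h; exact (Prod.ext_iff.1 h).2
    · rintro ⟨d', b⟩ h
      simp only [mem_filter] at h
      obtain ⟨h1, rfl⟩ := h
      exact ⟨b, by simpa using h1, rfl⟩
  rw [← h1]
  calc _ ≤ ∏ s ∈ I, Real.exp ((univ.filter fun b : F => (s.1, b) ∈ S).card) :=
        prod_le_prod (fun _ _ => Nat.cast_nonneg _) fun s _ => by
          linarith [Real.add_one_le_exp ((univ.filter fun b : F => (s.1, b) ∈ S).card : ℝ)]
    _ = Real.exp (∑ s ∈ I, ((univ.filter fun b : F => (s.1, b) ∈ S).card : ℝ)) :=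
        (Real.exp_sum _ _).symm
    _ ≤ _ := Real.exp_le_exp.2
        (sum_le_sum_of_subset_of_nonneg (subset_univ _) fun _ _ _ => Nat.cast_nonneg _)

lemma pr_str (K η : ℝ) (hη : 0 < η) (I J : Finset (Sl F R)) (C' B : Finset (Option F × F)) :
    pr (Str K η I J C' B) ≤ Real.exp K * Real.exp ((R + 1) / η * Fintype.card F)
      / (Fintype.card F : ℝ) ^ I.card := by
  classical
  have hq0 : (0:ℝ) < Fintype.card F := by exact_mod_cast Fintype.card_pos
  set A := univ.filter (Str K η I J C' B) with hA
  let z : (Sl F R → F) → (Sl F R → F) := fun ω s => if s ∈ I then 0 else ω s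
  set M := Real.exp K * Real.exp ((R + 1) / η * Fintype.card F) with hM
  have hfib : ∀ ω0 ∈ A.image z, ((A.filter fun ω => z ω = ω0).card : ℝ) ≤ M := by
    intro ω0 hω0
    obtain ⟨ω1, hω1, rfl⟩ := mem_image.1 hω0
    obtain ⟨hIJ, hK, -⟩ := (mem_filter.1 hω1).2
    have hXJ : ∀ ω, z ω = z ω1 → XJ ω J = XJ ω1 J := by
      intro ω h
      ext P
      simp only [mem_XJ]
      refine forall_congr' fun s => forall_congr' fun hs => ?_
      have := congrFun h s
      simp only [z, if_neg (fun h => hs (hIJ h))] at this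
      rw [this]
    let Y := fun C'' => unc (C' ∪ B ∪ C'') ∩ XJ ω1 J
    let T := (Poor (XJ ω1 J ∩ cov C')).powerset.filter fun C'' =>
      η * (Fintype.card F : ℝ) ^ 2 ≤ (Y C'').card
    let W := fun C'' => Fintype.piFinset fun s : Sl F R =>
      if s ∈ I then univ.filter fun b : F => (s.1, b) ∈ Rich (Y C'') else {ω1 s}
    have hsub : (A.filter fun ω => z ω = z ω1) ⊆ T.biUnion W := by
      intro ω hω
      obtain ⟨h1, h2⟩ := mem_filter.1 hω
      obtain ⟨-, -, C'', h3, h4, h5⟩ := (mem_filter.1 h1).2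
      rw [hXJ ω h2] at h3 h4 h5
      refine mem_biUnion.2 ⟨C'', mem_filter.2 ⟨mem_powerset.2 h3, h4⟩, ?_⟩
      rw [Fintype.mem_piFinset]
      intro s
      by_cases hs : s ∈ I
      · rw [if_pos hs]; exact mem_filter.2 ⟨mem_univ _, h5 s hs⟩
      · rw [if_neg hs, mem_singleton]
        have := congrFun h2 s
        simpa only [z, if_neg hs] using this
    have hW : ∀ C'' ∈ T, ((W C'').card : ℝ) ≤ Real.exp ((R + 1) / η * Fintype.card F) := by
      intro C'' hC''
      simp only [W]
      rw [Fintype.card_piFinset, ← prod_mul_prod_compl I]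
      have e1 : ∏ s ∈ Iᶜ, (if s ∈ I then univ.filter fun b : F => (s.1, b) ∈ Rich (Y C'')
          else {ω1 s}).card = 1 := prod_eq_one fun s hs => by rw [if_neg (mem_compl.1 hs)]; simp
      have e2 : ∏ s ∈ I, (if s ∈ I then univ.filter fun b : F => (s.1, b) ∈ Rich (Y C'')
          else {ω1 s}).card = ∏ s ∈ I, (univ.filter fun b : F => (s.1, b) ∈ Rich (Y C'')).card :=
        prod_congr rfl fun s hs => by rw [if_pos hs]
      rw [e1, e2, mul_one]
      push_cast
      refine (prod_rich_le I _).trans (Real.exp_le_exp.2 ?_)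
      have := card_rich (Y C'') η hη (mem_filter.1 hC'').2
      calc ((R:ℝ) + 1) * (Rich (Y C'')).card ≤ (R + 1) * (1 / η * Fintype.card F) := by gcongr
        _ = _ := by ring
    have hT : (T.card : ℝ) ≤ Real.exp K := by
      have h1 : T.card ≤ 2 ^ (Poor (XJ ω1 J ∩ cov C')).card :=
        (card_filter_le _ _).trans (card_powerset _).le
      have h2 : (T.card : ℝ) ≤ 2 ^ (Poor (XJ ω1 J ∩ cov C')).card := by exact_mod_cast h1
      refine h2.trans (le_trans ?_ (Real.exp_le_exp.2 hK))
      rw [← mul_one ((Poor (XJ ω1 J ∩ cov C')).card : ℝ), Real.exp_nat_mul]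
      gcongr
      linarith [Real.add_one_le_exp 1]
    calc ((A.filter fun ω => z ω = z ω1).card : ℝ) ≤ ∑ C'' ∈ T, ((W C'').card : ℝ) := by
          exact_mod_cast (card_le_card hsub).trans card_biUnion_le
      _ ≤ T.card * Real.exp ((R + 1) / η * Fintype.card F) := by
          rw [← nsmul_eq_mul, ← sum_const]; exact sum_le_sum hW
      _ ≤ M := by rw [hM]; gcongr
  have himg : ((A.image z).card : ℝ) * (Fintype.card F : ℝ) ^ I.card
      ≤ Fintype.card (Sl F R → F) := by
    have h1 : (A.image z).card ≤ (Fintype.piFinset fun s : Sl F R =>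
        if s ∈ I then ({0} : Finset F) else univ).card := by
      apply card_le_card
      intro ω0 h
      obtain ⟨ω, -, rfl⟩ := mem_image.1 h
      rw [Fintype.mem_piFinset]
      intro s
      by_cases hs : s ∈ I <;> simp [z, hs]
    rw [Fintype.card_piFinset, ← prod_mul_prod_compl I] at h1
    have e1 : ∏ s ∈ I, (if s ∈ I then ({0} : Finset F) else univ).card = 1 :=
      prod_eq_one fun s hs => by rw [if_pos hs]; simp
    have e2 : ∏ s ∈ Iᶜ, (if s ∈ I then ({0} : Finset F) else univ).card
        = Fintype.card F ^ Iᶜ.card := by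
      rw [← prod_const]
      exact prod_congr rfl fun s hs => by rw [if_neg (mem_compl.1 hs)]; simp
    rw [e1, e2, one_mul] at h1
    rw [Fintype.card_fun, ← card_compl_add_card I, pow_add]
    exact_mod_cast Nat.mul_le_mul_right _ h1
  have hAc : (A.card : ℝ) ≤ (A.image z).card * M := by
    rw [card_eq_sum_card_image z A, ← nsmul_eq_mul, ← sum_const]
    push_cast
    exact sum_le_sum hfib
  have hΩ : (0:ℝ) < Fintype.card (Sl F R → F) := by exact_mod_cast Fintype.card_pos
  rw [pr_eq, div_le_div_iff₀ hΩ (by positivity)]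
  have hM0 : 0 ≤ M := by positivity
  calc (A.card : ℝ) * (Fintype.card F : ℝ) ^ I.card
      ≤ (A.image z).card * M * (Fintype.card F : ℝ) ^ I.card := by gcongr
    _ = M * ((A.image z).card * (Fintype.card F : ℝ) ^ I.card) := by ring
    _ ≤ _ := by gcongr

lemma pr_str_all (K η ε : ℝ) (hη : 0 < η) (e r : ℕ) (hq2 : 2 ≤ Fintype.card F)
    (he : (e:ℝ) ≤ ε * Fintype.card F + 1) (hr : 12 * ε * Fintype.card F ≤ r + 1)
    (hlog : 4 * (R + 1) + K + (R + 1) / η + 1 ≤ 6 * ε * Real.log (Fintype.card F)) :
    pr (fun ω : Sl F R → F => ∃ I J C' B, I.card = r ∧ C'.card ≤ e ∧ B.card ≤ e ∧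
      Str (K * Fintype.card F) η I J C' B ω)
      ≤ (Fintype.card F : ℝ) ^ 7 * Real.exp (-(1 * Fintype.card F)) := by
  classical
  set q : ℝ := (Fintype.card F : ℝ) with hqdef
  have hq2' : 2 ≤ q := by rw [hqdef]; exact_mod_cast hq2
  have hq0 : 0 < q := by linarith
  let Sm := univ.filter fun S : Finset (Option F × F) => S.card ≤ e
  let T := ((univ : Finset (Finset (Sl F R))).filter fun I => I.card = r) ×ˢ
    (univ : Finset (Finset (Sl F R))) ×ˢ Sm ×ˢ Sm
  have h1 := pr_exists T fun x ω => Str (K * q) η x.1 x.2.1 x.2.2.1 x.2.2.2 ω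
  have h2 : ∀ x ∈ T, pr (fun ω => Str (K * q) η x.1 x.2.1 x.2.2.1 x.2.2.2 ω)
      ≤ Real.exp (K * q) * Real.exp ((R + 1) / η * q) / q ^ r := by
    intro x hx
    have := pr_str (K * q) η hη x.1 x.2.1 x.2.2.1 x.2.2.2
    rwa [(mem_filter.1 (mem_product.1 hx).1).2] at this
  refine le_trans (pr_mono ?_) (h1.trans ((sum_le_sum h2).trans ?_))
  · rintro ω ⟨I, J, C', B, h3, h4, h5, h6⟩
    exact ⟨(I, J, C', B), by simp [T, Sm, h3, h4, h5], h6⟩
  rw [sum_const, nsmul_eq_mul]
  have hpow : (Fintype.card (Finset (Sl F R)) : ℝ) ≤ Real.exp (2 * (R + 1) * q) := by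
    rw [Fintype.card_finset]
    push_cast
    refine le_trans ?_ (Real.exp_le_exp.2 (N_le (F := F) (R := R)))
    rw [← mul_one (Fintype.card (Sl F R) : ℝ), Real.exp_nat_mul]
    gcongr
    linarith [Real.add_one_le_exp 1]
  have hSm : (Sm.card : ℝ) ≤ Real.exp (3 * e * Real.log q) := by
    have h3 : (Sm.card : ℝ) ≤ ((q + 1) * q + 1) ^ e := by
      have := card_small (β := Option F × F) e
      rw [card_line] at this
      rw [hqdef]; exact_mod_cast this
    refine h3.trans ?_
    rw [show 3 * (e:ℝ) * Real.log q = ((3 * e : ℕ) : ℝ) * Real.log q by push_cast; ring,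
      Real.exp_nat_mul, Real.exp_log hq0, pow_mul]
    gcongr
    have a1 : 2 * q ≤ q * q := by nlinarith only [hq2']
    have a2 : 2 * (q * q) ≤ q * (q * q) := by nlinarith only [hq2', mul_pos hq0 hq0]
    nlinarith only [a1, a2, hq2']
  have hT : (T.card : ℝ) ≤ Real.exp (2 * (R + 1) * q) * (Real.exp (2 * (R + 1) * q)
      * (Real.exp (3 * e * Real.log q) * Real.exp (3 * e * Real.log q))) := by
    simp only [T, card_product, card_univ]
    push_cast
    gcongr
    exact le_trans (by exact_mod_cast card_le_univ _) hpow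
  have hqr : q ^ r = Real.exp (r * Real.log q) := by rw [Real.exp_nat_mul, Real.exp_log hq0]
  have hq7 : q ^ 7 = Real.exp (7 * Real.log q) := by
    rw [show (7:ℝ) = ((7:ℕ):ℝ) by norm_num, Real.exp_nat_mul, Real.exp_log hq0]
  refine (mul_le_mul_of_nonneg_right hT (by positivity)).trans ?_
  rw [hqr, hq7, ← Real.exp_add, ← Real.exp_add, ← Real.exp_add, ← Real.exp_add, ← Real.exp_sub,
    ← Real.exp_add, ← Real.exp_add]
  apply Real.exp_le_exp.2
  have hl : 0 ≤ Real.log q := Real.log_nonneg (by linarith)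
  have h3 : (6 * e - r) * Real.log q ≤ (7 - 6 * ε * q) * Real.log q :=
    mul_le_mul_of_nonneg_right (by linarith) hl
  have h4 : (4 * (R + 1) + K + (R + 1) / η + 1) * q ≤ 6 * ε * Real.log q * q := by gcongr
  nlinarith only [h3, h4]

end Vale.Agent.P045
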