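import Vale.Agent.P045.Model

/-! Typical properties of the random reserved lines. -/

set_option linter.unusedSectionVars false

open Finset

namespace Vale.Agent.P045

variable {F : Type} [Field F] [Fintype F] [DecidableEq F] {R : ℕ}

lemma cnt_congr {β Ω : Type*} (s : Finset β) {A A' : β → Ω → Prop} {ω : Ω}
    (h : ∀ b, A b ω ↔ A' b ω) : cnt s A ω = cnt s A' ω := by
  classical
  rw [cnt_eq, cnt_eq, filter_congr fun b _ => h b]

/-- No slot of direction other than `d` hits `P`. -/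
def CleanS (ω : Sl F R → F) (d : Option F) (P : F × F) : Prop := ∀ s, s.1 ≠ d → lam s.1 P ≠ ω s

/-- Number of clean points of a line. -/
noncomputable def cl (L : Option F × F) (ω : Sl F R → F) : ℝ :=
  cnt univ (fun ξ ω => CleanS ω L.1 (pos L.1 L.2 ξ)) ω

lemma pr_clean (d : Option F) (P : F × F) :
    pr (fun ω : Sl F R → F => CleanS ω d P) = del (Fintype.card F) R := by
  have := pr_pattern (fun s : Sl F R => lam s.1 P) (univ.filter fun s => s.1 ≠ d) ∅ (empty_subset _)
  rw [card_ne_dir] at this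
  simp only [card_empty, pow_zero, one_mul, Nat.sub_zero] at this
  rw [del, ← this]
  exact pr_congr fun ω => by simp [CleanS]

lemma prG2 (γ : ℝ) (hγ : 0 ≤ γ) :
    pr (fun ω : Sl F R → F => ∃ L, ¬ ((del (Fintype.card F) R - γ) * Fintype.card F < cl L ω ∧
      cl L ω < (del (Fintype.card F) R + γ) * Fintype.card F))
      ≤ (Fintype.card F + 1) * Fintype.card F *
        (2 * Real.exp (-(γ ^ 2 / (16 * (R + 1)) * Fintype.card F))) := by
  refine (pr_exists_le _ (2 * Real.exp (-(γ ^ 2 / (16 * (R + 1)) * Fintype.card F))) ?_).trans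
    (by rw [card_line]; push_cast; rfl)
  intro L
  have hinj : ∀ (_ : Unit) (s : Sl F R), s.1 ≠ L.1 →
      Function.Injective fun ξ => lam s.1 (pos L.1 L.2 ξ) := fun _ s hs => lam_pos_inj hs _
  have hiff : ∀ ξ (ω : Sl F R → F), (∀ s : Sl F R, ¬ (s.1 ≠ L.1 ∧ lam s.1 (pos L.1 L.2 ξ) = ω s))
      ↔ CleanS ω L.1 (pos L.1 L.2 ξ) := fun ξ ω => by simp [CleanS]
  have h1 := pat_upper (fun _ ξ => pos L.1 L.2 ξ) (fun _ s => s.1 ≠ L.1) hinj
    (fun pat => ∀ s, ¬ pat () s) γ (del (Fintype.card F) R) hγ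
    (fun ξ => ((pr_congr (hiff ξ)).trans (pr_clean _ _)).le)
  have h2 := pat_lower (fun _ ξ => pos L.1 L.2 ξ) (fun _ s => s.1 ≠ L.1) hinj
    (fun pat => ∀ s, ¬ pat () s) γ (del (Fintype.card F) R) hγ
    (fun ξ => ((pr_congr (hiff ξ)).trans (pr_clean _ _)).ge)
  have e : (4 * ((R:ℝ) + 1) * (2 * (Fintype.card Unit : ℝ)) ^ 2) = 16 * (R + 1) := by
    simp; ring
  rw [e] at h1 h2
  refine le_trans (pr_mono ?_) ((pr_or _ _).trans ((add_le_add h1 h2).trans (by linarith)))
  intro ω hω
  rw [cnt_congr (A' := fun ξ ω => CleanS ω L.1 (pos L.1 L.2 ξ)) _ (fun ξ => hiff ξ ω)]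
  rw [not_and_or, not_lt, not_lt] at hω
  exact hω.symm

/-- Parameters of a family of moving points. -/
abbrev Th (F : Type) :=
  Option F × F × (Bool × Fin 11 → Option F) × (Bool × Fin 11 → F) × Fin 11

/-- The moving points. -/
def mpt (θ : Th F) : Option (Bool × Fin 11) → F → F × F
  | none, ξ => pos θ.1 θ.2.1 ξ
  | some (b, i), ξ => meet (θ.2.2.1 (b, θ.2.2.2.2)) (lam (θ.2.2.1 (b, θ.2.2.2.2)) (pos θ.1 θ.2.1 ξ))
      (θ.2.2.1 (b, i)) (θ.2.2.2.1 (b, i))

/-- Their directions. -/
def mdir (θ : Th F) : Option (Bool × Fin 11) → Option F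
  | none => θ.1
  | some x => θ.2.2.1 x

/-- Nondegeneracy. -/
def mok (θ : Th F) : Option (Bool × Fin 11) → Prop
  | none => True
  | some (b, i) => θ.2.2.1 (b, θ.2.2.2.2) ≠ θ.1 ∧ θ.2.2.1 (b, θ.2.2.2.2) ≠ θ.2.2.1 (b, i)

lemma mpt_inj (θ : Th F) (o : Option (Bool × Fin 11)) (ho : mok θ o) (d : Option F)
    (hd : d ≠ mdir θ o) : Function.Injective fun ξ => lam d (mpt θ o ξ) := by
  rcases o with _ | ⟨b, i⟩
  · exact lam_pos_inj hd _
  · intro ξ ξ' h
    have h1 : mpt θ (some (b, i)) ξ = mpt θ (some (b, i)) ξ' :=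
      eq_of_lam_eq hd h ((lam_meet_right ho.2 _ _).trans (lam_meet_right ho.2 _ _).symm)
    have h2 := congrArg (lam (θ.2.2.1 (b, θ.2.2.2.2))) h1
    simp only [mpt, lam_meet_left] at h2
    exact lam_pos_inj ho.1 _ h2

/-- Number of parameters for which all moving points are clean. -/
noncomputable def clm (θ : Th F) (ω : Sl F R → F) : ℝ :=
  cnt univ (fun ξ ω => ∀ o, mok θ o → CleanS ω (mdir θ o) (mpt θ o ξ)) ω

lemma prG1 (hq : 46 ≤ Fintype.card F) :
    pr (fun ω : Sl F R → F => ∃ θ : Th F,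
      clm θ ω ≤ Real.exp (-(92 * (R + 1))) / 2 * Fintype.card F)
      ≤ Fintype.card (Th F) * Real.exp (-((Real.exp (-(92 * (R + 1))) / 2) ^ 2
        / (4 * (R + 1) * 46 ^ 2) * Fintype.card F)) := by
  refine pr_exists_le _ _ fun θ => ?_
  have hq' : (46:ℝ) ≤ Fintype.card F := by exact_mod_cast hq
  have hiff : ∀ ξ (ω : Sl F R → F), (∀ o, ∀ s : Sl F R, ¬ ((mok θ o ∧ s.1 ≠ mdir θ o) ∧
      lam s.1 (mpt θ o ξ) = ω s)) ↔ ∀ o, mok θ o → CleanS ω (mdir θ o) (mpt θ o ξ) := by
    intro ξ ω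
    simp only [CleanS, not_and, and_imp]
    exact ⟨fun h o ho s hs => h o s ho hs, fun h o s ho hs => h o ho s hs⟩
  have h2 := pat_lower (mpt θ) (fun o (s : Sl F R) => mok θ o ∧ s.1 ≠ mdir θ o)
    (fun o s hs => mpt_inj θ o hs.1 _ hs.2)
    (fun pat => ∀ o s, ¬ pat o s) (Real.exp (-(92 * (R + 1))) / 2) (Real.exp (-(92 * (R + 1))))
    (by positivity) (fun ξ => by
      let S : Sl F R → Finset F := fun s => univ \ univ.image fun o => lam s.1 (mpt θ o ξ)
      refine le_trans ?_ (pr_mono (A := fun ω => ∀ s, ω s ∈ S s) ?_)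
      · rw [pr_pi]
        have hS : ∀ s, 1 - 23 / (Fintype.card F : ℝ) ≤ ((S s).card : ℝ) / Fintype.card F := by
          intro s
          have h1 := card_sdiff_add_card_eq_card
            (subset_univ (univ.image fun o => lam s.1 (mpt θ o ξ)))
          have h2 := card_image_le (s := univ) (f := fun o => lam s.1 (mpt θ o ξ))
          have h3 : Fintype.card F ≤ (S s).card + 23 := by
            simp only [card_univ, Fintype.card_option, Fintype.card_prod, Fintype.card_bool,
              Fintype.card_fin] at h1 h2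
            simp only [S]; omega
          have h4 : (Fintype.card F : ℝ) ≤ (S s).card + 23 := by exact_mod_cast h3
          rw [le_div_iff₀ (by linarith)]
          field_simp
          linarith
        have hx : 23 / (Fintype.card F : ℝ) ≤ 1 / 2 := by
          rw [div_le_div_iff₀ (by linarith) (by norm_num)]; linarith
        calc Real.exp (-(92 * (R + 1)))
            ≤ Real.exp (-(2 * (23 / (Fintype.card F : ℝ)) * Fintype.card (Sl F R))) := by
              apply Real.exp_le_exp.2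
              have := N_le (F := F) (R := R)
              rw [neg_le_neg_iff]
              calc 2 * (23 / (Fintype.card F : ℝ)) * Fintype.card (Sl F R)
                  ≤ 2 * (23 / (Fintype.card F : ℝ)) * (2 * (R + 1) * Fintype.card F) := by gcongr
                _ = _ := by field_simp; ring
          _ ≤ (1 - 23 / (Fintype.card F : ℝ)) ^ Fintype.card (Sl F R) :=
              exp_le_pow (by positivity) hx _
          _ = ∏ _s : Sl F R, (1 - 23 / (Fintype.card F : ℝ)) := by rw [prod_const, card_univ]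
          _ ≤ _ := prod_le_prod (fun _ _ => by linarith) fun s _ => hS s
      · intro ω hω o s hs
        have := hω s
        simp only [S, mem_sdiff, mem_univ, true_and, mem_image, not_exists] at this
        exact this o hs.2)
  have e : (2 * (Fintype.card (Option (Bool × Fin 11)) : ℝ)) = 46 := by simp; norm_num
  rw [e] at h2
  refine le_trans (pr_mono ?_) h2
  intro ω hω
  rw [cnt_congr (A' := fun ξ ω => ∀ o, mok θ o → CleanS ω (mdir θ o) (mpt θ o ξ)) _
    (fun ξ => hiff ξ ω)]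
  refine le_trans hω (le_of_eq ?_)
  ring

/-- `P` is a host for `h` with helper slots `g`. -/
def HostS (τ : Option F → Bool × Fin 11) (ω : Sl F R → F) (h : Option F × Bool) (P : F × F)
    (g : Fin 11 → Option F × Fin R) : Prop :=
  (∀ j, τ (g j).1 = (h.2, j) ∧ (g j).1 ≠ h.1) ∧
    ∀ s : Sl F R, (s.1 ≠ h.1 ∧ lam s.1 P = ω s) ↔ ∃ j, s = ((g j).1, some (g j).2)

lemma pr_host (τ : Option F → Bool × Fin 11) (hq : 88 ≤ Fintype.card F)
    (hτ : ∀ y, (Fintype.card F + 1) / 22 ≤ (univ.filter fun d => τ d = y).card)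
    (h : Option F × Bool) (P : F × F) :
    ((R:ℝ) / 44) ^ 11 * del (Fintype.card F) R
      ≤ pr (fun ω : Sl F R → F => ∃ g, HostS τ ω h P g) := by
  classical
  have hq' : (88:ℝ) ≤ Fintype.card F := by exact_mod_cast hq
  let Gs : Finset (Fin 11 → Option F × Fin R) := Fintype.piFinset fun j =>
    ((univ.filter fun d => τ d = (h.2, j)).erase h.1) ×ˢ univ
  have hGs : ∀ g ∈ Gs, ∀ j, τ (g j).1 = (h.2, j) ∧ (g j).1 ≠ h.1 := by
    intro g hg j
    have := Fintype.mem_piFinset.1 hg j
    simp only [mem_product, mem_erase, mem_filter, mem_univ, true_and, and_true] at this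
    exact this.symm
  have hcard : ((R:ℝ) / 44 * Fintype.card F) ^ 11 ≤ Gs.card := by
    rw [Fintype.card_piFinset]
    push_cast
    calc _ = ∏ _j : Fin 11, ((R:ℝ) / 44 * Fintype.card F) := by simp
      _ ≤ _ := prod_le_prod (fun _ _ => by positivity) fun j _ => ?_
    rw [card_product, card_univ, Fintype.card_fin]
    have h1 := hτ (h.2, j)
    have h2 := pred_card_le_card_erase (s := univ.filter fun d => τ d = (h.2, j)) (a := h.1)
    have h3 : Fintype.card F ≤ 44 * ((univ.filter fun d => τ d = (h.2, j)).erase h.1).card := by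
      omega
    have h4 : (Fintype.card F : ℝ)
        ≤ 44 * ((univ.filter fun d => τ d = (h.2, j)).erase h.1).card := by exact_mod_cast h3
    push_cast
    nlinarith [show (0:ℝ) ≤ R from Nat.cast_nonneg R]
  have hone : ∀ g ∈ Gs, (1 / (Fintype.card F : ℝ)) ^ 11 * del (Fintype.card F) R
      ≤ pr (fun ω : Sl F R → F => HostS τ ω h P g) := by
    intro g hg
    have hinj : Function.Injective fun j => (((g j).1, some (g j).2) : Sl F R) := by
      intro j j' hj
      have h1 := (hGs g hg j).1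
      rw [(Prod.ext_iff.1 hj).1, (hGs g hg j').1] at h1
      exact (Prod.ext_iff.1 h1).2.symm
    have := pr_pattern (fun s : Sl F R => lam s.1 P) (univ.filter fun s => s.1 ≠ h.1)
      (univ.image fun j => (((g j).1, some (g j).2) : Sl F R)) (by
        intro s hs
        obtain ⟨j, -, rfl⟩ := mem_image.1 hs
        exact mem_filter.2 ⟨mem_univ _, (hGs g hg j).2⟩)
    rw [card_image_of_injective _ hinj, card_ne_dir, card_univ, Fintype.card_fin] at this
    refine le_trans ?_ (le_trans this.ge (pr_mono ?_))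
    · rw [del]
      refine mul_le_mul_of_nonneg_left ?_ (by positivity)
      apply pow_le_pow_of_le_one
      · rw [sub_nonneg, div_le_one (by linarith)]; linarith
      · have : 0 ≤ 1 / (Fintype.card F : ℝ) := by positivity
        linarith
      · omega
    · intro ω hω
      refine ⟨hGs g hg, fun s => ⟨fun hs => ?_, ?_⟩⟩
      · obtain ⟨j, -, hj⟩ := mem_image.1 ((hω s (mem_filter.2 ⟨mem_univ _, hs.1⟩)).1 hs.2)
        exact ⟨j, hj.symm⟩
      · rintro ⟨j, rfl⟩
        exact ⟨(hGs g hg j).2, (hω _ (mem_filter.2 ⟨mem_univ _, (hGs g hg j).2⟩)).2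
          (mem_image.2 ⟨j, mem_univ _, rfl⟩)⟩
  have hdisj := pr_exists_disj Gs (fun g (ω : Sl F R → F) => HostS τ ω h P g) (by
    intro g _ g' _ ω h1 h2
    funext j
    obtain ⟨j', hj'⟩ := (h2.2 _).1 ((h1.2 _).2 ⟨j, rfl⟩)
    simp only [Prod.mk.injEq, Option.some.injEq] at hj'
    have h3 := (h1.1 j).1
    rw [hj'.1, (h2.1 j').1] at h3
    have : j' = j := (Prod.ext_iff.1 h3).2
    subst this
    exact Prod.ext hj'.1 hj'.2)
  refine le_trans ?_ (hdisj.trans (pr_mono fun ω ⟨g, _, hg⟩ => ⟨g, hg⟩))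
  refine le_trans ?_ (sum_le_sum hone)
  rw [sum_const, nsmul_eq_mul]
  have hd : 0 ≤ del (Fintype.card F) R := (Real.exp_pos _).le.trans (del_ge (by omega) R)
  calc ((R:ℝ) / 44) ^ 11 * del (Fintype.card F) R
      = ((R:ℝ) / 44 * Fintype.card F) ^ 11
        * ((1 / (Fintype.card F : ℝ)) ^ 11 * del (Fintype.card F) R) := by field_simp
    _ ≤ _ := by gcongr

/-- Number of host candidates on a line. -/
noncomputable def cand (τ : Option F → Bool × Fin 11) (h : Option F × Bool) (l : F)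
    (ω : Sl F R → F) : ℝ :=
  cnt univ (fun ξ ω => ∃ g, HostS τ ω h (pos h.1 l ξ) g) ω

lemma prG4 (τ : Option F → Bool × Fin 11) (hq : 88 ≤ Fintype.card F)
    (hτ : ∀ y, (Fintype.card F + 1) / 22 ≤ (univ.filter fun d => τ d = y).card)
    (γ : ℝ) (hγ : 0 ≤ γ) :
    pr (fun ω : Sl F R → F => ∃ x : (Option F × Bool) × F,
      cand τ x.1 x.2 ω ≤ (((R:ℝ) / 44) ^ 11 * del (Fintype.card F) R - γ) * Fintype.card F)
      ≤ Fintype.card ((Option F × Bool) × F)
        * Real.exp (-(γ ^ 2 / (16 * (R + 1)) * Fintype.card F)) := by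
  refine pr_exists_le _ _ fun x => ?_
  have h2 := pat_lower (fun (_ : Unit) ξ => pos x.1.1 x.2 ξ) (fun _ (s : Sl F R) => s.1 ≠ x.1.1)
    (fun _ s hs => lam_pos_inj hs _)
    (fun pat => ∃ g : Fin 11 → Option F × Fin R, (∀ j, τ (g j).1 = (x.1.2, j) ∧ (g j).1 ≠ x.1.1) ∧
      ∀ s, pat () s ↔ ∃ j, s = ((g j).1, some (g j).2)) γ _ hγ
    (fun ξ => pr_host τ hq hτ x.1 (pos x.1.1 x.2 ξ))
  have e : (4 * ((R:ℝ) + 1) * (2 * (Fintype.card Unit : ℝ)) ^ 2) = 16 * (R + 1) := by
    simp; ring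
  rw [e] at h2
  exact h2

/-- `P` looks like a host having a helper line of direction `e`. -/
def DegS (ω : Sl F R → F) (e : Option F) (P : F × F) : Prop :=
  ∃ d' : Option F, ∃ T : Finset (Sl F R), T.card = 10 ∧ (∀ s ∈ T, s.1 ≠ e ∧ s.1 ≠ d') ∧
    (d' ≠ e ∧ lam d' P = ω (d', none)) ∧
    ∀ s : Sl F R, s.1 ≠ d' → ((s.1 ≠ e ∧ lam s.1 P = ω s) ↔ s ∈ T)

lemma pr_deg (hq : 2 * (R + 11) ≤ Fintype.card F) (e : Option F) (P : F × F) :
    pr (fun ω : Sl F R → F => DegS ω e P)
      ≤ 4 * (2 * ((R:ℝ) + 1)) ^ 10 * del (Fintype.card F) R := by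
  classical
  have hq' : 2 * ((R:ℝ) + 11) ≤ Fintype.card F := by exact_mod_cast hq
  have hR : (0:ℝ) ≤ R := Nat.cast_nonneg R
  have hq0 : (0:ℝ) < Fintype.card F := by linarith
  have hx0 : 0 ≤ 1 - 1 / (Fintype.card F : ℝ) := by
    rw [sub_nonneg, div_le_one hq0]; linarith
  have hd : 0 ≤ del (Fintype.card F) R := pow_nonneg hx0 _
  let A : Option F × Finset (Sl F R) → (Sl F R → F) → Prop := fun x ω =>
    (∀ s ∈ x.2, s.1 ≠ e ∧ s.1 ≠ x.1) ∧ (x.1 ≠ e ∧ lam x.1 P = ω (x.1, none)) ∧
    ∀ s : Sl F R, s.1 ≠ x.1 → ((s.1 ≠ e ∧ lam s.1 P = ω s) ↔ s ∈ x.2)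
  have h1 := pr_exists (univ ×ˢ powersetCard 10 univ) A
  have h2 : ∀ x ∈ (univ : Finset (Option F)) ×ˢ powersetCard 10 (univ : Finset (Sl F R)),
      pr (A x) ≤ (1 / (Fintype.card F : ℝ)) ^ 11 * (2 * del (Fintype.card F) R) := by
    rintro ⟨d', T⟩ hx
    have hT : T.card = 10 := (mem_powersetCard.1 (mem_product.1 hx).2).2
    by_cases hc : (∀ s ∈ T, s.1 ≠ e ∧ s.1 ≠ d') ∧ d' ≠ e
    · have hn1 : ((d', none) : Sl F R) ∉ T := fun h => (hc.1 _ h).2 rfl
      have hn2 : ((d', none) : Sl F R) ∉ univ.filter fun s : Sl F R => s.1 ≠ e ∧ s.1 ≠ d' := by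
        simp
      have := pr_pattern (fun s : Sl F R => lam s.1 P)
        (insert (d', none) (univ.filter fun s => s.1 ≠ e ∧ s.1 ≠ d')) (insert (d', none) T)
        (insert_subset_insert _ fun s hs => mem_filter.2 ⟨mem_univ _, hc.1 s hs⟩)
      rw [card_insert_of_notMem hn1, card_insert_of_notMem hn2, card_ne_dir2 hc.2.symm, hT] at this
      refine le_trans (pr_mono ?_) (this.le.trans ?_)
      · rintro ω ⟨-, h3, h4⟩ s hs
        rcases mem_insert.1 hs with rfl | hs
        · simp [h3.2]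
        · obtain ⟨h5, h6⟩ := (mem_filter.1 hs).2
          rw [mem_insert, ← h4 s h6]
          constructor
          · exact fun h => Or.inr ⟨h5, h⟩
          · rintro (rfl | h)
            · exact absurd rfl h6
            · exact h.2
      · gcongr
        have hb := one_add_mul_le_pow (a := -(1 / (Fintype.card F : ℝ))) (by
          have : 1 / (Fintype.card F : ℝ) ≤ 1 := by linarith
          linarith) (R + 11)
        have hb2 : (1:ℝ) / 2 ≤ (1 - 1 / (Fintype.card F : ℝ)) ^ (R + 11) := by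
          refine le_trans ?_ (hb.trans (le_of_eq (by ring)))
          have : ((R:ℝ) + 11) * (1 / (Fintype.card F : ℝ)) ≤ 1 / 2 := by
            rw [mul_one_div, div_le_iff₀ hq0]; linarith
          push_cast; linarith
        have hle : (1 - 1 / (Fintype.card F : ℝ)) ^ ((Fintype.card F - 1) * (R + 1) + 1 - (10 + 1))
            * (1 - 1 / (Fintype.card F : ℝ)) ^ (R + 11) ≤ del (Fintype.card F) R := by
          rw [← pow_add, del]
          apply pow_le_pow_of_le_one hx0
          · have : 0 ≤ 1 / (Fintype.card F : ℝ) := by positivity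
            linarith
          · obtain ⟨n, hn⟩ : ∃ n, Fintype.card F = n + 1 := ⟨Fintype.card F - 1, by omega⟩
            rw [hn, Nat.add_sub_cancel, add_mul, one_mul]
            omega
        have h0 := pow_nonneg hx0 ((Fintype.card F - 1) * (R + 1) + 1 - (10 + 1))
        nlinarith
    · refine le_trans (pr_mono (B := fun _ => False) ?_) ?_
      · rintro ω ⟨h3, h4, -⟩; exact hc ⟨h3, h4.1⟩
      · rw [pr_false]; positivity
  refine le_trans (pr_mono ?_) (h1.trans ((sum_le_sum h2).trans ?_))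
  · rintro ω ⟨d', T, hT, h3⟩
    exact ⟨(d', T), mem_product.2 ⟨mem_univ _, mem_powersetCard.2 ⟨subset_univ _, hT⟩⟩, h3⟩
  · rw [sum_const, nsmul_eq_mul, card_product, card_powersetCard, card_univ, card_univ,
      Fintype.card_option]
    have h3 : ((Fintype.card (Sl F R)).choose 10 : ℝ) ≤ (2 * (R + 1) * Fintype.card F) ^ 10 := by
      have h4 : ((Fintype.card (Sl F R)).choose 10 : ℝ) ≤ (Fintype.card (Sl F R) : ℝ) ^ 10 := by
        exact_mod_cast Nat.choose_le_pow _ _
      exact h4.trans (pow_le_pow_left₀ (Nat.cast_nonneg _) N_le _)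
    push_cast
    calc ((Fintype.card F : ℝ) + 1) * (Fintype.card (Sl F R)).choose 10
          * ((1 / (Fintype.card F : ℝ)) ^ 11 * (2 * del (Fintype.card F) R))
        ≤ (2 * Fintype.card F) * (2 * (R + 1) * Fintype.card F) ^ 10
          * ((1 / (Fintype.card F : ℝ)) ^ 11 * (2 * del (Fintype.card F) R)) := by
          gcongr; linarith
      _ = _ := by field_simp; ring

/-- Number of host-like points on a line. -/
noncomputable def degc (L : Option F × F) (ω : Sl F R → F) : ℝ :=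
  cnt univ (fun ξ ω => DegS ω L.1 (pos L.1 L.2 ξ)) ω

lemma prG5 (hq : 2 * (R + 11) ≤ Fintype.card F) (γ : ℝ) (hγ : 0 ≤ γ) :
    pr (fun ω : Sl F R → F => ∃ L : Option F × F,
      (4 * (2 * ((R:ℝ) + 1)) ^ 10 * del (Fintype.card F) R + γ) * Fintype.card F ≤ degc L ω)
      ≤ Fintype.card (Option F × F)
        * Real.exp (-(γ ^ 2 / (16 * (R + 1)) * Fintype.card F)) := by
  refine pr_exists_le _ _ fun L => ?_
  have h2 := pat_upper (fun (_ : Unit) ξ => pos L.1 L.2 ξ) (fun _ (s : Sl F R) => s.1 ≠ L.1)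
    (fun _ s hs => lam_pos_inj hs _)
    (fun pat => ∃ d' : Option F, ∃ T : Finset (Sl F R), T.card = 10 ∧
      (∀ s ∈ T, s.1 ≠ L.1 ∧ s.1 ≠ d') ∧ pat () (d', none) ∧
      ∀ s : Sl F R, s.1 ≠ d' → (pat () s ↔ s ∈ T)) γ _ hγ
    (fun ξ => pr_deg hq L.1 (pos L.1 L.2 ξ))
  have e : (4 * ((R:ℝ) + 1) * (2 * (Fintype.card Unit : ℝ)) ^ 2) = 16 * (R + 1) := by
    simp; ring
  rw [e] at h2
  exact h2

/-- Number of concurrent five-tuples of slots. -/
noncomputable def conc (ω : Sl F R → F) : ℝ :=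
  cnt univ (fun (x : (F × F) × (Fin 5 → Sl F R)) ω => Function.Injective x.2 ∧
    ∀ t, lam (x.2 t).1 x.1 = ω (x.2 t)) ω

lemma prG6 : pr (fun ω : Sl F R → F =>
    8 * (2 * ((R:ℝ) + 1)) ^ 5 * (Fintype.card F : ℝ) ^ 2 ≤ conc ω) ≤ 1 / 8 := by
  classical
  have hq0 : (0:ℝ) < Fintype.card F := by exact_mod_cast Fintype.card_pos
  refine (markov conc (fun ω => Nat.cast_nonneg _) (by positivity)).trans ?_
  rw [div_le_iff₀ (by positivity)]
  unfold conc
  rw [avg_cnt]
  have h1 : ∀ x : (F × F) × (Fin 5 → Sl F R), pr (fun ω : Sl F R → F => Function.Injective x.2 ∧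
      ∀ t, lam (x.2 t).1 x.1 = ω (x.2 t)) ≤ (1 / (Fintype.card F : ℝ)) ^ 5 := by
    intro x
    by_cases hx : Function.Injective x.2
    · have := pr_pattern (fun s : Sl F R => lam s.1 x.1) (univ.image x.2) (univ.image x.2)
        subset_rfl
      rw [Nat.sub_self, pow_zero, mul_one, card_image_of_injective _ hx, card_univ,
        Fintype.card_fin] at this
      refine le_trans (pr_mono ?_) this.le
      rintro ω ⟨-, h⟩ s hs
      obtain ⟨t, -, rfl⟩ := mem_image.1 hs
      exact ⟨fun _ => hs, fun _ => h t⟩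
    · refine le_trans (pr_mono (B := fun _ => False) fun ω h => hx h.1) ?_
      rw [pr_false]; positivity
  refine (sum_le_sum fun x _ => h1 x).trans ?_
  rw [sum_const, nsmul_eq_mul, card_univ, Fintype.card_prod, Fintype.card_prod, Fintype.card_fun,
    Fintype.card_fin]
  push_cast
  calc (Fintype.card F : ℝ) * Fintype.card F * (Fintype.card (Sl F R) : ℝ) ^ 5
        * (1 / (Fintype.card F : ℝ)) ^ 5
      ≤ (Fintype.card F : ℝ) * Fintype.card F * (2 * (R + 1) * Fintype.card F) ^ 5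
        * (1 / (Fintype.card F : ℝ)) ^ 5 := by gcongr; exact N_le
    _ = _ := by field_simp

lemma exists_tau : ∃ τ : Option F → Bool × Fin 11,
    ∀ y, (Fintype.card F + 1) / 22 ≤ (univ.filter fun d => τ d = y).card := by
  let e : Option F ≃ Fin (Fintype.card F + 1) := Fintype.equivFinOfCardEq (by simp)
  let e2 : Fin 22 ≃ Bool × Fin 11 := (Fintype.equivFinOfCardEq (by simp)).symm
  refine ⟨fun d => e2 ⟨(e d).val % 22, Nat.mod_lt _ (by norm_num)⟩, fun y => ?_⟩
  have hb : ∀ i : Fin ((Fintype.card F + 1) / 22), 22 * i.val + (e2.symm y).val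
      < Fintype.card F + 1 := by
    intro i
    have := i.2
    have := (e2.symm y).2
    omega
  have := card_le_card_of_injOn (s := (univ : Finset (Fin ((Fintype.card F + 1) / 22))))
    (t := univ.filter fun d => e2 ⟨(e d).val % 22, Nat.mod_lt _ (by norm_num)⟩ = y)
    (fun i => e.symm ⟨22 * i.val + (e2.symm y).val, hb i⟩) (by
      intro i _
      simp only [coe_filter, mem_univ, true_and, Set.mem_ofPred_eq, Equiv.apply_symm_apply]
      rw [← Equiv.eq_symm_apply]
      apply Fin.ext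
      have := (e2.symm y).2
      simp only
      omega) (by
      intro i _ j _ h
      have := e.symm.injective h
      simp only [Fin.mk.injEq] at this
      exact Fin.ext (by omega))
  simpa using this

end Vale.Agent.P045
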